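import Vale.Agent.P159.T1.H565.Up6
import Vale.Agent.P159.T1.H376.Fin
import Vale.Agent.P159.T1.H775.EN

/-!
Row D.UP from D.U.
-/

namespace Vale.Agent.P159.T1.H565

open Vale.Agent.P159.T1.D

/-- **row D.UP from row D.U** -/
theorem up (hU : StmtU) : StmtUp := up_of hU H775.stmtEN H376.stmtOSC H376.stmtSUP

end Vale.Agent.P159.T1.H565
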