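import Vale.Agent.P159.T1.H565.Coul4
import Vale.Agent.P159.T1.F.Fin

/-!
The Coulomb gas formula for all neutral correlations, from the sharp bound on the axis.
-/

open Filter Topology

namespace Vale.Agent.P159.T1.H565

open Vale.Agent.P159 Vale.Agent.P159.H454 Vale.Agent.P159.H950

theorem low_of_axis {b : ℝ} (hb : bCrit ≤ b)
    (h : F.AxisB b (1 / (2 * Real.pi * helicity b))) {ε : ℝ} (hε : 0 < ε) :
    ∃ c : ℝ, 0 < c ∧ ∀ y : ℤ × ℤ, y ≠ 0 →
      c * ((max |y.1| |y.2| : ℤ) : ℝ) ^ (-(1 / (2 * Real.pi * helicity b) + ε)) ≤ corrInf b y :=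
  F.all_sites F.mms_all (H170.bCrit_pos.trans_le hb)
    (one_div_nonneg.2 (by have := F.hel_pos hb; have := Real.pi_pos; positivity)) h hε

/-- **the Coulomb gas formula**, logarithmic form -/
theorem coulomb_log {b : ℝ} (hb : bCrit ≤ b)
    (h : F.AxisB b (1 / (2 * Real.pi * helicity b))) {k : ℕ} (m : Fin k → ℤ)
    (hm : ∑ j, m j = 0) {ε : ℝ} (hε : 0 < ε) :
    ∃ K : ℝ, ∀ (x : Fin k → ℤ × ℤ) (N : ℕ), 1 ≤ N →
      (∀ i j, max |(x i - x j).1| |(x i - x j).2| ≤ (N : ℤ)) →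
      0 < chargeInf b m x ∧
      |Real.log (chargeInf b m x) - 1 / (4 * Real.pi * helicity b) *
        ∑ i, ∑ j, (m i * m j : ℝ) *
          Real.log (max 1 ((max |(x i - x j).1| |(x i - x j).2| : ℤ) : ℝ))| ≤
        ε * Real.log N + K := by
  obtain ⟨K, hK⟩ := coul_log hb (fun ε hε => low_of_axis hb h hε)
    (fun q η hη => up_two hb q η hη) hm hε
  obtain ⟨C, -, hC⟩ := apriori hb hm
  refine ⟨K, fun x N hN hx => ⟨(hC x N hN hx).1, ?_⟩⟩
  refine le_trans (le_of_eq ?_) (hK x N hN hx)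
  rw [← abs_neg]
  congr 1
  unfold Qf ll ds
  have e : 1 / (2 * Real.pi * helicity b) / 2 = 1 / (4 * Real.pi * helicity b) := by
    rw [div_div]
    congr 1
    ring
  rw [e]
  ring

/-- **the Coulomb gas formula**, product form -/
theorem coulomb_prod {b : ℝ} (hb : bCrit ≤ b)
    (h : F.AxisB b (1 / (2 * Real.pi * helicity b))) {k : ℕ} (m : Fin k → ℤ)
    (hm : ∑ j, m j = 0) {ε : ℝ} (hε : 0 < ε) :
    ∃ K : ℝ, 0 < K ∧ ∀ (x : Fin k → ℤ × ℤ) (N : ℕ), 1 ≤ N →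
      (∀ i j, max |(x i - x j).1| |(x i - x j).2| ≤ (N : ℤ)) →
      K⁻¹ * (N : ℝ) ^ (-ε) * (∏ i, ∏ j ∈ Finset.Ioi i,
          (max 1 ((max |(x i - x j).1| |(x i - x j).2| : ℤ) : ℝ)) ^
            (1 / (2 * Real.pi * helicity b) * m i * m j)) ≤ chargeInf b m x ∧
      chargeInf b m x ≤ K * (N : ℝ) ^ ε * (∏ i, ∏ j ∈ Finset.Ioi i,
          (max 1 ((max |(x i - x j).1| |(x i - x j).2| : ℤ) : ℝ)) ^
            (1 / (2 * Real.pi * helicity b) * m i * m j)) :=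
  coulomb hb (fun ε hε => low_of_axis hb h hε) hm hε

end Vale.Agent.P159.T1.H565
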