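import Vale.Agent.P159.T1.H565.Up4
import Vale.Agent.P159.H170.Final

/-!
Row D.UP, assembly: `StmtU` and the lattice sums of the tilt field give `StmtUp`.
-/

namespace Vale.Agent.P159.T1.H565

open Vale.Agent.P159.T1.D

/-- the tilt fields of the two tips have disjoint supports -/
theorem Kf_mul_mB {q : ℕ} {c₂ c₁ a : ℝ} {r : ℕ} (hr : 3 ≤ r) (e : Bnd) :
    Kf q c₂ c₁ (clp a ((r : ℝ) / 4)) e * mB r (Kf q c₂ c₁ (clp a ((r : ℝ) / 4))) e = 0 := by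
  have hr' : (3 : ℝ) ≤ r := by exact_mod_cast hr
  have hr0 : (0 : ℝ) < (r : ℝ) / 4 := by linarith
  by_contra hne
  have h1 : Kf q c₂ c₁ (clp a ((r : ℝ) / 4)) e ≠ 0 := left_ne_zero_of_mul hne
  have h2 : Kf q c₂ c₁ (clp a ((r : ℝ) / 4)) (mb r e) ≠ 0 := by
    intro h
    apply right_ne_zero_of_mul hne
    unfold mB
    rw [h]
    simp
  have near : ∀ e' : Bnd, Kf q c₂ c₁ (clp a ((r : ℝ) / 4)) e' ≠ 0 →
      ((e'.1.1 : ℤ) : ℝ) < (r : ℝ) / 4 + 0 := by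
    intro e' h
    by_contra hc
    push Not at hc
    apply h
    have hb : (r : ℝ) / 4 ≤ ((bs e').1 : ℝ) := by unfold bs; linarith
    have ht : (r : ℝ) / 4 ≤ ((bt e').1 : ℝ) := by
      unfold bt
      split_ifs
      · simp only; linarith
      · simp only; push_cast; linarith
    exact Kf_far hr0 ((hb.trans (le_abs_self _)).trans (abs_le_nrm _))
      ((ht.trans (le_abs_self _)).trans (abs_le_nrm _))
  have h3 := near e h1
  have h4 := near (mb r e) h2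
  have h5 : ((mb r e).1.1 : ℝ) ≥ (r : ℝ) - 1 - e.1.1 := by
    unfold mb
    split_ifs
    · simp only; push_cast; linarith
    · simp only; push_cast; linarith
  have h6 : ((e.1.1 : ℤ) : ℝ) < (r : ℝ) / 4 := by linarith
  have h7 : (r : ℝ) - 1 - e.1.1 < (r : ℝ) / 4 := by linarith
  -- integers: e.1.1 < r/4 and e.1.1 > 3r/4 - 1
  have h8 : 4 * e.1.1 < r := by
    have : (4 * e.1.1 : ℝ) < r := by linarith
    exact_mod_cast this
  have h9 : 4 * ((r : ℤ) - 1 - e.1.1) < r := by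
    have : (4 * ((r : ℝ) - 1 - e.1.1)) < r := by linarith
    exact_mod_cast this
  omega

/-- the whole field -/
noncomputable def BB (q : ℕ) (c₂ c₁ : ℝ) (n0 r : ℕ) (κ x y s : ℝ) (e : Bnd) : ℝ :=
  Kf q c₂ c₁ (clp n0 ((r : ℝ) / 4)) e + mB r (Kf q c₂ c₁ (clp n0 ((r : ℝ) / 4))) e +
    Bb r κ x y s e + mB r (Bb r κ x y s) e

theorem dv_add4 (B1 B2 B3 B4 : Bnd → ℝ) (f : Z2) :
    dv (fun e => B1 e + B2 e + B3 e + B4 e) f = dv B1 f + dv B2 f + dv B3 f + dv B4 f := by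
  unfold dv; ring

theorem isDiv_BB {Y V : ℝ} {q R r n0 : ℕ} {κ x y s : ℝ} (hq : 1 ≤ q) (a : ℝ) (hr : 1 ≤ r)
    (hs : 0 < s) (hx : s < x) (hx1 : s + x < 1) (hy : s < y) (hy1 : s + y < 1) :
    IsDiv (SB R r) (BB q (V / (Y * ang q) + a) (-(V / (Y * (2 * Real.pi - ang q))) + a)
      n0 r κ x y s) (D.rho Y V q n0 r κ x y s) := by
  rw [isDiv_iff]
  intro f hf
  have h1 := isDiv_Kf (Y := Y) (V := V) (R := R) (r := r) hq (clp n0 ((r : ℝ) / 4)) a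
  have h2 := isDiv_mB h1
  have h3 := isDiv_Bb (κ := κ) hs hr hx hx1 hy hy1 R
  have h4 := isDiv_mB h3
  rw [isDiv_iff] at h1 h2 h3 h4
  unfold BB
  rw [dv_add4, h1 f hf, h2 f hf, h3 f hf, h4 f hf]
  rfl

theorem Fl_add4 (U : Finset Z2) (m : Bnd → ℤ) (B1 B2 B3 B4 : Bnd → ℝ) :
    Fl U (fun e => B1 e + B2 e + B3 e + B4 e) m = Fl U B1 m + Fl U B2 m + Fl U B3 m + Fl U B4 m := by
  unfold Fl
  rw [← Finset.sum_add_distrib, ← Finset.sum_add_distrib, ← Finset.sum_add_distrib]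
  exact Finset.sum_congr rfl fun e _ => by ring

theorem Fl_BB {q : ℕ} {c₂ c₁ : ℝ} {n0 R r : ℕ} {κ x y s : ℝ} (hn : 1 ≤ n0) (hr : 1 ≤ r)
    (hR : r ≤ R) : Fl (SB R r) (BB q c₂ c₁ n0 r κ x y s) (sec (SB R r) 1) =
      2 * (c₁ * Lam n0 ((r : ℝ) / 4)) := by
  have e : BB q c₂ c₁ n0 r κ x y s = fun e => Kf q c₂ c₁ (clp n0 ((r : ℝ) / 4)) e +
      mB r (Kf q c₂ c₁ (clp n0 ((r : ℝ) / 4))) e + Bb r κ x y s e + mB r (Bb r κ x y s) e := rfl
  rw [e, Fl_add4, Fl_mB, Fl_mB, Fl_Bb, Fl_Kf hn hr hR]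
  ring

/-- energy of the whole field -/
theorem energy_BB {q : ℕ} {c₂ c₁ : ℝ} {n0 r : ℕ} {κ x y s : ℝ} (hr : 3 ≤ r) (hκ : 0 ≤ κ)
    (hs : 0 < s) (hx : s < x) (hx1 : s + x < 1) {M δ : ℝ} (hδ : 0 < δ)
    (hM : ∀ S : Finset Bnd, ∑ e ∈ S, Kf q c₂ c₁ (clp n0 ((r : ℝ) / 4)) e ^ 2 ≤ M)
    (S : Finset Bnd) : ∑ e ∈ S, BB q c₂ c₁ n0 r κ x y s e ^ 2 ≤
      (1 + δ) * (2 * M) + (1 + 1 / δ) * (4 * (κ * s ^ 8) ^ 2) := by
  set K := Kf q c₂ c₁ (clp n0 ((r : ℝ) / 4)) with hK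
  have hpt : ∀ e, BB q c₂ c₁ n0 r κ x y s e ^ 2 ≤ (1 + δ) * (K e ^ 2 + mB r K e ^ 2) +
      (1 + 1 / δ) * (2 * Bb r κ x y s e ^ 2 + 2 * mB r (Bb r κ x y s) e ^ 2) := by
    intro e
    have h0 : K e * mB r K e = 0 := Kf_mul_mB hr e
    have e1 : BB q c₂ c₁ n0 r κ x y s e = K e + mB r K e + Bb r κ x y s e +
      mB r (Bb r κ x y s) e := rfl
    rw [e1]
    set A := K e + mB r K e with hA
    set D := Bb r κ x y s e + mB r (Bb r κ x y s) e with hD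
    have e2 : A ^ 2 = K e ^ 2 + mB r K e ^ 2 := by rw [hA]; linear_combination 2 * h0
    have e3 : D ^ 2 ≤ 2 * Bb r κ x y s e ^ 2 + 2 * mB r (Bb r κ x y s) e ^ 2 := by
      rw [hD]; nlinarith [sq_nonneg (Bb r κ x y s e - mB r (Bb r κ x y s) e)]
    have e4 : (A + D) ^ 2 ≤ (1 + δ) * A ^ 2 + (1 + 1 / δ) * D ^ 2 := by
      have h5 : 0 ≤ (1 / δ) * (δ * A - D) ^ 2 := by positivity
      have h6 : (1 / δ) * (δ * A - D) ^ 2 = δ * A ^ 2 - 2 * A * D + (1 / δ) * D ^ 2 := by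
        field_simp
        ring
      nlinarith
    calc (K e + mB r K e + Bb r κ x y s e + mB r (Bb r κ x y s) e) ^ 2 = (A + D) ^ 2 := by
          rw [hA, hD]; ring
      _ ≤ (1 + δ) * A ^ 2 + (1 + 1 / δ) * D ^ 2 := e4
      _ ≤ _ := by
          rw [e2]
          have : 0 ≤ 1 + 1 / δ := by positivity
          nlinarith [mul_le_mul_of_nonneg_left e3 this]
  refine (Finset.sum_le_sum fun e _ => hpt e).trans ?_
  rw [Finset.sum_add_distrib, ← Finset.mul_sum, ← Finset.mul_sum, Finset.sum_add_distrib,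
    Finset.sum_add_distrib, ← Finset.mul_sum, ← Finset.mul_sum, sum_mB_sq, sum_mB_sq]
  have h1 := hM S
  have h2 := hM (S.image (mb r))
  have h3 := sum_Bb_sq (y := y) hκ hs (by omega : 1 ≤ r) hx hx1 S
  have h4 := sum_Bb_sq (y := y) hκ hs (by omega : 1 ≤ r) hx hx1 (S.image (mb r))
  have h5 : 0 ≤ 1 + δ := by positivity
  have h6 : 0 ≤ 1 + 1 / δ := by positivity
  refine add_le_add (mul_le_mul_of_nonneg_left (by linarith) h5)
    (mul_le_mul_of_nonneg_left (by linarith) h6)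

/-- oscillation of the whole field -/
theorem osc_BB {q : ℕ} {c₂ c₁ : ℝ} {n0 r l : ℕ} {κ x y s : ℝ} (hr : 1 ≤ r) (hκ : 0 ≤ κ)
    (hs : 0 < s) (hx : s < x) (hx1 : s + x < 1) {M : ℝ}
    (hM : ∀ S : Finset Bnd, osc l S (Kf q c₂ c₁ (clp n0 ((r : ℝ) / 4))) ≤ M)
    (S : Finset Bnd) : osc l S (BB q c₂ c₁ n0 r κ x y s) ≤
      8 * M + 8 * (((2 * l + 1) ^ 2 : ℕ) * (4 * (κ * s ^ 8) ^ 2)) := by
  have h0 := osc_add4 l S (Kf q c₂ c₁ (clp n0 ((r : ℝ) / 4)))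
    (mB r (Kf q c₂ c₁ (clp n0 ((r : ℝ) / 4)))) (Bb r κ x y s) (mB r (Bb r κ x y s))
  rw [osc_mB, osc_mB] at h0
  have h1 := hM S
  have h2 := hM (S.image (mb r))
  have h3 := osc_le_energy (l := l) (S := S)
    (fun S => sum_Bb_sq (y := y) hκ hs hr hx hx1 S)
  have h4 := osc_le_energy (l := l) (S := S.image (mb r))
    (fun S => sum_Bb_sq (y := y) hκ hs hr hx hx1 S)
  refine h0.trans ?_
  linarith

/-- the box which contains the support of the field -/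
noncomputable def Sbig (r : ℕ) : Finset Bnd :=
  (Finset.Icc (-(4 * r : ℤ)) (4 * r) ×ˢ Finset.Icc (-(4 * r : ℤ)) (4 * r)) ×ˢ Finset.univ

theorem Kf_small {q : ℕ} {c₂ c₁ a : ℝ} {r : ℕ} (hr : 3 ≤ r) {e : Bnd}
    (he : ¬ (|e.1.1| ≤ r ∧ |e.1.2| ≤ r)) : Kf q c₂ c₁ (clp a ((r : ℝ) / 4)) e = 0 := by
  have hr' : (3 : ℝ) ≤ r := by exact_mod_cast hr
  have hr0 : (0 : ℝ) < (r : ℝ) / 4 := by linarith
  have key : ∀ P : Z2, ((r : ℤ) ≤ |P.1| ∨ (r : ℤ) ≤ |P.2|) → (r : ℝ) / 4 ≤ nrm P := by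
    intro P hP
    rcases hP with h | h
    · have h1 : (r : ℝ) ≤ |(P.1 : ℝ)| := by exact_mod_cast h
      linarith [abs_le_nrm P]
    · have h1 : (r : ℝ) ≤ |(P.2 : ℝ)| := by exact_mod_cast h
      linarith [abs_le_nrm' P]
  obtain ⟨⟨i, j⟩, c⟩ := e
  simp only at he
  refine Kf_far hr0 (key _ ?_) (key _ ?_)
  · unfold bs
    simp only
    omega
  · unfold bt
    cases c
    · simp only [Bool.false_eq_true, if_false]
      by_contra hcon
      apply he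
      rw [abs_le, abs_le]
      push Not at hcon
      rw [abs_lt, abs_lt] at hcon
      omega
    · simp only [if_true]
      by_contra hcon
      apply he
      rw [abs_le, abs_le]
      push Not at hcon
      rw [abs_lt, abs_lt] at hcon
      omega

theorem BB_supp {q : ℕ} {c₂ c₁ : ℝ} {n0 r : ℕ} {κ x y s : ℝ} (hr : 3 ≤ r)
    (hs : 0 < s) (hx : s < x) (hx1 : s + x < 1) {e : Bnd} (he : e ∉ Sbig r) :
    BB q c₂ c₁ n0 r κ x y s e = 0 := by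
  have hbig : ¬ ((-(4 * r : ℤ) ≤ e.1.1 ∧ e.1.1 ≤ 4 * r) ∧
      (-(4 * r : ℤ) ≤ e.1.2 ∧ e.1.2 ≤ 4 * r)) := by
    intro h
    apply he
    unfold Sbig
    rw [Finset.mem_product, Finset.mem_product, Finset.mem_Icc, Finset.mem_Icc]
    exact ⟨h, Finset.mem_univ _⟩
  have h1 : ¬ (|e.1.1| ≤ (r : ℤ) ∧ |e.1.2| ≤ (r : ℤ)) := by
    rintro ⟨h1, h2⟩
    rw [abs_le] at h1 h2
    apply hbig
    omega
  have h2 : ¬ (|(mb r e).1.1| ≤ (r : ℤ) ∧ |(mb r e).1.2| ≤ (r : ℤ)) := by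
    rintro ⟨h1, h2⟩
    rw [abs_le] at h1 h2
    apply hbig
    unfold mb at h1 h2
    split_ifs at h1 h2 <;> simp only at h1 h2 <;> omega
  have h3 : e ∉ Sb r := by
    unfold Sb
    rw [Finset.mem_product, Finset.mem_product, Finset.mem_Ico, Finset.mem_Ico]
    rintro ⟨⟨a, b⟩, _⟩
    apply hbig
    omega
  have h4 : mb r e ∉ Sb r := by
    unfold Sb
    rw [Finset.mem_product, Finset.mem_product, Finset.mem_Ico, Finset.mem_Ico]
    rintro ⟨⟨a, b⟩, _⟩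
    apply hbig
    unfold mb at a b
    split_ifs at a b <;> simp only at a b <;> omega
  have e1 : mB r (Kf q c₂ c₁ (clp n0 ((r : ℝ) / 4))) e = 0 := by
    have := abs_mB r (Kf q c₂ c₁ (clp n0 ((r : ℝ) / 4))) e
    rw [Kf_small hr h2, abs_zero] at this
    exact abs_eq_zero.1 this
  have e2 : mB r (Bb r κ x y s) e = 0 := by
    have := abs_mB r (Bb r κ x y s) e
    rw [Bb_supp hs (by omega) hx hx1 h4, abs_zero] at this
    exact abs_eq_zero.1 this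
  unfold BB
  rw [Kf_small hr h1, e1, e2, Bb_supp hs (by omega) hx hx1 h3]
  ring

end Vale.Agent.P159.T1.H565
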