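import Vale.Agent.P159.T1.H565.Upm6
import Vale.Agent.P159.T1.S.Stmts

/-!
Row S.UPM, conclusion: `StmtU` gives `StmtUpM`.
-/

namespace Vale.Agent.P159.T1.H565

open Vale.Agent.P159.T1.D

theorem bump_two (r : ℕ) (κ x y s : ℝ) (f : Z2) :
    bump r (2 * κ) x y s f = 2 * bump r κ x y s f := by
  unfold bump
  ring

theorem En_two (V : ℝ) (q : ℕ) : En (2 * V) q = 4 * En V q := by
  unfold En
  ring

/-- twice the charges `ρ'` -/
theorem two_rp (Y V : ℝ) (q n0 r : ℕ) (κ x y s c1 : ℝ) :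
    (fun f => 2 * S.rp Y V q n0 r κ x y s c1 f) =
      fun f => ro Y (2 * (V - S.aq q)) q (clp n0 ((r : ℝ) / 4)) f +
          ro Y (2 * (V - S.aq q)) q (clp n0 ((r : ℝ) / 4)) (mir r f) +
          (ro Y (2 * S.aq q) q (GD n0 c1 r) f + ro Y (2 * S.aq q) q (GD n0 c1 r) (mir r f) +
            bump r (2 * κ) x y s f + bump r (2 * κ) x y s (mir r f)) := by
  funext f
  unfold S.rp S.rz D.rho
  rw [ro_GD, ro_GD, bump_two, bump_two, ro_smul', ro_smul', ro_smul', ro_smul', ro_smul',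
    ro_smul', ro_sub', ro_sub']
  ring

theorem Lam_c_bd {n0 : ℕ} {c r : ℝ} (hn : 1 ≤ n0) (hr : 1 ≤ r) (hc : 0 < c) :
    |max (Real.log n0) (Real.log (c * r)) - Real.log n0 - Real.log r| ≤
      |Real.log c| + Real.log n0 := by
  have hn' : (1 : ℝ) ≤ n0 := by exact_mod_cast hn
  have h0 : 0 ≤ Real.log n0 := Real.log_nonneg hn'
  have h1 : 0 ≤ Real.log r := Real.log_nonneg hr
  have h2 : Real.log (c * r) = Real.log c + Real.log r :=
    Real.log_mul hc.ne' (by linarith)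
  have h3 := neg_abs_le (Real.log c)
  have h4 := le_abs_self (Real.log c)
  have h5 := abs_nonneg (Real.log c)
  rw [h2, abs_le]
  rcases le_total (Real.log n0) (Real.log c + Real.log r) with h | h
  · rw [max_eq_right h]
    constructor <;> linarith
  · rw [max_eq_left h]
    constructor <;> linarith

/-- total of the charges `ρ'` -/
theorem tot_rp {Y V κ x y s c1 : ℝ} {q n0 R r : ℕ} (hY : 0 < Y) (hq : 1 ≤ q)
    (hn : q + 1 ≤ n0) (hr : 1 ≤ r) (hR : r ≤ R) (hR1 : 2 ≤ R) (hκ : 0 ≤ κ) (hs : 0 < s)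
    (hx : s < x) (hx1 : s + x < 1) (hy : s < y) (hy1 : s + y < 1) (hc : 0 < c1)
    (hc4 : c1 ≤ 1 / 4) :
    |∑ f ∈ SB R r, S.rp Y V q n0 r κ x y s c1 f -
      2 * Real.log r / Y * ((V - S.aq q) / ang q + (V - S.aq q) / (2 * Real.pi - ang q))| ≤
      2 / Y * |V / ang q + V / (2 * Real.pi - ang q)| * (Real.log 4 + Real.log n0) +
        2 * (κ * s ^ 8) + 2 / Y * |S.aq q / ang q + S.aq q / (2 * Real.pi - ang q)| *
        (|Real.log c1| + Real.log n0) := by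
  have hr' : (1 : ℝ) ≤ r := by exact_mod_cast hr
  have hn' : (1 : ℝ) ≤ n0 := by exact_mod_cast (by omega : 1 ≤ n0)
  have hcr0 : 0 < c1 * (r : ℝ) := by positivity
  have hle : c1 * r ≤ (r : ℝ) / 4 := by nlinarith
  have h1 := tot_rho (Y := Y) (V := V) hY hq hn hr hR hR1 hκ hs hx hx1 hy hy1
  obtain ⟨Gi, hGi⟩ : ∃ Gi, Gi = max (Real.log n0) (Real.log (c1 * r)) := ⟨_, rfl⟩
  have hΓ : ∀ P : Z2, (r : ℝ) / 4 ≤ nrm P → clp n0 (c1 * r) (D.tau P) = Gi := by
    intro P hP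
    rw [clp_far hcr0 (hle.trans hP), hGi]
  have hΓ0 : ∀ P : Z2, nrm P ≤ n0 → clp n0 (c1 * r) (D.tau P) = Real.log n0 :=
    fun P hP => clp_near hn' hP
  have h2 := tot_roG (Y := Y) (V := S.aq q) hq hn hr hR hR1 hΓ hΓ0
  have h3 := sum_mir R r (ro Y (S.aq q) q (clp n0 (c1 * r)))
  have h4 := Lam_c_bd (n0 := n0) (by omega) hr' hc
  rw [← hGi] at h4
  obtain ⟨W, hW⟩ : ∃ W, W = V / ang q + V / (2 * Real.pi - ang q) := ⟨_, rfl⟩
  obtain ⟨W', hW'⟩ : ∃ W', W' = S.aq q / ang q + S.aq q / (2 * Real.pi - ang q) := ⟨_, rfl⟩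
  have h6 : S.aq q / (Y * ang q) + S.aq q / (Y * (2 * Real.pi - ang q)) = 1 / Y * W' := by
    rw [hW', mul_add, one_div_mul_eq_div, one_div_mul_eq_div, div_div, div_div,
      mul_comm (ang q) Y, mul_comm (2 * Real.pi - ang q) Y]
  have h7 : (V - S.aq q) / ang q + (V - S.aq q) / (2 * Real.pi - ang q) = W - W' := by
    rw [hW, hW', sub_div, sub_div]
    ring
  have h5 : ∑ f ∈ SB R r, S.rp Y V q n0 r κ x y s c1 f =
      ∑ f ∈ SB R r, D.rho Y V q n0 r κ x y s f - 2 * (1 / Y * W' * (Gi - Real.log n0)) := by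
    unfold S.rp S.rz
    rw [Finset.sum_sub_distrib, Finset.sum_add_distrib, h3, h2, h6]
    ring
  rw [← hW] at h1
  rw [h5, h7, ← hW, ← hW']
  have h8 : ∑ f ∈ SB R r, D.rho Y V q n0 r κ x y s f - 2 * (1 / Y * W' * (Gi - Real.log n0)) -
      2 * Real.log r / Y * (W - W') =
      (∑ f ∈ SB R r, D.rho Y V q n0 r κ x y s f - 2 * Real.log r / Y * W) +
        -(2 / Y * W' * (Gi - Real.log n0 - Real.log r)) := by
    ring
  rw [h8]
  refine (abs_add_le _ _).trans (add_le_add h1 ?_)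
  rw [abs_neg, abs_mul, abs_mul, abs_of_pos (by positivity : 0 < 2 / Y)]
  exact mul_le_mul_of_nonneg_left h4 (by positivity)

/-- **row S.UPM** -/
theorem stmtUpM (hU : StmtU) : S.StmtUpM := by
  intro b V ε κ x y s c1 q hb hV hε hpar
  obtain ⟨hq, hκ, hs, hsy, hsx, hqy, hc, hc2⟩ := hpar
  have hq' : (1 : ℝ) ≤ q := by exact_mod_cast hq
  have hyx : y + s < x - s := by nlinarith
  have hxs : s < x := by linarith
  have hsx1 : s + x < 1 := by linarith
  have hsy1 : s + y < 1 := by linarith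
  have hc4 : c1 ≤ 1 / 4 := by linarith
  have hb0 : 0 < b := lt_of_lt_of_le H170.bCrit_pos hb
  have hY : 0 < helicity b := hel_pos' hb
  obtain ⟨η, n1, hη, hmain⟩ := up_gen hU b (2 * (V - S.aq q)) q ε (-1) hb hq hε
  obtain ⟨M, hM0, hM⟩ := XW_props (Y := helicity b) (a := 2 * S.aq q) (q := q) (c := c1)
    (κ := 2 * κ) (x := x) (y := y) (s := s) hc hc4 (by positivity) hs hxs hsx1
  refine ⟨n1 + q + 1, fun n0 hn0 => ?_⟩
  obtain ⟨C, hC⟩ := hmain n0 (by omega) (max (162 * M ^ 2) M)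
  obtain ⟨n2, hn2⟩ := exists_nat_ge (M / η)
  obtain ⟨n3, hn3⟩ := exists_nat_ge (4 / c1)
  obtain ⟨C', hC'⟩ : ∃ C', C' = 2 / helicity b *
    |V / ang q + V / (2 * Real.pi - ang q)| * (Real.log 4 + Real.log n0) +
        2 * (κ * s ^ 8) + 2 / helicity b * |S.aq q / ang q + S.aq q / (2 * Real.pi - ang q)| *
        (|Real.log c1| + Real.log n0) := ⟨_, rfl⟩
  refine ⟨C + 2 * C', n1 + n2 + n3 + 3, fun A r hA hr => ?_⟩
  have hr1 : 1 ≤ r := by omega
  have hr' : (0 : ℝ) < r := by exact_mod_cast hr1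
  have hrA : r ≤ A * r := Nat.le_mul_of_pos_left r hA
  have hcr : 4 ≤ c1 * r := by
    have h1 : (n3 : ℝ) ≤ r := by exact_mod_cast (by omega : n3 ≤ r)
    rw [div_le_iff₀ hc] at hn3
    nlinarith
  obtain ⟨hX1, hX2, hX3⟩ := hM n0 (A * r) r (by omega) (by omega) hcr hrA
  have hsm : ∀ e, |XW (helicity b) (2 * S.aq q) q n0 r c1 (2 * κ) x y s e| ≤ η := by
    intro e
    refine (hX1 e).trans ?_
    rw [div_le_iff₀ hr']
    rw [div_le_iff₀ hη] at hn2
    have h1 : (n2 : ℝ) ≤ r := by exact_mod_cast (by omega : n2 ≤ r)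
    nlinarith
  have hen : ∀ S' : Finset Bnd,
      ∑ e ∈ S', XW (helicity b) (2 * S.aq q) q n0 r c1 (2 * κ) x y s e ^ 2 ≤
        max (162 * M ^ 2) M :=
    fun S' => (energy_small hr1 hX1 hX2 S').trans (le_max_left _ _)
  have h1 := hC A r hA (by omega) _ _ (Sbig r)
    (isDiv_XW (Y := helicity b) (a := 2 * S.aq q) (R := A * r) (n0 := n0) (c := c1)
      (κ := 2 * κ) hq hr1 hs hxs hsx1 hsy hsy1) hX2 hsm hen (hX3.trans (le_max_right _ _))
  have e0 := two_rp (helicity b) V q n0 r κ x y s c1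
  rw [← e0] at h1
  have h2 := tot_rp (Y := helicity b) (V := V) (κ := κ) (x := x) (y := y) (s := s) (c1 := c1)
    hY hq (by omega : q + 1 ≤ n0) hr1 hrA (by omega) hκ.le hs hxs hsx1 hsy hsy1 hc hc4
  rw [← hC'] at h2
  obtain ⟨T, hT⟩ : ∃ T, T = ∑ f ∈ SB (A * r) r, S.rp (helicity b) V q n0 r κ x y s c1 f :=
    ⟨_, rfl⟩
  rw [← hT] at h2 ⊢
  obtain ⟨W, hW⟩ : ∃ W, W = (V - S.aq q) / ang q + (V - S.aq q) / (2 * Real.pi - ang q) :=
    ⟨_, rfl⟩
  rw [← hW] at h2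
  have h3 : 2 * T ≤ 2 * (2 * Real.log r / helicity b * W) + 2 * C' := by
    have := (abs_le.1 h2).2
    linarith
  calc Real.exp (2 * T) * Zs b (SB (A * r) r) (-1)
        (fun f => 2 * S.rp (helicity b) V q n0 r κ x y s c1 f)
      ≤ Real.exp (2 * (2 * Real.log r / helicity b * W) + 2 * C') *
        (Real.exp (2 * Real.log r / helicity b *
          (En (2 * (V - S.aq q)) q + ((-1 : ℤ) : ℝ) * (2 * (V - S.aq q)) /
            (2 * Real.pi - ang q) - ((-1 : ℤ) : ℝ) ^ 2 / (4 * Real.pi)) +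
          ε * Real.log r + C) * Z b (SB (A * r) r)) := by
        refine mul_le_mul (Real.exp_le_exp.2 h3) h1 ?_ (Real.exp_pos _).le
        unfold Zs wt
        exact tsum_nonneg fun h => mul_nonneg (Finset.prod_nonneg fun e _ =>
          H353.wI_nonneg hb0.le _) (Real.exp_pos _).le
    _ = _ := by
        rw [← mul_assoc, ← Real.exp_add, En_two]
        congr 2
        rw [hW]
        push_cast
        ring

end Vale.Agent.P159.T1.H565
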