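import Vale.Agent.P159.T1.H565.Upm3

/-!
Row S.UPM: the upper bound for the sectors `(0|k)`.
-/

namespace Vale.Agent.P159.T1.H565

open Vale.Agent.P159.T1.D

theorem sum_mir (R r : ℕ) (g : Z2 → ℝ) :
    ∑ f ∈ SB R r, g (mir r f) = ∑ f ∈ SB R r, g f :=
  Finset.sum_nbij' (mir r) (mir r) (fun _ he => mir_mem_SB.2 he) (fun _ he => mir_mem_SB.2 he)
    (fun f _ => mir_mir r f) (fun f _ => mir_mir r f) (fun _ _ => rfl)

/-- total charge of the tilt field of one tip -/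
theorem tot_ro {Y V : ℝ} {q n0 R r : ℕ} (hq : 1 ≤ q) (hn : q + 1 ≤ n0) (hr : 1 ≤ r)
    (hR : r ≤ R) (hR1 : 2 ≤ R) : ∑ f ∈ SB R r, ro Y V q (clp n0 ((r : ℝ) / 4)) f =
      (V / (Y * ang q) + V / (Y * (2 * Real.pi - ang q))) * Lam n0 ((r : ℝ) / 4) := by
  have h1 := isDiv_Kf (Y := Y) (V := V) (R := R) (r := r) hq (clp n0 ((r : ℝ) / 4)) 0
  rw [isDiv_iff] at h1
  rw [← Finset.sum_congr rfl h1, tot_dv, Fl_Kf (by omega) hr hR, Fl_Kf_low hq hn hr hR hR1]
  ring

/-- total charge of a bump -/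
theorem tot_bump {κ x y s : ℝ} {r : ℕ} (hκ : 0 ≤ κ) (hs : 0 < s) (hr : 1 ≤ r) (hx : s < x)
    (hx1 : s + x < 1) (hy : s < y) (hy1 : s + y < 1) (U : Finset Z2) :
    |∑ f ∈ U, bump r κ x y s f| ≤ κ * s ^ 8 := by
  have hr' : (0 : ℝ) < r := by exact_mod_cast hr
  rw [abs_of_nonneg (Finset.sum_nonneg fun f _ => bump_nonneg hκ f)]
  set T : Finset Z2 := Finset.Ico (-(r : ℤ)) 0 ×ˢ Finset.Ico (-(r : ℤ)) 0 with hT
  have h0 : ∀ f, f ∉ T → bump r κ x y s f = 0 := by
    intro f hf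
    rw [hT, Finset.mem_product, Finset.mem_Ico, Finset.mem_Ico] at hf
    by_cases h : f.1 < -(r : ℤ) ∨ 0 ≤ f.1
    · exact bump_col' hs hr hx hx1 h
    · exact bump_row' hs hr hy hy1 (by omega)
  have h1 : ∑ f ∈ U, bump r κ x y s f ≤ ∑ f ∈ U ∪ T, bump r κ x y s f :=
    Finset.sum_le_sum_of_subset_of_nonneg Finset.subset_union_left fun _ _ _ => bump_nonneg hκ _
  have h2 : ∑ f ∈ U ∪ T, bump r κ x y s f = ∑ f ∈ T, bump r κ x y s f :=
    (Finset.sum_subset Finset.subset_union_right fun f _ hf => h0 f hf).symm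
  refine h1.trans (h2.le.trans ?_)
  calc ∑ f ∈ T, bump r κ x y s f ≤ ∑ _f ∈ T, κ * s ^ 8 / (r : ℝ) ^ 2 :=
        Finset.sum_le_sum fun f _ => bump_le hκ f
    _ = (T.card : ℝ) * (κ * s ^ 8 / (r : ℝ) ^ 2) := by rw [Finset.sum_const, nsmul_eq_mul]
    _ = κ * s ^ 8 := by
        have : T.card = r * r := by
          rw [hT, Finset.card_product, Int.card_Ico]
          simp
        rw [this]
        push_cast
        field_simp

/-- total charge -/
theorem tot_rho {Y V κ x y s : ℝ} {q n0 R r : ℕ} (hY : 0 < Y) (hq : 1 ≤ q)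
    (hn : q + 1 ≤ n0) (hr : 1 ≤ r) (hR : r ≤ R) (hR1 : 2 ≤ R) (hκ : 0 ≤ κ) (hs : 0 < s)
    (hx : s < x) (hx1 : s + x < 1) (hy : s < y) (hy1 : s + y < 1) :
    |∑ f ∈ SB R r, D.rho Y V q n0 r κ x y s f -
      2 * Real.log r / Y * (V / ang q + V / (2 * Real.pi - ang q))| ≤
      2 / Y * |V / ang q + V / (2 * Real.pi - ang q)| * (Real.log 4 + Real.log n0) +
        2 * (κ * s ^ 8) := by
  have h1 := tot_ro (Y := Y) (V := V) hq hn hr hR hR1
  have h2 := sum_mir R r (ro Y V q (clp n0 ((r : ℝ) / 4)))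
  have h3 := sum_mir R r (bump r κ x y s)
  have h4 := tot_bump hκ hs hr hx hx1 hy hy1 (SB R r)
  have h5 : ∑ f ∈ SB R r, D.rho Y V q n0 r κ x y s f =
      2 * ((V / (Y * ang q) + V / (Y * (2 * Real.pi - ang q))) * Lam n0 ((r : ℝ) / 4)) +
        2 * ∑ f ∈ SB R r, bump r κ x y s f := by
    unfold D.rho
    rw [Finset.sum_add_distrib, Finset.sum_add_distrib, Finset.sum_add_distrib, h2, h3, h1]
    ring
  have h6 : V / (Y * ang q) + V / (Y * (2 * Real.pi - ang q)) =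
      1 / Y * (V / ang q + V / (2 * Real.pi - ang q)) := by
    rw [mul_add, one_div_mul_eq_div, one_div_mul_eq_div, div_div, div_div,
      mul_comm (ang q) Y, mul_comm (2 * Real.pi - ang q) Y]
  set W := V / ang q + V / (2 * Real.pi - ang q) with hW
  have h7 : ∑ f ∈ SB R r, D.rho Y V q n0 r κ x y s f - 2 * Real.log r / Y * W =
      2 / Y * W * (Lam n0 ((r : ℝ) / 4) - Real.log r) +
        2 * ∑ f ∈ SB R r, bump r κ x y s f := by
    rw [h5, h6]
    ring
  rw [h7]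
  refine (abs_add_le _ _).trans (add_le_add ?_ ?_)
  · rw [abs_mul, abs_mul, abs_of_pos (by positivity : 0 < 2 / Y)]
    exact mul_le_mul_of_nonneg_left (Lam_bd (by omega) hr) (by positivity)
  · rw [abs_mul, abs_of_pos (by norm_num : (0 : ℝ) < 2)]
    linarith

/-- **the upper bound in the sectors `(0|k)`** -/
theorem up_low (hU : StmtU) (k : ℤ) :
    ∀ (b V : ℝ) (q : ℕ) (κ x y s ε : ℝ), bCrit ≤ b → 1 ≤ q → 0 < ε → 0 < κ → 0 < s →
    s < y → s + x < 1 / 4 → (q : ℝ) * (y + s) < x - s →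
    ∃ n1 : ℕ, ∀ n0 ≥ n1, ∃ C : ℝ, ∀ (A r : ℕ), 1 ≤ A → n1 ≤ r →
      Zl b (SB (A * r) r) k (D.rho (helicity b) V q n0 r κ x y s) ≤
        Real.exp (2 * Real.log r / helicity b *
          (En V q + k * V / ang q - k ^ 2 / (4 * Real.pi)) +
          ε * Real.log r + C) * Z b (SB (A * r) r) := by
  intro b V q κ x y s ε hb hq hε hκ hs hsy hsx hqy
  have hq' : (1 : ℝ) ≤ q := by exact_mod_cast hq
  have hyx : y + s < x - s := by nlinarith
  have hxs : s < x := by linarith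
  have hsx1 : s + x < 1 := by linarith
  have hsy1 : s + y < 1 := by linarith
  obtain ⟨n1, hn1⟩ := up_k hU (-k) b V q κ x y s ε hb hq hε hκ hs hsy hsx hqy
  refine ⟨n1 + q + 2, fun n0 hn0 => ?_⟩
  obtain ⟨C, hC⟩ := hn1 n0 (by omega)
  have hY : 0 < helicity b := hel_pos' hb
  set W := V / ang q + V / (2 * Real.pi - ang q) with hW
  set C' : ℝ := 2 / helicity b * |W| * (Real.log 4 + Real.log n0) + 2 * (κ * s ^ 8) with hC'
  refine ⟨C + |(k : ℝ)| * C', fun A r hA hr => ?_⟩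
  have hr1 : 1 ≤ r := by omega
  have hrA : r ≤ A * r := Nat.le_mul_of_pos_left r hA
  have h1 := hC A r hA (by omega)
  have h2 := tot_rho (Y := helicity b) (V := V) (κ := κ) (x := x) (y := y) (s := s)
    hY hq (by omega : q + 1 ≤ n0) hr1 hrA (by omega) hκ.le hs hxs hsx1 hsy hsy1
  rw [← hW, ← hC'] at h2
  rw [Zl_eq]
  set T := ∑ f ∈ SB (A * r) r, D.rho (helicity b) V q n0 r κ x y s f with hT
  have h3 : (k : ℝ) * T ≤ k * (2 * Real.log r / helicity b * W) + |(k : ℝ)| * C' := by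
    have h4 : (k : ℝ) * (T - 2 * Real.log r / helicity b * W) ≤ |(k : ℝ)| * C' := by
      refine (le_abs_self _).trans ?_
      rw [abs_mul]
      exact mul_le_mul_of_nonneg_left h2 (abs_nonneg _)
    linarith
  calc Real.exp (k * T) * Zs b (SB (A * r) r) (-k) (D.rho (helicity b) V q n0 r κ x y s)
      ≤ Real.exp (k * (2 * Real.log r / helicity b * W) + |(k : ℝ)| * C') *
        (Real.exp (2 * Real.log r / helicity b *
          (En V q + ((-k : ℤ) : ℝ) * V / (2 * Real.pi - ang q) -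
            ((-k : ℤ) : ℝ) ^ 2 / (4 * Real.pi)) +
          ε * Real.log r + C) * Z b (SB (A * r) r)) := by
        refine mul_le_mul (Real.exp_le_exp.2 h3) h1 ?_ (Real.exp_pos _).le
        unfold Zs wt
        exact tsum_nonneg fun h => mul_nonneg (Finset.prod_nonneg fun e _ =>
          H353.wI_nonneg (lt_of_lt_of_le H170.bCrit_pos hb).le _) (Real.exp_pos _).le
    _ = _ := by
        rw [← mul_assoc, ← Real.exp_add]
        congr 2
        rw [hW]
        push_cast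
        ring

end Vale.Agent.P159.T1.H565
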