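import Vale.Agent.P159.T1.H565.Upm5

/-!
Row S.UPM: the instance with two windows. `ρ' = rho_V - ro Y a q (clp n0 (c1 r)) - mirror`.
-/

namespace Vale.Agent.P159.T1.H565

open Vale.Agent.P159.T1.D

/-- the difference of the two profiles -/
noncomputable def GD (n0 : ℕ) (c r : ℝ) (τ : ℝ) : ℝ := clp n0 (r / 4) τ - clp n0 (c * r) τ

theorem clp_lip1 (a A x y : ℝ) : |clp a A x - clp a A y| ≤ |x - y| := by
  unfold clp
  refine (abs_max_sub_max_le_max _ _ _ _).trans ?_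
  rw [sub_self, abs_zero]
  refine max_le (abs_nonneg _) ?_
  refine (abs_min_sub_min_le_max _ _ _ _).trans ?_
  rw [sub_self, abs_zero]
  exact max_le le_rfl (abs_nonneg _)

theorem GD_lip (n0 : ℕ) (c r x y : ℝ) : |GD n0 c r x - GD n0 c r y| ≤ 2 * |x - y| := by
  have h1 := clp_lip1 n0 (r / 4) x y
  have h2 := clp_lip1 n0 (c * r) x y
  unfold GD
  rw [abs_le] at h1 h2 ⊢
  constructor <;> linarith [h1.1, h1.2, h2.1, h2.2]

/-- the difference vanishes inside -/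
theorem GD_near {n0 : ℕ} {c r : ℝ} (hc : 0 < c) (hc4 : c ≤ 1 / 4) (hr : 0 < r) {τ : ℝ}
    (hτ : τ ≤ Real.log (c * r)) : GD n0 c r τ = 0 := by
  have h1 : Real.log (c * r) ≤ Real.log (r / 4) :=
    Real.log_le_log (by positivity) (by nlinarith)
  unfold GD clp
  rw [min_eq_left hτ, min_eq_left (hτ.trans h1), sub_self]

theorem tau_bd {P : Z2} {A : ℝ} (hA : 1 ≤ A) (h : nrm P ≤ A) : D.tau P ≤ Real.log A := by
  rw [tau_eq]
  have h0 : 0 ≤ nrm P := Real.sqrt_nonneg _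
  rcases h0.eq_or_lt with h1 | h1
  · rw [← h1, Real.log_zero]
    exact Real.log_nonneg hA
  · exact Real.log_le_log h1 h

/-- neighbouring sites have neighbouring distances -/
theorem nrm_nb (e : Bnd) : |nrm (bt e) - nrm (bs e)| ≤ 1 := by
  have key : ∀ P Q : Z2, ((P.1 : ℝ) - Q.1) ^ 2 + ((P.2 : ℝ) - Q.2) ^ 2 = 1 →
      nrm P ≤ nrm Q + 1 := by
    intro P Q h
    unfold nrm
    have h0 : 0 ≤ Real.sqrt ((Q.1 : ℝ) ^ 2 + (Q.2 : ℝ) ^ 2) := Real.sqrt_nonneg _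
    rw [Real.sqrt_le_left (by linarith)]
    have h1 := Real.sq_sqrt (by positivity : 0 ≤ (Q.1 : ℝ) ^ 2 + (Q.2 : ℝ) ^ 2)
    have h2 : (Q.1 : ℝ) * (P.1 - Q.1) + Q.2 * (P.2 - Q.2) ≤
        Real.sqrt ((Q.1 : ℝ) ^ 2 + (Q.2 : ℝ) ^ 2) := by
      refine Real.le_sqrt_of_sq_le ?_
      nlinarith [sq_nonneg ((Q.1 : ℝ) * (P.2 - Q.2) - Q.2 * (P.1 - Q.1))]
    nlinarith
  have hd : (((bt e).1 : ℝ) - (bs e).1) ^ 2 + (((bt e).2 : ℝ) - (bs e).2) ^ 2 = 1 := by
    unfold bt bs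
    split_ifs
    · push_cast; ring
    · push_cast; ring
  have h1 := key (bt e) (bs e) hd
  have h2 := key (bs e) (bt e) (by rw [← hd]; ring)
  rw [abs_le]
  constructor <;> linarith

/-- pointwise bound for the second field -/
theorem KD_le {q n0 : ℕ} {c₂ c₁ c r M : ℝ} (hc : 0 < c) (hc4 : c ≤ 1 / 4) (hr : 4 ≤ c * r)
    (hM2 : |c₂| ≤ M) (hM1 : |c₁| ≤ M) (e : Bnd) :
    |Kf q c₂ c₁ (GD n0 c r) e| ≤ 4 * M / (c * r) := by
  have hr0 : 0 < c * r := by linarith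
  have hrpos : 0 < r := by
    by_contra h
    push Not at h
    nlinarith
  have hM0 : 0 ≤ M := (abs_nonneg _).trans hM1
  have hk : |kf q c₂ c₁ e| ≤ M := by
    unfold kf
    split_ifs
    · exact hM2
    · exact hM1
  have hg : |gs (fun P => GD n0 c r (D.tau P)) e| ≤ 4 / (c * r) := by
    unfold gs
    beta_reduce
    by_cases h : nrm (bs e) ≤ c * r ∧ nrm (bt e) ≤ c * r
    · rw [GD_near hc hc4 hrpos (tau_bd (by linarith) h.1),
        GD_near hc hc4 hrpos (tau_bd (by linarith) h.2), sub_self, abs_zero]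
      positivity
    · have h1 := nrm_nb e
      rw [abs_le] at h1
      have h2 : c * r / 2 ≤ nrm (bs e) ∧ c * r / 2 ≤ nrm (bt e) := by
        by_contra hcon
        apply h
        have : nrm (bs e) < c * r / 2 ∨ nrm (bt e) < c * r / 2 := by
          by_contra h3
          push Not at h3
          exact hcon ⟨h3.1, h3.2⟩
        rcases this with h3 | h3
        · constructor <;> linarith [h1.1, h1.2]
        · constructor <;> linarith [h1.1, h1.2]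
      have hl : |D.tau (bt e) - D.tau (bs e)| ≤ 2 / (c * r) := by
        rw [tau_eq, tau_eq]
        have key : ∀ x y : ℝ, c * r / 2 ≤ x → c * r / 2 ≤ y → |x - y| ≤ 1 →
            Real.log x - Real.log y ≤ 2 / (c * r) := by
          intro x y hx hy hxy
          have hx0 : 0 < x := by linarith
          have hy0 : 0 < y := by linarith
          rw [← Real.log_div hx0.ne' hy0.ne']
          refine (Real.log_le_sub_one_of_pos (div_pos hx0 hy0)).trans ?_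
          rw [div_sub_one hy0.ne', div_le_div_iff₀ hy0 hr0]
          rw [abs_le] at hxy
          nlinarith [hxy.2]
        rw [abs_le]
        constructor
        · have := key _ _ h2.1 h2.2 (by rw [abs_sub_comm]; exact abs_le.2 h1)
          linarith
        · exact key _ _ h2.2 h2.1 (abs_le.2 h1)
      refine (GD_lip _ _ _ _ _).trans ?_
      calc 2 * |D.tau (bt e) - D.tau (bs e)| ≤ 2 * (2 / (c * r)) := by linarith
        _ = 4 / (c * r) := by ring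
  unfold Kf
  rw [abs_mul]
  calc |kf q c₂ c₁ e| * |gs (fun P => GD n0 c r (D.tau P)) e| ≤ M * (4 / (c * r)) :=
        mul_le_mul hk hg (abs_nonneg _) hM0
    _ = 4 * M / (c * r) := by ring

theorem KD_small {q n0 : ℕ} {c₂ c₁ c : ℝ} {r : ℕ} (hr : 3 ≤ r) (hc : 0 < c) (hc4 : c ≤ 1 / 4)
    {e : Bnd} (he : ¬ (|e.1.1| ≤ r ∧ |e.1.2| ≤ r)) : Kf q c₂ c₁ (GD n0 c r) e = 0 := by
  have hr' : (3 : ℝ) ≤ r := by exact_mod_cast hr
  have hcr : 0 < c * r := by positivity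
  have hle : c * r ≤ (r : ℝ) / 4 := by nlinarith
  have key : ∀ P : Z2, ((r : ℤ) ≤ |P.1| ∨ (r : ℤ) ≤ |P.2|) → (r : ℝ) / 4 ≤ nrm P := by
    intro P hP
    rcases hP with h | h
    · have h1 : (r : ℝ) ≤ |(P.1 : ℝ)| := by exact_mod_cast h
      linarith [abs_le_nrm P]
    · have h1 : (r : ℝ) ≤ |(P.2 : ℝ)| := by exact_mod_cast h
      linarith [abs_le_nrm' P]
  have hb : (r : ℤ) ≤ |(bs e).1| ∨ (r : ℤ) ≤ |(bs e).2| := by
    unfold bs
    omega
  have ht : (r : ℤ) ≤ |(bt e).1| ∨ (r : ℤ) ≤ |(bt e).2| := by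
    obtain ⟨⟨i, j⟩, d⟩ := e
    unfold bt
    simp only at he
    cases d
    · simp only [Bool.false_eq_true, if_false]
      by_contra hcon
      apply he
      rw [abs_le, abs_le]
      push Not at hcon
      rw [abs_lt, abs_lt] at hcon
      omega
    · simp only [if_true]
      by_contra hcon
      apply he
      rw [abs_le, abs_le]
      push Not at hcon
      rw [abs_lt, abs_lt] at hcon
      omega
  have hb' := key _ hb
  have ht' := key _ ht
  unfold Kf gs GD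
  beta_reduce
  rw [clp_far (by linarith) hb', clp_far (by linarith) ht', clp_far hcr (hle.trans hb'),
    clp_far hcr (hle.trans ht'), sub_self, mul_zero]

theorem not_small {r : ℕ} (hr : 1 ≤ r) {e : Bnd} (he : e ∉ Sbig r) :
    ¬ (|e.1.1| ≤ (r : ℤ) ∧ |e.1.2| ≤ (r : ℤ)) ∧
      ¬ (|(mb r e).1.1| ≤ (r : ℤ) ∧ |(mb r e).1.2| ≤ (r : ℤ)) := by
  have hbig : ¬ ((-(4 * r : ℤ) ≤ e.1.1 ∧ e.1.1 ≤ 4 * r) ∧
      (-(4 * r : ℤ) ≤ e.1.2 ∧ e.1.2 ≤ 4 * r)) := by
    intro h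
    apply he
    unfold Sbig
    rw [Finset.mem_product, Finset.mem_product, Finset.mem_Icc, Finset.mem_Icc]
    exact ⟨h, Finset.mem_univ _⟩
  constructor
  · rintro ⟨h1, h2⟩
    rw [abs_le] at h1 h2
    apply hbig
    omega
  · rintro ⟨h1, h2⟩
    rw [abs_le] at h1 h2
    apply hbig
    unfold mb at h1 h2
    split_ifs at h1 h2 <;> simp only at h1 h2 <;> omega

theorem card_Sbig {r : ℕ} (hr : 1 ≤ r) : ((Sbig r).card : ℝ) ≤ 162 * (r : ℝ) ^ 2 := by
  have h1 : (Sbig r).card = (8 * r + 1) * (8 * r + 1) * 2 := by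
    unfold Sbig
    rw [Finset.card_product, Finset.card_product, Int.card_Icc, Finset.card_univ]
    have : ((4 * (r : ℤ)) + 1 - -(4 * (r : ℤ))).toNat = 8 * r + 1 := by omega
    rw [this]
    rfl
  have hr' : (1 : ℝ) ≤ r := by exact_mod_cast hr
  rw [h1]
  push_cast
  nlinarith

/-- energy of a field which is `O(1/r)` and lives on `Sbig r` -/
theorem energy_small {r : ℕ} (hr : 1 ≤ r) {X : Bnd → ℝ} {M : ℝ} (hX : ∀ e, |X e| ≤ M / r)
    (hs : ∀ e, e ∉ Sbig r → X e = 0) (S : Finset Bnd) : ∑ e ∈ S, X e ^ 2 ≤ 162 * M ^ 2 := by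
  have hr' : (0 : ℝ) < r := by exact_mod_cast hr
  have h1 : ∑ e ∈ S, X e ^ 2 ≤ ∑ e ∈ S ∪ Sbig r, X e ^ 2 :=
    Finset.sum_le_sum_of_subset_of_nonneg Finset.subset_union_left fun _ _ _ => sq_nonneg _
  have h2 : ∑ e ∈ S ∪ Sbig r, X e ^ 2 = ∑ e ∈ Sbig r, X e ^ 2 := by
    refine (Finset.sum_subset Finset.subset_union_right fun e _ he => ?_).symm
    rw [hs e he]
    simp
  refine h1.trans (h2.le.trans ?_)
  calc ∑ e ∈ Sbig r, X e ^ 2 ≤ ∑ _e ∈ Sbig r, (M / r) ^ 2 := by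
        refine Finset.sum_le_sum fun e _ => ?_
        rw [← sq_abs]
        exact pow_le_pow_left₀ (abs_nonneg _) (hX e) 2
    _ = ((Sbig r).card : ℝ) * (M / r) ^ 2 := by rw [Finset.sum_const, nsmul_eq_mul]
    _ ≤ 162 * (r : ℝ) ^ 2 * (M / r) ^ 2 :=
        mul_le_mul_of_nonneg_right (card_Sbig hr) (sq_nonneg _)
    _ = 162 * M ^ 2 := by field_simp

/-- charges with two windows -/
noncomputable def rhoW (Y V a : ℝ) (q n0 r : ℕ) (c κ x y s : ℝ) (f : Z2) : ℝ :=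
  D.rho Y V q n0 r κ x y s f - ro Y a q (clp n0 (c * (r : ℝ))) f -
    ro Y a q (clp n0 (c * (r : ℝ))) (mir r f)

theorem Kf_GD (q n0 : ℕ) (c₂ c₁ c : ℝ) (r : ℝ) (e : Bnd) : Kf q c₂ c₁ (GD n0 c r) e =
    Kf q c₂ c₁ (clp n0 (r / 4)) e - Kf q c₂ c₁ (clp n0 (c * r)) e := by
  unfold Kf gs GD
  ring

theorem Kf_mul (q : ℕ) (c₂ c₁ t : ℝ) (Γ : ℝ → ℝ) (e : Bnd) :
    Kf q (t * c₂) (t * c₁) Γ e = t * Kf q c₂ c₁ Γ e := by
  unfold Kf kf
  split_ifs <;> ring

open Classical in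
theorem ro_smul' (Y V : ℝ) (q : ℕ) (Γ : ℝ → ℝ) (c : ℝ) (f : Z2) :
    ro Y (c * V) q Γ f = c * ro Y V q Γ f := by
  unfold ro Bf cf
  split_ifs <;> ring

open Classical in
theorem ro_sub' (Y V V' : ℝ) (q : ℕ) (Γ : ℝ → ℝ) (f : Z2) :
    ro Y (V - V') q Γ f = ro Y V q Γ f - ro Y V' q Γ f := by
  unfold ro Bf cf
  split_ifs <;> ring

open Classical in
theorem ro_GD (Y V : ℝ) (q n0 : ℕ) (c r : ℝ) (f : Z2) : ro Y V q (GD n0 c r) f =
    ro Y V q (clp n0 (r / 4)) f - ro Y V q (clp n0 (c * r)) f := by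
  unfold ro Bf gs GD
  split_ifs <;> ring

/-- the additional field -/
noncomputable def XW (Y a : ℝ) (q n0 r : ℕ) (c κ x y s : ℝ) (e : Bnd) : ℝ :=
  Kf q (a / (Y * ang q)) (-(a / (Y * (2 * Real.pi - ang q)))) (GD n0 c r) e +
    mB r (Kf q (a / (Y * ang q)) (-(a / (Y * (2 * Real.pi - ang q)))) (GD n0 c r)) e +
    Bb r κ x y s e + mB r (Bb r κ x y s) e

theorem isDiv_XW {Y a : ℝ} {q R r n0 : ℕ} {c κ x y s : ℝ} (hq : 1 ≤ q) (hr : 1 ≤ r)
    (hs : 0 < s) (hx : s < x) (hx1 : s + x < 1) (hy : s < y) (hy1 : s + y < 1) :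
    IsDiv (SB R r) (XW Y a q n0 r c κ x y s) (fun f => ro Y a q (GD n0 c r) f +
      ro Y a q (GD n0 c r) (mir r f) + bump r κ x y s f + bump r κ x y s (mir r f)) := by
  rw [isDiv_iff]
  intro f hf
  have h1 := isDiv_Kf (Y := Y) (V := a) (R := R) (r := r) hq (GD n0 c r) 0
  simp only [add_zero] at h1
  have h2 := isDiv_mB h1
  have h3 := isDiv_Bb (κ := κ) hs hr hx hx1 hy hy1 R
  have h4 := isDiv_mB h3
  rw [isDiv_iff] at h1 h2 h3 h4
  unfold XW
  rw [dv_add4, h1 f hf, h2 f hf, h3 f hf, h4 f hf]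

/-- the whole field is small, has bounded energy and bounded flux -/
theorem XW_props {Y a : ℝ} {q : ℕ} {c κ x y s : ℝ} (hc : 0 < c) (hc4 : c ≤ 1 / 4)
    (hκ : 0 ≤ κ) (hs : 0 < s) (hx : s < x) (hx1 : s + x < 1) : ∃ M : ℝ, 0 < M ∧
    ∀ n0 R r : ℕ, 1 ≤ n0 → 3 ≤ r → 4 ≤ c * r → r ≤ R →
      (∀ e, |XW Y a q n0 r c κ x y s e| ≤ M / r) ∧
      (∀ e, e ∉ Sbig r → XW Y a q n0 r c κ x y s e = 0) ∧
      |Fl (SB R r) (XW Y a q n0 r c κ x y s) (sec (SB R r) 1)| ≤ M := by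
  obtain ⟨c₂, hc₂⟩ : ∃ c₂, c₂ = a / (Y * ang q) := ⟨_, rfl⟩
  obtain ⟨c₁, hc₁⟩ : ∃ c₁, c₁ = -(a / (Y * (2 * Real.pi - ang q))) := ⟨_, rfl⟩
  set M0 : ℝ := |c₂| + |c₁| with hM0
  have hM0' : 0 ≤ M0 := by positivity
  refine ⟨8 * M0 / c + 2 * (κ * s ^ 8) + 2 * (|c₁| * |Real.log (c * 4)|) + 1, by positivity,
    fun n0 R r hn hr hcr hR => ?_⟩
  have hr' : (3 : ℝ) ≤ r := by exact_mod_cast hr
  have hr0 : (0 : ℝ) < r := by linarith
  have hX : ∀ e, XW Y a q n0 r c κ x y s e = Kf q c₂ c₁ (GD n0 c r) e +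
      mB r (Kf q c₂ c₁ (GD n0 c r)) e + Bb r κ x y s e + mB r (Bb r κ x y s) e := by
    intro e
    rw [hc₂, hc₁]
    rfl
  have hK : ∀ e, |Kf q c₂ c₁ (GD n0 c r) e| ≤ 4 * M0 / (c * r) :=
    KD_le hc hc4 hcr (by rw [hM0]; linarith [abs_nonneg c₁]) (by rw [hM0]; linarith [abs_nonneg c₂])
  refine ⟨fun e => ?_, fun e he => ?_, ?_⟩
  · have h1 := hK e
    have h2 := hK (mb r e)
    rw [← abs_mB] at h2
    have h3 := abs_Bb_le (r := r) (κ := κ) (x := x) (y := y) (s := s) hκ (by omega) e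
    have h4 := abs_Bb_le (r := r) (κ := κ) (x := x) (y := y) (s := s) hκ (by omega) (mb r e)
    rw [← abs_mB] at h4
    have h5 : (8 * M0 / c + 2 * (κ * s ^ 8) + 2 * (|c₁| * |Real.log (c * 4)|) + 1) / r =
        2 * (4 * M0 / (c * r)) + 2 * (κ * s ^ 8 / r) +
          (2 * (|c₁| * |Real.log (c * 4)|) + 1) / r := by
      field_simp
      ring
    have h6 : 0 ≤ (2 * (|c₁| * |Real.log (c * 4)|) + 1) / (r : ℝ) := by positivity
    rw [hX, h5]
    rw [abs_le] at h1 h2 h3 h4 ⊢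
    constructor <;> linarith [h1.1, h1.2, h2.1, h2.2, h3.1, h3.2, h4.1, h4.2]
  · obtain ⟨h1, h2⟩ := not_small (by omega) he
    have h3 : e ∉ Sb r := by
      unfold Sb
      rw [Finset.mem_product, Finset.mem_product, Finset.mem_Ico, Finset.mem_Ico]
      rintro ⟨⟨a, b⟩, _⟩
      apply h1
      rw [abs_le, abs_le]
      omega
    have h4 : mb r e ∉ Sb r := by
      unfold Sb
      rw [Finset.mem_product, Finset.mem_product, Finset.mem_Ico, Finset.mem_Ico]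
      rintro ⟨⟨a, b⟩, _⟩
      apply h2
      rw [abs_le, abs_le]
      omega
    have e1 : mB r (Kf q c₂ c₁ (GD n0 c r)) e = 0 := by
      have := abs_mB r (Kf q c₂ c₁ (GD n0 c r)) e
      rw [KD_small hr hc hc4 h2, abs_zero] at this
      exact abs_eq_zero.1 this
    have e2 : mB r (Bb r κ x y s) e = 0 := by
      have := abs_mB r (Bb r κ x y s) e
      rw [Bb_supp hs (by omega) hx hx1 h4, abs_zero] at this
      exact abs_eq_zero.1 this
    rw [hX, KD_small hr hc hc4 h1, e1, e2, Bb_supp hs (by omega) hx hx1 h3]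
    ring
  · have hle : c * r ≤ (r : ℝ) / 4 := by nlinarith
    have hcr0 : 0 < c * (r : ℝ) := by positivity
    have hn' : (1 : ℝ) ≤ n0 := by exact_mod_cast hn
    obtain ⟨Gi, hGi⟩ : ∃ Gi, Gi = max (Real.log n0) (Real.log ((r : ℝ) / 4)) -
      max (Real.log n0) (Real.log (c * r)) := ⟨_, rfl⟩
    have hΓ : ∀ P : Z2, (r : ℝ) / 4 ≤ nrm P → GD n0 c r (D.tau P) = Gi := by
      intro P hP
      unfold GD
      rw [clp_far (by linarith) hP, clp_far hcr0 (hle.trans hP), hGi]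
    have h0 : GD n0 c r (D.tau (0, 0)) = 0 := by
      unfold GD
      rw [clp_near hn' (by unfold nrm; simp), clp_near hn' (by unfold nrm; simp), sub_self]
    have hG : |Gi| ≤ |Real.log (c * 4)| := by
      rw [hGi]
      refine (abs_max_sub_max_le_max _ _ _ _).trans ?_
      rw [sub_self, abs_zero]
      refine max_le (abs_nonneg _) ?_
      rw [← Real.log_div (by positivity) (by positivity)]
      have : (r : ℝ) / 4 / (c * r) = (c * 4)⁻¹ := by
        field_simp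
      rw [this, Real.log_inv, abs_neg]
    have e0 : XW Y a q n0 r c κ x y s = fun e => Kf q c₂ c₁ (GD n0 c r) e +
      mB r (Kf q c₂ c₁ (GD n0 c r)) e + Bb r κ x y s e + mB r (Bb r κ x y s) e := funext hX
    rw [e0, Fl_add4, Fl_mB, Fl_mB, Fl_Bb, Fl_KfG (by omega) hR hΓ, h0]
    have h5 : |c₁ * (Gi - 0)| ≤ |c₁| * |Real.log (c * 4)| := by
      rw [sub_zero, abs_mul]
      exact mul_le_mul_of_nonneg_left hG (abs_nonneg _)
    have h6 : c₁ * (Gi - 0) + c₁ * (Gi - 0) + 0 + 0 = 2 * (c₁ * (Gi - 0)) := by ring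
    rw [h6, abs_mul, abs_of_pos (by norm_num : (0 : ℝ) < 2)]
    have h7 : 0 ≤ 8 * M0 / c + 2 * (κ * s ^ 8) := by positivity
    linarith

end Vale.Agent.P159.T1.H565
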