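import Vale.Agent.P159.T1.H565.UW2h

/-!
Row UW2, set form: lower bound of the miss sum of the subdivided graph by coarse sums, from row
(b') of helper568.
-/

namespace Vale.Agent.P159.T1.H565

open Vale.Agent.P159.T1.H254

section

variable {V E : Type} [Fintype V] [DecidableEq V] [Fintype E] [DecidableEq E]

/-- flow hypothesis of row (b'): for every set `C` which contains `om` and `op`, is connected to
them inside and meets `B` there is a flow with sources `g` off `C`, of energy at most `v` and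
bounded by `1 / lam` -/
def FlowL (s t : E → V) (om op : V) (B : Finset V) (g : V → ℝ) (c : E → ℝ) (v lam : ℝ) : Prop :=
  ∀ C : Finset V, om ∈ C → op ∈ C →
    (∀ x ∈ C, Relation.ReflTransGen (inC s t C) om x ∨ Relation.ReflTransGen (inC s t C) op x) →
    (∃ x ∈ C, x ∈ B) →
    ∃ η : E → ℝ, (∀ e, |lam * η e| ≤ 1) ∧ ∑ e, c e * η e ^ 2 ≤ v ∧
      ∀ x : V → ℝ, (∀ y ∈ C, x y = 0) → ∑ e, η e * (x (t e) - x (s e)) = ∑ y, g y * x y

/-- transfer of the flow hypothesis to the subdivided graph -/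
theorem flowL_sub {s t : E → V} {om op : V} {B : Finset V} {g : V → ℝ} {J : E → ℝ} {v lam : ℝ}
    (k : ℕ) (h : FlowL s t om op B g J v lam) :
    FlowL (sS s k) (tS t k) (Sum.inl om) (Sum.inl op) (BI E k B)
      (Sum.elim g fun _ => 0) (fun p => 2 * (J p.1 / (2 * ((k + 1 : ℕ) : ℝ)))) v lam := by
  classical
  intro C hom hop hC ⟨z, hzC, hzB⟩
  set C0 : Finset V := Finset.univ.filter fun y => (Sum.inl y : V ⊕ (E × Fin k)) ∈ C with hC0
  have hmem : ∀ y, y ∈ C0 ↔ (Sum.inl y : V ⊕ (E × Fin k)) ∈ C := by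
    intro y
    rw [hC0, Finset.mem_filter]
    simp
  have hproj : ∀ a y : V, a ∈ C0 → Relation.ReflTransGen (inC (sS s k) (tS t k) C)
      (Sum.inl a) (Sum.inl y) → Relation.ReflTransGen (inC s t C0) a y := by
    intro a y ha hp
    have hin : ∀ y, Relation.ReflTransGen (inC s t C0) a y → y ∈ C0 := by
      intro y hy
      rcases Relation.ReflTransGen.cases_tail hy with h1 | ⟨b, _, h2⟩
      · rw [h1]; exact ha
      · exact h2.2.1
    exact project (fun z => z ∈ C) (fun y => Relation.ReflTransGen (inC s t C0) a y)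
      (fun e => ⟨fun h1 h2 => h1.tail ⟨hin _ h1, (hmem _).2 h2, e, Or.inl ⟨rfl, rfl⟩⟩,
        fun h1 h2 => h1.tail ⟨hin _ h1, (hmem _).2 h2, e, Or.inr ⟨rfl, rfl⟩⟩⟩)
      Relation.ReflTransGen.refl hp
  obtain ⟨η, h0, h2, h1⟩ := h C0 ((hmem _).2 hom) ((hmem _).2 hop) (fun y hy =>
    (hC _ ((hmem y).1 hy)).imp (hproj om y ((hmem _).2 hom)) (hproj op y ((hmem _).2 hop))) (by
      obtain ⟨b, hb, hbz⟩ := Finset.mem_map.1 hzB
      refine ⟨b, (hmem b).2 ?_, hb⟩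
      rw [show (Sum.inl b : V ⊕ (E × Fin k)) = z from hbz]
      exact hzC)
  refine ⟨fun p => η p.1, fun p => h0 p.1, ?_, fun x hx => ?_⟩
  · refine le_trans (le_of_eq ?_) h2
    rw [Fintype.sum_prod_type]
    refine Finset.sum_congr rfl fun e _ => ?_
    simp only
    rw [Finset.sum_const, Finset.card_univ, Fintype.card_fin, nsmul_eq_mul]
    have hk : ((k + 1 : ℕ) : ℝ) ≠ 0 := by exact_mod_cast Nat.succ_ne_zero k
    field_simp
  · rw [Fintype.sum_prod_type]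
    have e1 : ∀ e, ∑ i : Fin (k + 1), η e * (x (tS t k (e, i)) - x (sS s k (e, i))) =
        η e * (x (Sum.inl (t e)) - x (Sum.inl (s e))) := by
      intro e
      rw [← Finset.mul_sum, tele]
    rw [Finset.sum_congr rfl fun e _ => e1 e, h1 (fun y => x (Sum.inl y))
      (fun y hy => hx _ ((hmem y).1 hy)), Fintype.sum_sum_type]
    simp

omit [Fintype V] in
/-- `ZS` without deletion as a sum `ZW` -/
theorem ZS_ZW (s t : E → V) (w : E → ℤ → ℝ) (om op : V) (j : ℤ) :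
    ZS s t w om op ∅ j = ZW s t w (fun h => h om = 0 ∧ h op = j) := by
  unfold ZS ZW
  have e : ∀ h : V → ℤ, (h om = 0 ∧ h op = j ∧ ∀ v ∈ (∅ : Finset V), h v = 0) ↔
      (h om = 0 ∧ h op = j) := by
    intro h
    simp
  rw [← (Equiv.subtypeEquivRight e).tsum_eq (fun h : {h : V → ℤ // h om = 0 ∧ h op = j} =>
    ∏ e, w e (h.1 (t e) - h.1 (s e)))]
  refine tsum_congr fun h => Finset.prod_congr rfl fun e _ => ?_
  rw [if_neg (by simp)]
  rfl

/-- heights `0` at `om` and `op` with `T ≤ ∑ g h` -/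
def QT (om op : V) (g : V → ℝ) (T : ℝ) (h : V → ℤ) : Prop :=
  h om = 0 ∧ h op = 0 ∧ T ≤ ∑ u, g u * h u

end

/-- row (b') of helper568 -/
def StmtCheb : Prop :=
  ∀ (V E : Type) [Fintype V] [DecidableEq V] [Fintype E] [DecidableEq E] (s t : E → V)
    (β : E → ℝ) (om op : V) (B : Finset V) (g : V → ℝ) (T v lam : ℝ),
    (∀ e, 0 ≤ β e ∧ β e ≤ 1 / 32) → Joined s t om op ∅ → (∀ u, 0 ≤ g u) → 0 ≤ lam →
    FlowL s t om op B g (fun e => 2 * β e) v lam →
    ZW s t (fun e => ker 1 (β e)) (fun h => h om = 0 ∧ h op = 0 ∧ ¬ Miss s t om op B h ∧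
      T ≤ ∑ u, g u * h u) ≤
      Real.exp (lam ^ 2 * v - lam * (T - ∑ u, g u)) *
        ZW s t (fun e => ker 1 (β e)) (fun h => h om = 0 ∧ h op = 0)

section

variable {V E : Type} [Fintype V] [DecidableEq V] [Fintype E] [DecidableEq E]

/-- lower bound of the miss sum of the subdivided graph by coarse sums -/
theorem miss_lower (hc : StmtCheb) {s t : E → V} {J : E → ℝ} (k : ℕ)
    (hJ : ∀ e, 0 < J e ∧ 16 * J e ≤ ((k + 1 : ℕ) : ℝ)) {om op : V} {B : Finset V} {g : V → ℝ}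
    {T v lam : ℝ} (hJ0 : Joined s t om op ∅) (hg : ∀ u, 0 ≤ g u) (hl : 0 ≤ lam)
    (hF : FlowL s t om op B g J v lam) :
    ZW s t (fun e => kerP (J e / (2 * ((k + 1 : ℕ) : ℝ))) (k + 1)) (QT om op g T) -
      Real.exp (lam ^ 2 * v - lam * (T - ∑ u, g u)) *
        ZW s t (fun e => kerP (J e / (2 * ((k + 1 : ℕ) : ℝ))) (k + 1))
          (fun h => h om = 0 ∧ h op = 0) ≤
    ZM (sS s k) (tS t k) (fun p => ker 1 (J p.1 / (2 * ((k + 1 : ℕ) : ℝ)))) (Sum.inl om)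
      (Sum.inl op) (BI E k B) := by
  have hk : (0 : ℝ) < ((k + 1 : ℕ) : ℝ) := by exact_mod_cast Nat.succ_pos k
  have hβ : ∀ e, 0 ≤ J e / (2 * ((k + 1 : ℕ) : ℝ)) ∧ J e / (2 * ((k + 1 : ℕ) : ℝ)) ≤ 1 / 32 := by
    intro e
    refine ⟨div_nonneg (hJ e).1.le (by positivity), ?_⟩
    rw [div_le_div_iff₀ (by positivity) (by norm_num)]
    have := (hJ e).2
    linarith
  have hβ0 : ∀ e, 0 ≤ J e / (2 * ((k + 1 : ℕ) : ℝ)) := fun e => (hβ e).1
  have hJs := joined_sub k hJ0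
  have e1 := coarse_sub s t k hβ0 hJ0 (QT om op g T) (fun h hq => ⟨hq.1, hq.2.1⟩)
  have e2 := coarse_sub s t k hβ0 hJ0 (fun h => h om = 0 ∧ h op = 0) (fun h hq => hq)
  have e3 := hc (V ⊕ (E × Fin k)) (E × Fin (k + 1)) (sS s k) (tS t k)
    (fun p => J p.1 / (2 * ((k + 1 : ℕ) : ℝ))) (Sum.inl om) (Sum.inl op) (BI E k B)
    (Sum.elim g fun _ => 0) T v lam (fun p => hβ p.1) hJs (fun u => by
      rcases u with u | u
      · exact hg u
      · exact le_rfl) hl (flowL_sub k hF)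
  have hs : ∀ h : V ⊕ (E × Fin k) → ℤ, ∑ u, (Sum.elim g fun _ => 0 : V ⊕ (E × Fin k) → ℝ) u * h u =
      ∑ u, g u * h (Sum.inl u) := by
    intro h
    rw [Fintype.sum_sum_type]
    simp
  have hs' : ∑ u, (Sum.elim g fun _ => 0 : V ⊕ (E × Fin k) → ℝ) u = ∑ u, g u := by
    rw [Fintype.sum_sum_type]
    simp
  rw [hs'] at e3
  simp only [hs] at e3
  have e4 := ZW_add (sS s k) (tS t k) (β := fun p => J p.1 / (2 * ((k + 1 : ℕ) : ℝ))) hJs
    (Q := fun H => QT om op g T fun v => H (Sum.inl v)) (fun h hq => ⟨hq.1, hq.2.1⟩)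
    (Miss (sS s k) (tS t k) (Sum.inl om) (Sum.inl op) (BI E k B))
  have e5 := ZW_mono (sS s k) (tS t k) (β := fun p => J p.1 / (2 * ((k + 1 : ℕ) : ℝ)))
    (fun p => hβ0 p.1) hJs
    (Q := fun H => (QT om op g T fun v => H (Sum.inl v)) ∧
      Miss (sS s k) (tS t k) (Sum.inl om) (Sum.inl op) (BI E k B) H)
    (Q' := QM (sS s k) (tS t k) (Sum.inl om) (Sum.inl op) (BI E k B))
    (fun h hq => ⟨hq.1, hq.2.1⟩) (fun h hq => ⟨hq.1.1, hq.1.2.1, hq.2⟩)
  have e6 : ZW (sS s k) (tS t k) (fun p => ker 1 (J p.1 / (2 * ((k + 1 : ℕ) : ℝ))))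
      (fun H => (QT om op g T fun v => H (Sum.inl v)) ∧
        ¬ Miss (sS s k) (tS t k) (Sum.inl om) (Sum.inl op) (BI E k B) H) =
      ZW (sS s k) (tS t k) (fun p => ker 1 (J p.1 / (2 * ((k + 1 : ℕ) : ℝ))))
      (fun h => h (Sum.inl om) = 0 ∧ h (Sum.inl op) = 0 ∧
        ¬ Miss (sS s k) (tS t k) (Sum.inl om) (Sum.inl op) (BI E k B) h ∧
        T ≤ ∑ u, g u * h (Sum.inl u)) := by
    congr 1
    funext h
    unfold QT
    exact propext ⟨fun a => ⟨a.1.1, a.1.2.1, a.2, a.1.2.2⟩, fun a => ⟨⟨a.1, a.2.1, a.2.2.2⟩, a.2.2.1⟩⟩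
  rw [e6] at e4
  have e7 : ZM (sS s k) (tS t k) (fun p => ker 1 (J p.1 / (2 * ((k + 1 : ℕ) : ℝ)))) (Sum.inl om)
      (Sum.inl op) (BI E k B) = ZW (sS s k) (tS t k)
        (fun p => ker 1 (J p.1 / (2 * ((k + 1 : ℕ) : ℝ))))
        (QM (sS s k) (tS t k) (Sum.inl om) (Sum.inl op) (BI E k B)) := rfl
  rw [e7, ← e1, ← e2]
  linarith

end

end Vale.Agent.P159.T1.H565
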