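import Vale.Agent.P159.T1.H565.Lim1
import Vale.Agent.P159.T1.H565.UW2i

/-!
Row UW3 (limit `m → ∞`), general form.
-/

open Filter Topology

namespace Vale.Agent.P159.T1.H565

open Vale.Agent.P159.H353 Vale.Agent.P159.T1.H254
open Vale.Agent.P159.T1.H857 (wS summable_wS wS_nonneg)

section

variable {V E : Type} [Fintype V] [DecidableEq V] [Fintype E] [DecidableEq E]

/-- the limit of the sums over all heights with a property `Q`, the vertices of `S` deleted -/
theorem lim_gen {s t : E → V} {J : E → ℝ} {om op : V} (hJ : ∀ e, 0 ≤ J e) {S : Finset V}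
    (hj : Joined s t om op S) (j : ℤ) (Q : (V → ℤ) → Prop)
    (hQ : ∀ h, Q h → h om = 0 ∧ h op = j ∧ ∀ v ∈ S, h v = 0) :
    Tendsto (fun m : ℕ => ∑' h : {h : V → ℤ // Q h},
      wS s t (fun e => kerP (J e / (2 * m)) m) S h.1) atTop
      (𝓝 (∑' h : {h : V → ℤ // Q h}, wS s t (fun e => wI (J e)) S h.1)) := by
  have hJ' : ∀ e n, 0 ≤ Real.exp (J e) * wI (J e) n := fun e n =>
    mul_nonneg (Real.exp_pos _).le (wI_nonneg (hJ e) n)
  have hs := summable_wS (s := s) (t := t) (om := om) (op := op) (S := S)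
    (w := fun e n => Real.exp (J e) * wI (J e) n)
    (fun e => ((summable_wI (hJ e)).mul_left (Real.exp (J e))).abs) hj j
  have hs2 : Summable fun h : {h : V → ℤ // Q h} =>
      |wS s t (fun e n => Real.exp (J e) * wI (J e) n) S h.1| := by
    have hinj : Function.Injective (fun h : {h : V → ℤ // Q h} =>
        (⟨h.1, hQ h.1 h.2⟩ : {h : V → ℤ // h om = 0 ∧ h op = j ∧ ∀ v ∈ S, h v = 0})) := by
      intro a b hab
      have := congrArg Subtype.val hab
      exact Subtype.ext this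
    refine (hs.comp_injective hinj).congr fun h => ?_
    rfl
  refine tendsto_tsum_of_dominated_convergence hs2 (fun h => ?_) ?_
  · unfold wS
    refine tendsto_finsetProd _ fun e _ => ?_
    by_cases he : s e ∈ S ∨ t e ∈ S
    · simp only [he, if_true]
      exact tendsto_const_nhds
    · simp only [he, if_false]
      exact kerP_lim (hJ e) _
  · obtain ⟨N, hN⟩ := exists_nat_ge (∑ e, J e)
    filter_upwards [eventually_ge_atTop (max N 1)] with m hm h
    have h1 : 0 < m := lt_of_lt_of_le Nat.one_pos ((le_max_right N 1).trans hm)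
    have h2 : ∀ e, J e ≤ m := fun e =>
      (Finset.single_le_sum (fun e _ => hJ e) (Finset.mem_univ e)).trans
        (hN.trans (by exact_mod_cast (le_max_left N 1).trans hm))
    have h3 : ∀ e n, 0 ≤ kerP (J e / (2 * m)) m n := fun e n =>
      kerP_nonneg (div_nonneg (hJ e) (by positivity)) _ _
    rw [Real.norm_of_nonneg (wS_nonneg h3 _), abs_of_nonneg (wS_nonneg hJ' _)]
    unfold wS
    refine Finset.prod_le_prod (fun e _ => ?_) fun e _ => ?_
    · split_ifs
      · exact zero_le_one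
      · exact h3 e _
    · split_ifs
      · exact le_rfl
      · exact kerP_dom (hJ e) h1 (h2 e) _

/-- limit of `ZS` -/
theorem lim_ZS {s t : E → V} {J : E → ℝ} {om op : V} (hJ : ∀ e, 0 ≤ J e) {S : Finset V}
    (hj : Joined s t om op S) (k : ℤ) :
    Tendsto (fun m : ℕ => ZS s t (fun e => kerP (J e / (2 * m)) m) om op S k) atTop
      (𝓝 (ZS s t (fun e => wI (J e)) om op S k)) :=
  lim_gen hJ hj k _ (fun _ h => h)

omit [Fintype V] [DecidableEq E] in
theorem wS_empty (s t : E → V) (w : E → ℤ → ℝ) (h : V → ℤ) :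
    wS s t w ∅ h = ∏ e, w e (h (t e) - h (s e)) := by
  unfold wS
  refine Finset.prod_congr rfl fun e _ => ?_
  rw [if_neg (by simp)]

/-- limit of `ZW` -/
theorem lim_ZW {s t : E → V} {J : E → ℝ} {om op : V} (hJ : ∀ e, 0 ≤ J e)
    (hj : Joined s t om op ∅) (j : ℤ) (Q : (V → ℤ) → Prop) (hQ : ∀ h, Q h → h om = 0 ∧ h op = j) :
    Tendsto (fun m : ℕ => ZW s t (fun e => kerP (J e / (2 * m)) m) Q) atTop
      (𝓝 (ZW s t (fun e => wI (J e)) Q)) := by
  have h := lim_gen hJ hj j Q (fun h hq => ⟨(hQ h hq).1, (hQ h hq).2, by simp⟩)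
  simp only [wS_empty] at h
  exact h

end

/-- row UW3 -/
theorem uw3 : StmtUW3 := by
  intro V E _ _ _ _ s t J om op f hJ hj
  refine ⟨fun S hS k => lim_ZS hJ hS k, ?_⟩
  exact lim_ZW hJ hj 0 (fun h => h om = 0 ∧ h op = 0 ∧ 1 ≤ h f) (fun h hq => ⟨hq.1, hq.2.1⟩)

/-- row UW3, set form -/
theorem uw3B : StmtUW3B := by
  intro V E _ _ _ _ s t J om op hJ hj
  refine ⟨fun S hS k => lim_ZS hJ hS k, fun B => ?_⟩
  exact lim_ZW hJ hj 0 (fun h => h om = 0 ∧ h op = 0 ∧ Miss s t om op B h)
    (fun h hq => ⟨hq.1, hq.2.1⟩)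

/-- the unwiring inequality, one vertex, no hypothesis -/
theorem uwf : StmtUWf := uwf_of uw2f' uw3

/-- the unwiring inequality, set form, no hypothesis -/
theorem uwB : StmtUWB := uwB_of uw2B uw3B

end Vale.Agent.P159.T1.H565
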