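import Vale.Agent.P159.T1.H568.Cheb
import Vale.Agent.P159.T1.H565.Lim2

/-!
Row (b') of helper568 in the form used by the subdivision rows.
-/

namespace Vale.Agent.P159.T1.H565

open Vale.Agent.P159.T1.H254

/-- row (b'), no hypothesis -/
theorem cheb : StmtCheb := by
  intro V E _ _ _ _ s t β om op B g T v lam hβ hJ hg hl hF
  have h := Vale.Agent.P159.T1.H568.cheb V E s t β om op B g T v lam hβ hJ hg hl hF
  rw [ZS_ZW] at h
  exact h

section

variable {V E : Type} [Fintype V] [DecidableEq V] [Fintype E] [DecidableEq E]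

/-- `miss_lower` without hypothesis -/
theorem miss_lower' {s t : E → V} {J : E → ℝ} (k : ℕ)
    (hJ : ∀ e, 0 < J e ∧ 16 * J e ≤ ((k + 1 : ℕ) : ℝ)) {om op : V} {B : Finset V} {g : V → ℝ}
    {T v lam : ℝ} (hJ0 : Joined s t om op ∅) (hg : ∀ u, 0 ≤ g u) (hl : 0 ≤ lam)
    (hF : FlowL s t om op B g J v lam) :
    ZW s t (fun e => kerP (J e / (2 * ((k + 1 : ℕ) : ℝ))) (k + 1)) (QT om op g T) -
      Real.exp (lam ^ 2 * v - lam * (T - ∑ u, g u)) *
        ZW s t (fun e => kerP (J e / (2 * ((k + 1 : ℕ) : ℝ))) (k + 1))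
          (fun h => h om = 0 ∧ h op = 0) ≤
    ZM (sS s k) (tS t k) (fun p => ker 1 (J p.1 / (2 * ((k + 1 : ℕ) : ℝ)))) (Sum.inl om)
      (Sum.inl op) (BI E k B) :=
  miss_lower cheb k hJ hJ0 hg hl hF

end

end Vale.Agent.P159.T1.H565
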