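import Mathlib

/-!
Functions on `ℤ^k` with the parallelogram inequality which agree with a quadratic form on the
multiples of the vectors `e_i` and `e_i - e_j`.
-/

open Filter Topology

namespace Vale.Agent.P159.T1.H565

/-- three term identity from the parallelogram law -/
theorem par_three {M : Type} [AddCommGroup M] {f : M → ℝ}
    (hpar : ∀ u v, f (u + v) + f (u - v) = 2 * f u + 2 * f v) (u v w : M) :
    f (u + v + w) + f u + f v + f w = f (u + v) + f (v + w) + f (u + w) := by
  have h1 := hpar (u + v) w
  have h2 := hpar (u - w) v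
  have h3 := hpar u (v + w)
  have h4 := hpar u w
  have e1 : u - w + v = u + v - w := by abel
  have e2 : u - w - v = u - (v + w) := by abel
  have e3 : u + (v + w) = u + v + w := by abel
  rw [e1, e2] at h2
  rw [e3] at h3
  linarith

/-- a homomorphism which vanishes on the unit vectors vanishes -/
theorem hom_zero {k : ℕ} (g : (Fin k → ℤ) →+ ℝ) (h : ∀ i, g (Pi.single i 1) = 0) : g = 0 := by
  refine AddMonoidHom.functions_ext _ _ _ fun i x => ?_
  have e : (Pi.single i x : Fin k → ℤ) = x • Pi.single i 1 := by
    rw [← Pi.single_smul, smul_eq_mul, mul_one]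
  rw [e, map_zsmul, h i, smul_zero]
  rfl

/-- a quadratic function which vanishes on the vectors `e_i`, `e_i - e_j` vanishes -/
theorem quad_zero {k : ℕ} {f : (Fin k → ℤ) → ℝ}
    (hpar : ∀ u v, f (u + v) + f (u - v) = 2 * f u + 2 * f v)
    (h1 : ∀ i, f (Pi.single i 1) = 0)
    (h2 : ∀ i j, f (Pi.single i 1 - Pi.single j 1) = 0) (u : Fin k → ℤ) : f u = 0 := by
  have h3 := par_three hpar
  have hf0 : f 0 = 0 := by
    have := hpar 0 0
    simp only [add_zero, sub_zero] at this
    linarith
  -- additivity in the first variable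
  have hB : ∀ i : Fin k, ∀ u, f (u + Pi.single i 1) = f u := by
    intro i
    let g : (Fin k → ℤ) →+ ℝ :=
      { toFun := fun u => f (u + Pi.single i 1) - f u - f (Pi.single i 1)
        map_zero' := by
          simp only [zero_add, hf0]
          ring
        map_add' := fun u v => by
          have := h3 u v (Pi.single i 1)
          linarith }
    have hg : g = 0 := by
      refine hom_zero g fun j => ?_
      show f (Pi.single j 1 + Pi.single i 1) - f (Pi.single j 1) - f (Pi.single i 1) = 0
      have h4 := hpar (Pi.single j 1) (Pi.single i 1)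
      rw [h2 j i, h1, h1] at h4
      rw [h1, h1]
      linarith
    intro u
    have h5 : g u = 0 := by rw [hg]; rfl
    have h6 : f (u + Pi.single i 1) - f u - f (Pi.single i 1) = 0 := h5
    rw [h1] at h6
    linarith
  -- additivity in the second variable
  let g : (Fin k → ℤ) →+ ℝ :=
    { toFun := fun v => f (u + v) - f u - f v
      map_zero' := by
        simp only [add_zero, hf0]
        ring
      map_add' := fun v w => by
        have := h3 u v w
        have e : u + (v + w) = u + v + w := by abel
        rw [e]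
        linarith }
  have hg : g = 0 := by
    refine hom_zero g fun j => ?_
    show f (u + Pi.single j 1) - f u - f (Pi.single j 1) = 0
    rw [hB, h1]
    ring
  have h5 : g u = 0 := by rw [hg]; rfl
  have h6 : f (u + u) - f u - f u = 0 := h5
  have h7 := hpar u u
  rw [sub_self, hf0] at h7
  linarith

/-- **the parallelogram inequality and the values on `2 ^ n e_i`, `2 ^ n (e_i - e_j)` determine a
nonnegative function** -/
theorem par_eq {k : ℕ} {φ q : (Fin k → ℤ) → ℝ}
    (hpar : ∀ u v, φ (u + v) + φ (u - v) ≤ 2 * φ u + 2 * φ v) (h0 : φ 0 = 0)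
    (hpos : ∀ u, 0 ≤ φ u) (hq : ∀ u v, q (u + v) + q (u - v) = 2 * q u + 2 * q v)
    (h1 : ∀ (n : ℕ) i, φ (2 ^ n • Pi.single i 1) = 4 ^ n * q (Pi.single i 1))
    (h2 : ∀ (n : ℕ) i j, φ (2 ^ n • (Pi.single i 1 - Pi.single j 1)) =
      4 ^ n * q (Pi.single i 1 - Pi.single j 1)) (u : Fin k → ℤ) : φ u = q u := by
  -- the rescaled functions decrease
  set a : ℕ → (Fin k → ℤ) → ℝ := fun n u => φ (2 ^ n • u) / 4 ^ n with ha
  have hdec : ∀ u, Antitone fun n => a n u := by
    intro u
    refine antitone_nat_of_succ_le fun n => ?_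
    simp only [ha]
    have h3 := hpar (2 ^ n • u) (2 ^ n • u)
    rw [sub_self, h0] at h3
    have e : (2 : ℕ) ^ (n + 1) • u = 2 ^ n • u + 2 ^ n • u := by
      rw [pow_succ, mul_comm, mul_smul, two_smul]
    rw [e, pow_succ, div_le_div_iff₀ (by positivity) (by positivity)]
    have h4 : (0 : ℝ) < 4 ^ n := by positivity
    nlinarith
  have hbdd : ∀ u, BddBelow (Set.range fun n => a n u) := fun u =>
    ⟨0, by rintro _ ⟨n, rfl⟩; exact div_nonneg (hpos _) (by positivity)⟩
  obtain ⟨ψ, hψ⟩ : ∃ ψ : (Fin k → ℤ) → ℝ, ∀ u, Tendsto (fun n => a n u) atTop (𝓝 (ψ u)) :=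
    ⟨fun u => ⨅ n, a n u, fun u => tendsto_atTop_ciInf (hdec u) (hbdd u)⟩
  have hle : ∀ u, ψ u ≤ φ u := by
    intro u
    have h3 : ψ u ≤ a 0 u := (hdec u).le_of_tendsto (hψ u) 0
    have h4 : a 0 u = φ u := by simp [ha]
    rwa [h4] at h3
  have hpar' : ∀ n u v, a n (u + v) + a n (u - v) ≤ 2 * a n u + 2 * a n v := by
    intro n u v
    simp only [ha]
    rw [smul_add, smul_sub]
    have h3 := hpar (2 ^ n • u) (2 ^ n • v)
    rw [← add_div, ← mul_div_assoc, ← mul_div_assoc, ← add_div]
    exact div_le_div_of_nonneg_right h3 (by positivity)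
  have hψle : ∀ u v, ψ (u + v) + ψ (u - v) ≤ 2 * ψ u + 2 * ψ v := fun u v =>
    le_of_tendsto_of_tendsto' ((hψ _).add (hψ _)) (((hψ _).const_mul 2).add ((hψ _).const_mul 2))
      fun n => hpar' n u v
  have hψ2 : ∀ u, ψ (u + u) = 4 * ψ u := by
    intro u
    have h3 : Tendsto (fun n => 4 * a (n + 1) u) atTop (𝓝 (4 * ψ u)) :=
      ((tendsto_add_atTop_iff_nat 1).2 (hψ u)).const_mul 4
    have h4 : (fun n => 4 * a (n + 1) u) = fun n => a n (u + u) := by
      funext n
      simp only [ha]
      have e : (2 : ℕ) ^ (n + 1) • u = 2 ^ n • (u + u) := by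
        rw [pow_succ, mul_smul, two_smul]
      rw [e, pow_succ]
      field_simp
    rw [h4] at h3
    exact tendsto_nhds_unique (hψ (u + u)) h3
  have hψpar : ∀ u v, ψ (u + v) + ψ (u - v) = 2 * ψ u + 2 * ψ v := by
    intro u v
    refine le_antisymm (hψle u v) ?_
    have h3 := hψle (u + v) (u - v)
    have e1 : u + v + (u - v) = u + u := by abel
    have e2 : u + v - (u - v) = v + v := by abel
    rw [e1, e2, hψ2, hψ2] at h3
    linarith
  have hψ1 : ∀ i, ψ (Pi.single i 1) = q (Pi.single i 1) := by
    intro i
    refine tendsto_nhds_unique (hψ _) ?_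
    have : (fun n => a n (Pi.single i 1)) = fun _ => q (Pi.single i 1) := by
      funext n
      simp only [ha]
      rw [h1]
      field_simp
    rw [this]
    exact tendsto_const_nhds
  have hψ3 : ∀ i j, ψ (Pi.single i 1 - Pi.single j 1) = q (Pi.single i 1 - Pi.single j 1) := by
    intro i j
    refine tendsto_nhds_unique (hψ _) ?_
    have : (fun n => a n (Pi.single i 1 - Pi.single j 1)) =
        fun _ => q (Pi.single i 1 - Pi.single j 1) := by
      funext n
      simp only [ha]
      rw [h2]
      field_simp
    rw [this]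
    exact tendsto_const_nhds
  have hψq : ∀ u, ψ u = q u := by
    intro u
    have h3 : ψ u - q u = 0 := quad_zero (f := fun u => ψ u - q u)
      (fun u v => by
        have h4 := hψpar u v
        have h5 := hq u v
        linarith)
      (fun i => by rw [hψ1 i, sub_self])
      (fun i j => by rw [hψ3 i j, sub_self]) u
    linarith
  have hge : ∀ u, q u ≤ φ u := fun u => (hψq u).symm.le.trans (hle u)
  -- the upper bound holds on a subgroup
  have hq0 : q 0 = 0 := by
    have := hq 0 0
    simp only [add_zero, sub_zero] at this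
    linarith
  let A : AddSubgroup (Fin k → ℤ) :=
    { carrier := {u | φ u ≤ q u}
      zero_mem' := by
        show φ 0 ≤ q 0
        rw [h0, hq0]
      add_mem' := fun {u v} hu hv => by
        show φ (u + v) ≤ q (u + v)
        have hu' : φ u ≤ q u := hu
        have hv' : φ v ≤ q v := hv
        have h3 := hpar u v
        have h4 := hge (u - v)
        have h5 := hq u v
        linarith
      neg_mem' := fun {u} hu => by
        show φ (-u) ≤ q (-u)
        have hu' : φ u ≤ q u := hu
        have h3 := hpar 0 u
        have h4 := hq 0 u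
        rw [zero_add, zero_sub, h0] at h3
        rw [zero_add, zero_sub, hq0] at h4
        linarith }
  have hA : ∀ i, Pi.single i (1 : ℤ) ∈ A := by
    intro i
    show φ (Pi.single i 1) ≤ q (Pi.single i 1)
    have h3 := h1 0 i
    rw [pow_zero, one_smul, pow_zero, one_mul] at h3
    exact h3.le
  have hu : u ∈ A := by
    have e : u = ∑ i, u i • Pi.single i (1 : ℤ) := by
      conv_lhs => rw [← Finset.univ_sum_single u]
      refine Finset.sum_congr rfl fun i _ => ?_
      rw [← Pi.single_smul, smul_eq_mul, mul_one]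
    rw [e]
    exact A.sum_mem fun i _ => A.zsmul_mem (hA i) _
  exact le_antisymm hu (hge u)

end Vale.Agent.P159.T1.H565
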