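import Vale.Agent.P159.T1.H565.Coul1
import Vale.Agent.P159.H950.K4
import Vale.Agent.P159.H873.Main

/-!
Dipoles of charge `q` inside a configuration of `k` sites.
-/

open Filter Topology

namespace Vale.Agent.P159.T1.H565

open Vale.Agent.P159 Vale.Agent.P159.H454 Vale.Agent.P159.H950

/-- sup distance -/
def ds (y : ℤ × ℤ) : ℤ := max |y.1| |y.2|

theorem ds_nonneg (y : ℤ × ℤ) : 0 ≤ ds y := (abs_nonneg _).trans (le_max_left _ _)

theorem ds_zero {y : ℤ × ℤ} (h : ds y < 1) : y = 0 := by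
  unfold ds at h
  have m1 := le_max_left |y.1| |y.2|
  have m2 := le_max_right |y.1| |y.2|
  have a1 := abs_nonneg y.1
  have a2 := abs_nonneg y.2
  ext
  · exact abs_eq_zero.1 (by omega)
  · exact abs_eq_zero.1 (by omega)

theorem ds_neg (y : ℤ × ℤ) : ds (-y) = ds y := by
  unfold ds
  simp

theorem ds_comm (y z : ℤ × ℤ) : ds (y - z) = ds (z - y) := by
  rw [← ds_neg]
  congr 1
  abel

/-- logarithm of the distance, `0` for coinciding sites -/
noncomputable def ll (y : ℤ × ℤ) : ℝ := Real.log (max 1 (ds y : ℝ))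

theorem ll_nonneg (y : ℤ × ℤ) : 0 ≤ ll y := Real.log_nonneg (le_max_left _ _)

theorem ll_zero : ll 0 = 0 := by
  unfold ll ds
  simp

theorem ll_comm (y z : ℤ × ℤ) : ll (y - z) = ll (z - y) := by
  unfold ll
  rw [ds_comm]

theorem ll_le {y : ℤ × ℤ} {N : ℕ} (hN : 1 ≤ N) (h : ds y ≤ N) : ll y ≤ Real.log N := by
  unfold ll
  have h1 : (1 : ℝ) ≤ N := by exact_mod_cast hN
  have h2 : (ds y : ℝ) ≤ N := by exact_mod_cast h
  exact Real.log_le_log (by positivity) (max_le h1 h2)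

theorem ll_eq {y : ℤ × ℤ} (hy : y ≠ 0) : 1 ≤ (ds y : ℝ) ∧ ll y = Real.log (ds y) := by
  have h1 : (1 : ℤ) ≤ ds y := by
    by_contra h
    exact hy (ds_zero (by omega))
  have h2 : (1 : ℝ) ≤ (ds y : ℝ) := by exact_mod_cast h1
  exact ⟨h2, by unfold ll; rw [max_eq_right h2]⟩

/-- a dipole of charge `q` inside a configuration is a two-point function -/
theorem charge_dip (b : ℝ) {k : ℕ} (i j : Fin k) (x : Fin k → ℤ × ℤ) (q : ℕ) :
    chargeInf b (q • (Pi.single i 1 - Pi.single j 1) : Fin k → ℤ) x =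
      chargeInf b ![(q : ℤ), -(q : ℤ)] ![x i, x j] := by
  unfold chargeInf
  congr 1
  funext R
  unfold chargeCorr
  congr 1
  funext θ
  have h1 := pair_sum i j fun l => ext θ (x l)
  have h2 : ∑ l, (q • (Pi.single i (1 : ℤ) - Pi.single j 1) : Fin k → ℤ) l • ext θ (x l) =
      (q : ℤ) • ∑ l, (Pi.single i (1 : ℤ) - Pi.single j 1 : Fin k → ℤ) l • ext θ (x l) := by
    rw [Finset.smul_sum]
    refine Finset.sum_congr rfl fun l _ => ?_
    rw [Pi.smul_apply, smul_smul]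
    congr 1
  have h3 : ∑ l : Fin 2, (![(q : ℤ), -(q : ℤ)] : Fin 2 → ℤ) l •
      ext θ ((![x i, x j] : Fin 2 → ℤ × ℤ) l) = (q : ℤ) • (ext θ (x i) - ext θ (x j)) := by
    rw [Fin.sum_univ_two]
    show (q : ℤ) • ext θ (x i) + (-(q : ℤ)) • ext θ (x j) = (q : ℤ) • (ext θ (x i) - ext θ (x j))
    rw [neg_zsmul, zsmul_sub, sub_eq_add_neg]
  exact congrArg Real.Angle.cos ((h2.trans (congrArg (fun t => (q : ℤ) • t) h1)).trans h3.symm)

/-- the lower bound for dipoles -/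
theorem dip_low {b κ : ℝ} (hb : bCrit ≤ b) (hlow : ∀ ε : ℝ, 0 < ε → ∃ c : ℝ, 0 < c ∧
      ∀ y : ℤ × ℤ, y ≠ 0 → c * (ds y : ℝ) ^ (-(κ + ε)) ≤ corrInf b y) (q : ℕ) {ε : ℝ}
    (hε : 0 < ε) : ∃ C : ℝ, ∀ (k : ℕ) (i j : Fin k) (x : Fin k → ℤ × ℤ),
      0 < chargeInf b (q • (Pi.single i 1 - Pi.single j 1) : Fin k → ℤ) x ∧
      -Real.log (chargeInf b (q • (Pi.single i 1 - Pi.single j 1) : Fin k → ℤ) x) ≤
        ((q : ℝ) ^ 2 * κ + ε) * ll (x i - x j) + C := by
  have hb0 : 0 < b := H170.bCrit_pos.trans_le hb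
  obtain ⟨c, hc, h⟩ := hlow (ε / ((q : ℝ) ^ 2 + 1)) (by positivity)
  refine ⟨(q : ℝ) ^ 2 * |Real.log c|, fun k i j x => ?_⟩
  have h1 := chargeInf_zmul hb0.le (Pi.single i 1 - Pi.single j 1 : Fin k → ℤ) x (q : ℤ)
  rw [chargeInf_pair hb0.le, Int.natAbs_natCast] at h1
  have e1 : (fun l => (q : ℤ) * (Pi.single i 1 - Pi.single j 1 : Fin k → ℤ) l) =
      (q • (Pi.single i 1 - Pi.single j 1) : Fin k → ℤ) := by
    funext l
    simp
  rw [e1] at h1
  have hC := XY.C_pos hb0 (x j - x i)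
  have hpos : 0 < chargeInf b (q • (Pi.single i 1 - Pi.single j 1) : Fin k → ℤ) x :=
    (pow_pos hC _).trans_le h1
  refine ⟨hpos, ?_⟩
  have h2 : -Real.log (chargeInf b (q • (Pi.single i 1 - Pi.single j 1) : Fin k → ℤ) x) ≤
      (q : ℝ) ^ 2 * -Real.log (XY.C b (x j - x i)) := by
    have := Real.log_le_log (pow_pos hC _) h1
    rw [Real.log_pow] at this
    push_cast at this
    linarith
  have h3 : -Real.log (XY.C b (x j - x i)) ≤
      (κ + ε / ((q : ℝ) ^ 2 + 1)) * ll (x i - x j) + |Real.log c| := by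
    by_cases hy : x j - x i = 0
    · have e2 : x i - x j = 0 := by rw [← neg_sub, hy, neg_zero]
      rw [hy, e2, ll_zero, XY.C_zero]
      simp
    · have h4 := h _ hy
      rw [XY.corrInf_eq hb0.le] at h4
      obtain ⟨h5, h6⟩ := ll_eq hy
      rw [ll_comm, h6]
      have h7 : 0 < (ds (x j - x i) : ℝ) := by linarith
      have h8 := Real.log_le_log (by positivity) h4
      rw [Real.log_mul hc.ne' (by positivity), Real.log_rpow h7] at h8
      have := neg_abs_le (Real.log c)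
      linarith
  have h4 := mul_le_mul_of_nonneg_left h3 (sq_nonneg (q : ℝ))
  have h5 : (q : ℝ) ^ 2 * ((κ + ε / ((q : ℝ) ^ 2 + 1)) * ll (x i - x j) + |Real.log c|) ≤
      ((q : ℝ) ^ 2 * κ + ε) * ll (x i - x j) + (q : ℝ) ^ 2 * |Real.log c| := by
    have h6 : (q : ℝ) ^ 2 * (ε / ((q : ℝ) ^ 2 + 1)) ≤ ε := by
      rw [mul_div_assoc', div_le_iff₀ (by positivity)]
      nlinarith [sq_nonneg (q : ℝ)]
    have h7 := mul_le_mul_of_nonneg_right h6 (ll_nonneg (x i - x j))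
    linarith
  linarith

/-- the upper bound for dipoles -/
theorem dip_up {b κ : ℝ} (hb : bCrit ≤ b) (hup : ∀ (q : ℕ) (η : ℝ), η < (q : ℝ) ^ 2 * κ →
      ∃ K : ℝ, ∀ y z : ℤ × ℤ, y ≠ z →
        chargeInf b ![(q : ℤ), -(q : ℤ)] ![y, z] ≤ K * (ds (y - z) : ℝ) ^ (-η)) (q : ℕ) {ε : ℝ}
    (hε : 0 < ε) : ∃ C : ℝ, ∀ (k : ℕ) (i j : Fin k) (x : Fin k → ℤ × ℤ),
      0 < chargeInf b (q • (Pi.single i 1 - Pi.single j 1) : Fin k → ℤ) x →
      ((q : ℝ) ^ 2 * κ - ε) * ll (x i - x j) - C ≤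
      -Real.log (chargeInf b (q • (Pi.single i 1 - Pi.single j 1) : Fin k → ℤ) x) := by
  have hb0 : 0 < b := H170.bCrit_pos.trans_le hb
  obtain ⟨K, hK⟩ := hup q ((q : ℝ) ^ 2 * κ - ε) (by linarith)
  refine ⟨|Real.log K|, fun k i j x hpos => ?_⟩
  by_cases hy : x i = x j
  · rw [hy, sub_self, ll_zero]
    have h1 := chargeInf_le_one hb0.le (q • (Pi.single i 1 - Pi.single j 1) : Fin k → ℤ) x
    have h2 := Real.log_nonpos hpos.le h1
    have h3 := abs_nonneg (Real.log K)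
    linarith
  · have h1 := hK _ _ hy
    rw [← charge_dip] at h1
    obtain ⟨h5, h6⟩ := ll_eq (sub_ne_zero.2 hy)
    have h7 : 0 < (ds (x i - x j) : ℝ) := by linarith
    have hK0 : 0 < K := by
      by_contra h
      push Not at h
      have : K * (ds (x i - x j) : ℝ) ^ (-((q : ℝ) ^ 2 * κ - ε)) ≤ 0 :=
        mul_nonpos_of_nonpos_of_nonneg h (by positivity)
      linarith
    have h8 := Real.log_le_log hpos h1
    rw [Real.log_mul hK0.ne' (by positivity), Real.log_rpow h7, ← h6] at h8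
    have := le_abs_self (Real.log K)
    linarith

/-- the upper bound for the two-point function of charge `q` at arbitrary sites -/
theorem up_two {b : ℝ} (hb : bCrit ≤ b) (q : ℕ) (η : ℝ)
    (hη : η < (q : ℝ) ^ 2 * (1 / (2 * Real.pi * helicity b))) :
    ∃ K : ℝ, ∀ y z : ℤ × ℤ, y ≠ z →
      chargeInf b ![(q : ℤ), -(q : ℤ)] ![y, z] ≤ K * (ds (y - z) : ℝ) ^ (-η) := by
  have hb0 : 0 < b := H170.bCrit_pos.trans_le hb
  have hpi := Real.pi_pos
  have hY : 0 < helicity b := by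
    obtain ⟨h1, h2⟩ := H873.hel_lower H170.bCrit_pos hb
    exact lt_of_lt_of_le (one_div_pos.2 h1) h2
  rcases Nat.eq_zero_or_pos q with hq | hq
  · subst hq
    refine ⟨1, fun y z hyz => ?_⟩
    have h1 := chargeInf_le_one hb0.le ![((0 : ℕ) : ℤ), -((0 : ℕ) : ℤ)] ![y, z]
    have h2 : η ≤ 0 := by
      have : (((0 : ℕ) : ℝ)) ^ 2 * (1 / (2 * Real.pi * helicity b)) = 0 := by
        push_cast
        ring
      rw [this] at hη
      exact hη.le
    obtain ⟨h5, -⟩ := ll_eq (sub_ne_zero.2 hyz)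
    refine h1.trans ?_
    rw [one_mul]
    exact Real.one_le_rpow h5 (by linarith)
  · have hq' : (0 : ℝ) < (q : ℝ) ^ 2 := by
      have : (0 : ℝ) < q := by exact_mod_cast hq
      positivity
    have hκ : η / (2 * (q : ℝ) ^ 2) * (4 * Real.pi * helicity b) < 1 := by
      have h1 : η * (2 * Real.pi * helicity b) < (q : ℝ) ^ 2 := by
        have h2 : 0 < 2 * Real.pi * helicity b := by positivity
        calc η * (2 * Real.pi * helicity b) <
              (q : ℝ) ^ 2 * (1 / (2 * Real.pi * helicity b)) * (2 * Real.pi * helicity b) :=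
              mul_lt_mul_of_pos_right hη h2
          _ = (q : ℝ) ^ 2 := by field_simp
      have h3 : η / (2 * (q : ℝ) ^ 2) * (4 * Real.pi * helicity b) =
          η * (2 * Real.pi * helicity b) / (q : ℝ) ^ 2 := by
        field_simp
        ring
      rw [h3, div_lt_one hq']
      exact h1
    obtain ⟨K, hK⟩ := H873.charges H454.chargeBound hb0 hκ 2 ![(q : ℤ), -(q : ℤ)]
    refine ⟨K, fun y z hyz => ?_⟩
    obtain ⟨h5, -⟩ := ll_eq (sub_ne_zero.2 hyz)
    have h5' : (1 : ℤ) ≤ ds (y - z) := by exact_mod_cast h5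
    obtain ⟨c, hc, -, hc2⟩ := hK ![y, z] (fun _ => (ds (y - z)).toNat)
      (fun _ => by omega) (fun i j hij => by
        have e0 : (((ds (y - z)).toNat : ℕ) : ℤ) = ds (y - z) := Int.toNat_of_nonneg (by omega)
        rw [e0]
        fin_cases i <;> fin_cases j
        · exact absurd rfl hij
        · exact le_rfl
        · show ds (y - z) ≤ ds (z - y)
          rw [ds_comm]
        · exact absurd rfl hij)
    have h6 : chargeInf b ![(q : ℤ), -(q : ℤ)] ![y, z] = c :=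
      tendsto_nhds_unique (tendsto_chargeInf hb0.le _ _) hc
    rw [h6]
    refine hc2.trans (le_of_eq ?_)
    rw [Fin.prod_univ_two]
    have e0 : (((ds (y - z)).toNat : ℕ) : ℝ) = (ds (y - z) : ℝ) := by
      have : (((ds (y - z)).toNat : ℕ) : ℤ) = ds (y - z) := Int.toNat_of_nonneg (by omega)
      exact_mod_cast this
    have h7 : 0 < (ds (y - z) : ℝ) := by linarith
    rw [e0]
    show K * ((ds (y - z) : ℝ) ^ (-(η / (2 * (q : ℝ) ^ 2) * (((q : ℤ) : ℝ)) ^ 2)) *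
      (ds (y - z) : ℝ) ^ (-(η / (2 * (q : ℝ) ^ 2) * (((-(q : ℤ) : ℤ)) : ℝ) ^ 2))) = _
    rw [← Real.rpow_add h7]
    congr 2
    push_cast
    field_simp
    ring

end Vale.Agent.P159.T1.H565
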