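import Vale.Agent.P159.T1.H565.Coul2

/-!
The Coulomb gas formula for all neutral correlations.
-/

open Filter Topology

namespace Vale.Agent.P159.T1.H565

open Vale.Agent.P159 Vale.Agent.P159.H454 Vale.Agent.P159.H950

/-- neutralisation of a charge configuration -/
def Ph {k : ℕ} (i0 : Fin k) (n : Fin k → ℤ) : Fin k → ℤ := n - (∑ j, n j) • Pi.single i0 1

theorem Ph_add {k : ℕ} (i0 : Fin k) (u v : Fin k → ℤ) : Ph i0 (u + v) = Ph i0 u + Ph i0 v := by
  unfold Ph
  simp only [Pi.add_apply, Finset.sum_add_distrib, add_smul]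
  abel

theorem Ph_sub {k : ℕ} (i0 : Fin k) (u v : Fin k → ℤ) : Ph i0 (u - v) = Ph i0 u - Ph i0 v := by
  unfold Ph
  simp only [Pi.sub_apply, Finset.sum_sub_distrib, sub_smul]
  abel

theorem Ph_zero {k : ℕ} (i0 : Fin k) : Ph i0 0 = 0 := by
  unfold Ph
  simp

theorem Ph_nsmul {k : ℕ} (i0 : Fin k) (n : ℕ) (u : Fin k → ℤ) :
    Ph i0 (n • u) = n • Ph i0 u := by
  induction n with
  | zero => simp [Ph_zero]
  | succ n ih => rw [succ_nsmul, succ_nsmul, Ph_add, ih]

theorem sum_single' {k : ℕ} (i : Fin k) : ∑ j, (Pi.single i (1 : ℤ) : Fin k → ℤ) j = 1 := by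
  rw [Finset.sum_pi_single', if_pos (Finset.mem_univ i)]

theorem Ph_single {k : ℕ} (i0 i : Fin k) :
    Ph i0 (Pi.single i 1) = Pi.single i 1 - Pi.single i0 1 := by
  unfold Ph
  rw [sum_single', one_smul]

theorem Ph_neutral {k : ℕ} (i0 : Fin k) {m : Fin k → ℤ} (hm : ∑ j, m j = 0) : Ph i0 m = m := by
  unfold Ph
  rw [hm, zero_smul, sub_zero]

theorem Ph_diff {k : ℕ} (i0 i j : Fin k) :
    Ph i0 (Pi.single i 1 - Pi.single j 1) = Pi.single i 1 - Pi.single j 1 := by
  refine Ph_neutral i0 ?_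
  simp only [Pi.sub_apply, Finset.sum_sub_distrib]
  rw [sum_single', sum_single', sub_self]

theorem sum_Ph {k : ℕ} (i0 : Fin k) (n : Fin k → ℤ) : ∑ j, Ph i0 n j = 0 := by
  unfold Ph
  simp only [Pi.sub_apply, Pi.smul_apply, Finset.sum_sub_distrib]
  rw [← Finset.smul_sum, sum_single', smul_eq_mul, mul_one, sub_self]

/-- the quadratic form -/
noncomputable def Qf {k : ℕ} (κ : ℝ) (L : Fin k → Fin k → ℝ) (m : Fin k → ℤ) : ℝ :=
  -(κ / 2) * ∑ i, ∑ j, (m i : ℝ) * m j * L i j

theorem Qf_par {k : ℕ} (κ : ℝ) (L : Fin k → Fin k → ℝ) (u v : Fin k → ℤ) :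
    Qf κ L (u + v) + Qf κ L (u - v) = 2 * Qf κ L u + 2 * Qf κ L v := by
  unfold Qf
  have h : ∑ i, ∑ j, ((u + v) i : ℝ) * ((u + v) j : ℤ) * L i j +
      ∑ i, ∑ j, ((u - v) i : ℝ) * ((u - v) j : ℤ) * L i j =
      2 * ∑ i, ∑ j, (u i : ℝ) * u j * L i j + 2 * ∑ i, ∑ j, (v i : ℝ) * v j * L i j := by
    rw [Finset.mul_sum, Finset.mul_sum, ← Finset.sum_add_distrib, ← Finset.sum_add_distrib]
    refine Finset.sum_congr rfl fun i _ => ?_
    rw [Finset.mul_sum, Finset.mul_sum, ← Finset.sum_add_distrib, ← Finset.sum_add_distrib]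
    refine Finset.sum_congr rfl fun j _ => ?_
    simp only [Pi.add_apply, Pi.sub_apply]
    push_cast
    ring
  linear_combination (-(κ / 2)) * h

theorem Qf_root {k : ℕ} (κ : ℝ) {L : Fin k → Fin k → ℝ} (hs : ∀ i j, L i j = L j i)
    (hd : ∀ i, L i i = 0) (i j : Fin k) :
    Qf κ L (Pi.single i 1 - Pi.single j 1) = κ * L i j := by
  classical
  have e : ∀ a : Fin k, (((Pi.single i 1 - Pi.single j 1 : Fin k → ℤ) a : ℤ) : ℝ) =
      (if a = i then 1 else 0) - (if a = j then 1 else 0) := by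
    intro a
    rw [Pi.sub_apply, Pi.single_apply, Pi.single_apply]
    split_ifs <;> simp
  have h : ∑ a, ∑ c, (((Pi.single i 1 - Pi.single j 1 : Fin k → ℤ) a : ℤ) : ℝ) *
      ((Pi.single i 1 - Pi.single j 1 : Fin k → ℤ) c : ℤ) * L a c = -(2 * L i j) := by
    have h1 : ∀ a, ∑ c, (((Pi.single i 1 - Pi.single j 1 : Fin k → ℤ) a : ℤ) : ℝ) *
        ((Pi.single i 1 - Pi.single j 1 : Fin k → ℤ) c : ℤ) * L a c =
        ((if a = i then 1 else 0) - (if a = j then 1 else 0)) * (L a i - L a j) := by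
      intro a
      simp only [e]
      have h2 : ∀ c, ((if a = i then (1 : ℝ) else 0) - (if a = j then 1 else 0)) *
          ((if c = i then 1 else 0) - (if c = j then 1 else 0)) * L a c =
          ((if a = i then 1 else 0) - (if a = j then 1 else 0)) *
            ((if c = i then L a c else 0) - (if c = j then L a c else 0)) := by
        intro c
        split_ifs <;> ring
      rw [Finset.sum_congr rfl fun c _ => h2 c, ← Finset.mul_sum, Finset.sum_sub_distrib,
        Finset.sum_ite_eq', Finset.sum_ite_eq', if_pos (Finset.mem_univ _),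
        if_pos (Finset.mem_univ _)]
    rw [Finset.sum_congr rfl fun a _ => h1 a]
    have h3 : ∀ a, ((if a = i then (1 : ℝ) else 0) - (if a = j then 1 else 0)) *
        (L a i - L a j) = (if a = i then L a i - L a j else 0) -
          (if a = j then L a i - L a j else 0) := by
      intro a
      split_ifs <;> ring
    rw [Finset.sum_congr rfl fun a _ => h3 a, Finset.sum_sub_distrib, Finset.sum_ite_eq',
      Finset.sum_ite_eq', if_pos (Finset.mem_univ _), if_pos (Finset.mem_univ _), hd, hd,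
      hs j i]
    ring
  unfold Qf
  rw [h]
  ring

theorem Qf_nsmul {k : ℕ} (κ : ℝ) (L : Fin k → Fin k → ℝ) (n : ℕ) (u : Fin k → ℤ) :
    Qf κ L (n • u) = (n : ℝ) ^ 2 * Qf κ L u := by
  unfold Qf
  have h : ∑ i, ∑ j, ((n • u) i : ℝ) * ((n • u) j : ℤ) * L i j =
      (n : ℝ) ^ 2 * ∑ i, ∑ j, (u i : ℝ) * u j * L i j := by
    rw [Finset.mul_sum]
    refine Finset.sum_congr rfl fun i _ => ?_
    rw [Finset.mul_sum]
    refine Finset.sum_congr rfl fun j _ => ?_
    simp only [Pi.smul_apply, nsmul_eq_mul]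
    push_cast
    ring
  rw [h]
  ring

/-- limits along ultrafilters -/
theorem ult_lim (F : Ultrafilter ℕ) {a : ℕ → ℝ} {l u : ℝ} (h : ∀ᶠ s in F, l ≤ a s ∧ a s ≤ u) :
    ∃ y, Tendsto a F (𝓝 y) := by
  have h1 : Set.Icc l u ∈ F.map a := h
  obtain ⟨y, -, hy⟩ := isCompact_Icc.ultrafilter_le_nhds' (F.map a) h1
  exact ⟨y, hy⟩

/-- a priori bounds -/
theorem apriori {b : ℝ} (hb : bCrit ≤ b) {k : ℕ} {m : Fin k → ℤ} (hm : ∑ j, m j = 0) :
    ∃ C : ℝ, 0 ≤ C ∧ ∀ (x : Fin k → ℤ × ℤ) (N : ℕ), 1 ≤ N → (∀ i j, ds (x i - x j) ≤ N) →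
      0 < chargeInf b m x ∧ 0 ≤ -Real.log (chargeInf b m x) ∧
        -Real.log (chargeInf b m x) ≤ C * (1 + Real.log N) := by
  have hb0 : 0 < b := H170.bCrit_pos.trans_le hb
  obtain ⟨M, hM⟩ := neutral_lower hb m hm
  refine ⟨M * (|Real.log (48 * b)| + 1), by positivity, fun x N hN hx => ?_⟩
  have h1 := hM x N hx
  have hN' : (1 : ℝ) ≤ N := by exact_mod_cast hN
  have h2 : 0 < (1 / (48 * b * ((N : ℝ) + 1))) ^ M := by positivity
  have hpos := h2.trans_le h1
  refine ⟨hpos, ?_, ?_⟩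
  · have := Real.log_nonpos hpos.le (chargeInf_le_one hb0.le m x)
    linarith
  · have h3 := Real.log_le_log h2 h1
    rw [Real.log_pow, one_div, Real.log_inv,
      Real.log_mul (by positivity) (by positivity)] at h3
    have h4 : Real.log ((N : ℝ) + 1) ≤ 1 + Real.log N := by
      have h5 : Real.log ((N : ℝ) + 1) ≤ Real.log (2 * N) :=
        Real.log_le_log (by positivity) (by linarith)
      rw [Real.log_mul (by norm_num) (by positivity)] at h5
      have h6 : Real.log 2 ≤ 1 := by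
        have := Real.log_two_lt_d9
        linarith
      linarith
    have h5 : 0 ≤ Real.log N := Real.log_nonneg hN'
    have h6 := le_abs_self (Real.log (48 * b))
    have h7 : (M : ℝ) * (Real.log (48 * b) + Real.log ((N : ℝ) + 1)) ≤
        M * ((|Real.log (48 * b)| + 1) * (1 + Real.log N)) := by
      refine mul_le_mul_of_nonneg_left ?_ (Nat.cast_nonneg M)
      nlinarith [abs_nonneg (Real.log (48 * b))]
    linarith

/-- **the Coulomb gas formula** in logarithmic form -/
theorem coul_log {b κ : ℝ} (hb : bCrit ≤ b)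
    (hlow : ∀ ε : ℝ, 0 < ε → ∃ c : ℝ, 0 < c ∧
      ∀ y : ℤ × ℤ, y ≠ 0 → c * (ds y : ℝ) ^ (-(κ + ε)) ≤ corrInf b y)
    (hup : ∀ (q : ℕ) (η : ℝ), η < (q : ℝ) ^ 2 * κ → ∃ K : ℝ, ∀ y z : ℤ × ℤ, y ≠ z →
      chargeInf b ![(q : ℤ), -(q : ℤ)] ![y, z] ≤ K * (ds (y - z) : ℝ) ^ (-η))
    {k : ℕ} {m : Fin k → ℤ} (hm : ∑ j, m j = 0) {ε : ℝ} (hε : 0 < ε) :
    ∃ K : ℝ, ∀ (x : Fin k → ℤ × ℤ) (N : ℕ), 1 ≤ N → (∀ i j, ds (x i - x j) ≤ N) →
      |-Real.log (chargeInf b m x) - Qf κ (fun i j => ll (x i - x j)) m| ≤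
        ε * Real.log N + K := by
  have hb0 : 0 < b := H170.bCrit_pos.trans_le hb
  rcases Nat.eq_zero_or_pos k with hk | hk
  · subst hk
    refine ⟨0, fun x N hN _ => ?_⟩
    have e : m = 0 := funext fun i => i.elim0
    have e2 : Qf κ (fun i j => ll (x i - x j)) m = 0 := by
      unfold Qf
      simp
    rw [e2, e, chargeInf_zero hb0.le, Real.log_one]
    have : (1 : ℝ) ≤ N := by exact_mod_cast hN
    have := Real.log_nonneg this
    simp only [neg_zero, sub_zero, abs_zero]
    positivity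
  obtain ⟨i0⟩ : Nonempty (Fin k) := ⟨⟨0, hk⟩⟩
  by_contra hcon
  push Not at hcon
  choose x N hN hx hbad using fun s : ℕ => hcon (s : ℝ)
  have hN' : ∀ s, (1 : ℝ) ≤ N s := fun s => by exact_mod_cast hN s
  have hL0 : ∀ s, 0 ≤ Real.log (N s) := fun s => Real.log_nonneg (hN' s)
  have hll : ∀ s i j, 0 ≤ ll (x s i - x s j) ∧ ll (x s i - x s j) ≤ Real.log (N s) :=
    fun s i j => ⟨ll_nonneg _, ll_le (hN s) (hx s i j)⟩
  -- `log N` is unbounded along the sequence
  have hLtop : Tendsto (fun s => Real.log (N s)) atTop atTop := by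
    obtain ⟨C, hC, h⟩ := apriori hb hm
    have h1 : ∀ s : ℕ, (s : ℝ) ≤ (C + |κ| / 2 * ∑ i, ∑ j, |(m i : ℝ) * m j|) *
        (1 + Real.log (N s)) := by
      intro s
      obtain ⟨-, h2, h3⟩ := h (x s) (N s) (hN s) (hx s)
      have h4 : |Qf κ (fun i j => ll (x s i - x s j)) m| ≤
          |κ| / 2 * (∑ i, ∑ j, |(m i : ℝ) * m j|) * Real.log (N s) := by
        unfold Qf
        rw [abs_mul, abs_neg, abs_div, abs_of_pos (by norm_num : (0 : ℝ) < 2), mul_assoc]
        refine mul_le_mul_of_nonneg_left ?_ (by positivity)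
        rw [Finset.sum_mul]
        refine (Finset.abs_sum_le_sum_abs _ _).trans (Finset.sum_le_sum fun i _ => ?_)
        rw [Finset.sum_mul]
        refine (Finset.abs_sum_le_sum_abs _ _).trans (Finset.sum_le_sum fun j _ => ?_)
        rw [abs_mul, abs_of_nonneg (hll s i j).1]
        exact mul_le_mul_of_nonneg_left (hll s i j).2 (abs_nonneg _)
      have h5 := hbad s
      have h6 : |(-Real.log (chargeInf b m (x s)) - Qf κ (fun i j => ll (x s i - x s j)) m)| ≤
          C * (1 + Real.log (N s)) +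
            |κ| / 2 * (∑ i, ∑ j, |(m i : ℝ) * m j|) * Real.log (N s) := by
        refine (abs_sub _ _).trans (add_le_add ?_ h4)
        rw [abs_of_nonneg h2]
        exact h3
      have h7 : 0 ≤ |κ| / 2 * (∑ i, ∑ j, |(m i : ℝ) * m j|) := by positivity
      have h8 := mul_nonneg hε.le (hL0 s)
      have h9 := hL0 s
      nlinarith
    have h2 : Tendsto (fun s => (C + |κ| / 2 * ∑ i, ∑ j, |(m i : ℝ) * m j|) *
        (1 + Real.log (N s))) atTop atTop :=
      tendsto_atTop_mono h1 tendsto_natCast_atTop_atTop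
    have h3 : 0 < C + |κ| / 2 * (∑ i, ∑ j, |(m i : ℝ) * m j|) := by
      by_contra h4
      push Not at h4
      have h5 := h1 1
      have h6 : (C + |κ| / 2 * ∑ i, ∑ j, |(m i : ℝ) * m j|) * (1 + Real.log (N 1)) ≤ 0 :=
        mul_nonpos_of_nonpos_of_nonneg h4 (by linarith [hL0 1])
      push_cast at h5
      linarith
    have h4 := h2.const_mul_atTop (inv_pos.2 h3)
    have h5 : (fun s => (C + |κ| / 2 * ∑ i, ∑ j, |(m i : ℝ) * m j|)⁻¹ *
        ((C + |κ| / 2 * ∑ i, ∑ j, |(m i : ℝ) * m j|) * (1 + Real.log (N s)))) =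
        fun s => 1 + Real.log (N s) := by
      funext s
      rw [← mul_assoc, inv_mul_cancel₀ h3.ne', one_mul]
    rw [h5] at h4
    have h6 := tendsto_atTop_add_const_left atTop (-1 : ℝ) h4
    refine h6.congr fun s => ?_
    ring
  -- the ultrafilter
  set F : Ultrafilter ℕ := hyperfilter ℕ with hF
  have hFtop : (F : Filter ℕ) ≤ atTop := Nat.hyperfilter_le_atTop
  have hLF : Tendsto (fun s => Real.log (N s)) F atTop := hLtop.mono_left hFtop
  have hLpos : ∀ᶠ s in F, 1 ≤ Real.log (N s) := hLF.eventually_ge_atTop 1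
  have hinv : ∀ c : ℝ, Tendsto (fun s => c / Real.log (N s)) F (𝓝 0) := fun c =>
    tendsto_const_nhds.div_atTop hLF
  -- limits
  have hA : ∀ n : Fin k → ℤ, ∃ y, Tendsto (fun s =>
      -Real.log (chargeInf b (Ph i0 n) (x s)) / Real.log (N s)) F (𝓝 y) := by
    intro n
    obtain ⟨C, hC, h⟩ := apriori hb (sum_Ph i0 n)
    refine ult_lim F (l := 0) (u := 2 * C) (hLpos.mono fun s hs => ?_)
    obtain ⟨-, h2, h3⟩ := h (x s) (N s) (hN s) (hx s)
    refine ⟨div_nonneg h2 (hL0 s), ?_⟩
    rw [div_le_iff₀ (by linarith)]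
    nlinarith
  choose φ hφ using hA
  have hB : ∀ i j : Fin k, ∃ y, Tendsto (fun s => ll (x s i - x s j) / Real.log (N s)) F
      (𝓝 y) := by
    intro i j
    refine ult_lim F (l := 0) (u := 1) (hLpos.mono fun s hs => ?_)
    refine ⟨div_nonneg (hll s i j).1 (hL0 s), ?_⟩
    rw [div_le_one (by linarith)]
    exact (hll s i j).2
  choose L hL using hB
  have hs : ∀ i j, L i j = L j i := by
    intro i j
    refine tendsto_nhds_unique (hL i j) ?_
    refine (hL j i).congr fun s => ?_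
    rw [ll_comm]
  have hd : ∀ i, L i i = 0 := by
    intro i
    refine tendsto_nhds_unique (hL i i) ?_
    refine tendsto_const_nhds.congr fun s => ?_
    rw [sub_self, ll_zero, zero_div]
  -- the values on dipoles
  have hdip : ∀ (n : ℕ) (u : Fin k → ℤ) (i j : Fin k),
      Ph i0 u = Pi.single i 1 - Pi.single j 1 →
      φ (2 ^ n • u) = 4 ^ n * (κ * L i j) := by
    intro n u i j hu
    have e1 : Ph i0 (2 ^ n • u) = (2 ^ n : ℕ) • (Pi.single i 1 - Pi.single j 1) := by
      rw [Ph_nsmul, hu]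
    have h1 := hφ (2 ^ n • u)
    rw [e1] at h1
    have e4 : (((2 ^ n : ℕ) : ℝ)) ^ 2 = 4 ^ n := by
      push_cast
      rw [← pow_mul, mul_comm n 2, pow_mul]
      norm_num
    refine le_antisymm ?_ ?_
    · refine le_of_forall_pos_le_add fun ε' hε' => ?_
      obtain ⟨C, hC⟩ := dip_low hb hlow (2 ^ n) hε'
      have h2 : Tendsto (fun s => (4 ^ n * κ) * (ll (x s i - x s j) / Real.log (N s)) +
          ε' + C / Real.log (N s)) F (𝓝 ((4 ^ n * κ) * L i j + ε' + 0)) :=
        (((hL i j).const_mul _).add tendsto_const_nhds).add (hinv C)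
      have h3 := le_of_tendsto_of_tendsto h1 h2 (hLpos.mono fun s hs => by
        obtain ⟨-, h4⟩ := hC k i j (x s)
        rw [e4] at h4
        have h5 : 0 < Real.log (N s) := by linarith
        rw [div_le_iff₀ h5]
        have h6 : (4 ^ n * κ * (ll (x s i - x s j) / Real.log (N s)) + ε' +
            C / Real.log (N s)) * Real.log (N s) =
            4 ^ n * κ * ll (x s i - x s j) + ε' * Real.log (N s) + C := by
          field_simp
        rw [h6]
        have h7 := mul_le_mul_of_nonneg_left (hll s i j).2 hε'.le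
        linarith)
      linarith
    · refine le_of_forall_pos_le_add fun ε' hε' => ?_
      obtain ⟨C, hC⟩ := dip_up hb hup (2 ^ n) hε'
      obtain ⟨C', hC'⟩ := dip_low hb hlow (2 ^ n) hε'
      have h2 : Tendsto (fun s => (4 ^ n * κ) * (ll (x s i - x s j) / Real.log (N s)) -
          ε' - C / Real.log (N s)) F (𝓝 ((4 ^ n * κ) * L i j - ε' - 0)) :=
        (((hL i j).const_mul _).sub tendsto_const_nhds).sub (hinv C)
      have h3 := le_of_tendsto_of_tendsto h2 h1 (hLpos.mono fun s hs => by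
        have h4 := hC k i j (x s) (hC' k i j (x s)).1
        rw [e4] at h4
        have h5 : 0 < Real.log (N s) := by linarith
        rw [le_div_iff₀ h5]
        have h6 : (4 ^ n * κ * (ll (x s i - x s j) / Real.log (N s)) - ε' -
            C / Real.log (N s)) * Real.log (N s) =
            4 ^ n * κ * ll (x s i - x s j) - ε' * Real.log (N s) - C := by
          field_simp
        rw [h6]
        have h7 := mul_le_mul_of_nonneg_left (hll s i j).2 hε'.le
        linarith)
      linarith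
  -- the limit function is the quadratic form
  have hmain : ∀ u, φ u = Qf κ L (Ph i0 u) := by
    refine par_eq (q := fun u => Qf κ L (Ph i0 u)) ?_ ?_ ?_ ?_ ?_ ?_
    · intro u v
      refine le_of_tendsto_of_tendsto ((hφ (u + v)).add (hφ (u - v)))
        (((hφ u).const_mul 2).add ((hφ v).const_mul 2)) (hLpos.mono fun s hs => ?_)
      have h5 : 0 < Real.log (N s) := by linarith
      have p := fun n => (apriori hb (sum_Ph i0 n)).choose_spec.2 (x s) (N s) (hN s) (hx s)
      have h1 := chargeInf_par hb0.le (Ph i0 u) (Ph i0 v) (x s)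
      rw [← Ph_add, ← Ph_sub] at h1
      have h2 := Real.log_le_log (mul_pos (pow_pos (p u).1 2) (pow_pos (p v).1 2)) h1
      rw [Real.log_mul (pow_pos (p u).1 2).ne' (pow_pos (p v).1 2).ne',
        Real.log_mul (p _).1.ne' (p _).1.ne', Real.log_pow, Real.log_pow] at h2
      push_cast at h2
      show -Real.log (chargeInf b (Ph i0 (u + v)) (x s)) / Real.log (N s) +
        -Real.log (chargeInf b (Ph i0 (u - v)) (x s)) / Real.log (N s) ≤
        2 * (-Real.log (chargeInf b (Ph i0 u) (x s)) / Real.log (N s)) +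
        2 * (-Real.log (chargeInf b (Ph i0 v) (x s)) / Real.log (N s))
      rw [← add_div, ← mul_div_assoc, ← mul_div_assoc, ← add_div]
      refine div_le_div_of_nonneg_right ?_ h5.le
      linarith
    · refine tendsto_nhds_unique (hφ 0) ?_
      refine tendsto_const_nhds.congr fun s => ?_
      rw [Ph_zero, chargeInf_zero hb0.le, Real.log_one, neg_zero, zero_div]
    · intro u
      refine ge_of_tendsto (hφ u) (Eventually.of_forall fun s => ?_)
      have p := (apriori hb (sum_Ph i0 u)).choose_spec.2 (x s) (N s) (hN s) (hx s)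
      exact div_nonneg p.2.1 (hL0 s)
    · intro u v
      show Qf κ L (Ph i0 (u + v)) + Qf κ L (Ph i0 (u - v)) =
        2 * Qf κ L (Ph i0 u) + 2 * Qf κ L (Ph i0 v)
      rw [Ph_add, Ph_sub, Qf_par]
    · intro n i
      rw [hdip n _ i i0 (Ph_single i0 i), Ph_single, Qf_root κ hs hd]
    · intro n i j
      rw [hdip n _ i j (Ph_diff i0 i j), Ph_diff, Qf_root κ hs hd]
  -- contradiction
  have hm' := Ph_neutral i0 hm
  have h1 := hφ m
  rw [hmain m, hm'] at h1
  have h2 : Tendsto (fun s => Qf κ (fun i j => ll (x s i - x s j)) m / Real.log (N s)) F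
      (𝓝 (Qf κ L m)) := by
    unfold Qf
    have h3 : (fun s => -(κ / 2) * ∑ i, ∑ j, (m i : ℝ) * m j * ll (x s i - x s j) /
        Real.log (N s)) = fun s => -(κ / 2) * ∑ i, ∑ j, (m i : ℝ) * m j *
          (ll (x s i - x s j) / Real.log (N s)) := by
      funext s
      congr 1
      refine Finset.sum_congr rfl fun i _ => ?_
      refine Finset.sum_congr rfl fun j _ => ?_
      rw [mul_div_assoc]
    have h4 : (fun s => -(κ / 2) * (∑ i, ∑ j, (m i : ℝ) * m j * ll (x s i - x s j)) /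
        Real.log (N s)) = fun s => -(κ / 2) * ∑ i, ∑ j, (m i : ℝ) * m j *
          (ll (x s i - x s j) / Real.log (N s)) := by
      rw [← h3]
      funext s
      rw [mul_div_assoc, Finset.sum_div]
      congr 1
      refine Finset.sum_congr rfl fun i _ => ?_
      rw [Finset.sum_div]
    rw [h4]
    exact (tendsto_finsetSum _ fun i _ => tendsto_finsetSum _ fun j _ =>
      (hL i j).const_mul _).const_mul _
  have h3 := (h1.sub h2).abs
  rw [sub_self, abs_zero] at h3
  have h4 : ∀ᶠ s in F, |(-Real.log (chargeInf b m (x s)) / Real.log (N s) -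
      Qf κ (fun i j => ll (x s i - x s j)) m / Real.log (N s))| < ε := h3.eventually_lt_const hε
  obtain ⟨s, hs1, hs2⟩ := (h4.and hLpos).exists
  have h5 : 0 < Real.log (N s) := by linarith
  rw [← sub_div, abs_div, abs_of_pos h5, div_lt_iff₀ h5] at hs1
  have h6 := hbad s
  have h7 : (0 : ℝ) ≤ s := Nat.cast_nonneg s
  linarith

end Vale.Agent.P159.T1.H565
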