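import Vale.Agent.P159.T1.H565.Coul3

/-!
The Coulomb gas formula for all neutral correlations, product form.
-/

open Filter Topology

namespace Vale.Agent.P159.T1.H565

open Vale.Agent.P159 Vale.Agent.P159.H454 Vale.Agent.P159.H950

theorem sum_pairs {k : ℕ} {f : Fin k → Fin k → ℝ} (hs : ∀ i j, f i j = f j i)
    (hd : ∀ i, f i i = 0) : ∑ i, ∑ j, f i j = 2 * ∑ i, ∑ j ∈ Finset.Ioi i, f i j := by
  have h := Finset.sum_sum_Ioi_add_eq_sum_sum_off_diag f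
  have h1 : ∑ i, ∑ j ∈ Finset.Ioi i, (f j i + f i j) = 2 * ∑ i, ∑ j ∈ Finset.Ioi i, f i j := by
    rw [Finset.mul_sum]
    refine Finset.sum_congr rfl fun i _ => ?_
    rw [Finset.mul_sum]
    refine Finset.sum_congr rfl fun j _ => ?_
    rw [hs j i]
    ring
  rw [← h1, h]
  refine Finset.sum_congr rfl fun i _ => ?_
  rw [← Finset.sum_compl_add_sum {i}, Finset.sum_singleton, hd, add_zero]
  exact Finset.sum_congr rfl fun j _ => hs i j

/-- the Coulomb gas weight -/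
noncomputable def CG {k : ℕ} (κ : ℝ) (m : Fin k → ℤ) (x : Fin k → ℤ × ℤ) : ℝ :=
  ∏ i, ∏ j ∈ Finset.Ioi i, (max 1 ((max |(x i - x j).1| |(x i - x j).2| : ℤ) : ℝ)) ^
    (κ * m i * m j)

theorem CG_eq {k : ℕ} (κ : ℝ) (m : Fin k → ℤ) (x : Fin k → ℤ × ℤ) :
    CG κ m x = Real.exp (-Qf κ (fun i j => ll (x i - x j)) m) := by
  have h1 : ∀ i j : Fin k, (max 1 ((max |(x i - x j).1| |(x i - x j).2| : ℤ) : ℝ)) ^
      (κ * m i * m j) = Real.exp (κ * ((m i : ℝ) * m j * ll (x i - x j))) := by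
    intro i j
    rw [Real.rpow_def_of_pos (by positivity)]
    congr 1
    unfold ll ds
    ring
  unfold CG
  rw [Finset.prod_congr rfl fun i _ => Finset.prod_congr rfl fun j _ => h1 i j]
  rw [Finset.prod_congr rfl fun i _ => (Real.exp_sum _ _).symm, ← Real.exp_sum]
  congr 1
  unfold Qf
  rw [sum_pairs (f := fun i j => (m i : ℝ) * m j * ll (x i - x j))
    (fun i j => by rw [ll_comm]; ring)
    (fun i => by rw [sub_self, ll_zero, mul_zero])]
  have h2 : ∑ i, ∑ j ∈ Finset.Ioi i, κ * ((m i : ℝ) * m j * ll (x i - x j)) =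
      κ * ∑ i, ∑ j ∈ Finset.Ioi i, (m i : ℝ) * m j * ll (x i - x j) := by
    rw [Finset.mul_sum]
    exact Finset.sum_congr rfl fun i _ => (Finset.mul_sum _ _ _).symm
  rw [h2]
  ring

/-- **the Coulomb gas formula**: sharp two-point functions give the sharp form of all neutral
correlations -/
theorem coulomb {b : ℝ} (hb : bCrit ≤ b)
    (hlow : ∀ ε : ℝ, 0 < ε → ∃ c : ℝ, 0 < c ∧ ∀ y : ℤ × ℤ, y ≠ 0 →
      c * ((max |y.1| |y.2| : ℤ) : ℝ) ^ (-(1 / (2 * Real.pi * helicity b) + ε)) ≤ corrInf b y)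
    {k : ℕ} {m : Fin k → ℤ} (hm : ∑ j, m j = 0) {ε : ℝ} (hε : 0 < ε) :
    ∃ K : ℝ, 0 < K ∧ ∀ (x : Fin k → ℤ × ℤ) (N : ℕ), 1 ≤ N →
      (∀ i j, max |(x i - x j).1| |(x i - x j).2| ≤ (N : ℤ)) →
      K⁻¹ * (N : ℝ) ^ (-ε) * CG (1 / (2 * Real.pi * helicity b)) m x ≤ chargeInf b m x ∧
      chargeInf b m x ≤ K * (N : ℝ) ^ ε * CG (1 / (2 * Real.pi * helicity b)) m x := by
  obtain ⟨K, hK⟩ := coul_log hb hlow (fun q η hη => up_two hb q η hη) hm hε
  obtain ⟨C, -, hC⟩ := apriori hb hm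
  refine ⟨Real.exp K, Real.exp_pos _, fun x N hN hx => ?_⟩
  have hN' : (0 : ℝ) < N := by exact_mod_cast hN
  have h1 := abs_le.1 (hK x N hN hx)
  have hpos := (hC x N hN hx).1
  rw [CG_eq, Real.rpow_def_of_pos hN', Real.rpow_def_of_pos hN', ← Real.exp_neg,
    ← Real.exp_add, ← Real.exp_add, ← Real.exp_add, ← Real.exp_add]
  constructor
  · rw [← Real.le_log_iff_exp_le hpos]
    linarith [h1.2]
  · rw [← Real.log_le_iff_le_exp hpos]
    linarith [h1.1]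

end Vale.Agent.P159.T1.H565
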