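import Vale.Agent.P159.T1.D.Defs

/-!
Gradient bounds for discrete harmonic functions on `ℤ²` (reflection and an explicit barrier).
-/

namespace Vale.Agent.P159.T1.H565

open Vale.Agent.P159.T1.D

/-- the discrete Laplacian -/
def Lp (h : Z2 → ℝ) (P : Z2) : ℝ :=
  h (P.1 + 1, P.2) + h (P.1 - 1, P.2) + h (P.1, P.2 + 1) + h (P.1, P.2 - 1) - 4 * h P

/-- the barrier -/
noncomputable def Wb (m : ℕ) (k l : ℤ) : ℝ :=
  2 * ((k : ℝ) - 1 / 2) / m - ((k : ℝ) - 1 / 2) ^ 2 / (m : ℝ) ^ 2 + (l : ℝ) ^ 2 / (m : ℝ) ^ 2 +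
    1 / (4 * (m : ℝ) ^ 2)

theorem Wb_harm (m : ℕ) (k l : ℤ) :
    Wb m (k + 1) l + Wb m (k - 1) l + Wb m k (l + 1) + Wb m k (l - 1) = 4 * Wb m k l := by
  unfold Wb
  push_cast
  ring

theorem Wb_refl (m : ℕ) (l : ℤ) : 0 ≤ Wb m 1 l + Wb m 0 l := by
  unfold Wb
  have h : 2 * (((1 : ℤ) : ℝ) - 1 / 2) / (m : ℝ) - (((1 : ℤ) : ℝ) - 1 / 2) ^ 2 / (m : ℝ) ^ 2 +
      (l : ℝ) ^ 2 / (m : ℝ) ^ 2 + 1 / (4 * (m : ℝ) ^ 2) +
      (2 * (((0 : ℤ) : ℝ) - 1 / 2) / m - (((0 : ℤ) : ℝ) - 1 / 2) ^ 2 / (m : ℝ) ^ 2 +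
      (l : ℝ) ^ 2 / (m : ℝ) ^ 2 + 1 / (4 * (m : ℝ) ^ 2)) = 2 * ((l : ℝ) ^ 2 / (m : ℝ) ^ 2) := by
    push_cast
    have e : 1 / (4 * (m : ℝ) ^ 2) = (1 / 4) / (m : ℝ) ^ 2 := by rw [div_div]
    rw [e]
    ring
  rw [h]
  positivity

theorem Wb_right {m : ℕ} (hm : 1 ≤ m) (l : ℤ) : 1 ≤ Wb m (m + 1) l := by
  have hm' : (0 : ℝ) < m := by exact_mod_cast hm
  unfold Wb
  have h : 2 * ((((m : ℤ) + 1 : ℤ) : ℝ) - 1 / 2) / (m : ℝ) -
      ((((m : ℤ) + 1 : ℤ) : ℝ) - 1 / 2) ^ 2 / (m : ℝ) ^ 2 + 1 / (4 * (m : ℝ) ^ 2) = 1 := by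
    push_cast
    field_simp
    ring
  have h2 : 0 ≤ (l : ℝ) ^ 2 / (m : ℝ) ^ 2 := by positivity
  linarith

theorem Wb_top {m : ℕ} (hm : 1 ≤ m) {k l : ℤ} (hk : 1 ≤ k) (hk2 : k ≤ m) (hl : |l| = m) :
    1 ≤ Wb m k l := by
  have hm' : (0 : ℝ) < m := by exact_mod_cast hm
  have hl' : (l : ℝ) ^ 2 = (m : ℝ) ^ 2 := by
    rw [← sq_abs, ← Int.cast_abs, hl]
    simp
  unfold Wb
  rw [hl', div_self (by positivity)]
  have hk' : (1 : ℝ) ≤ k := by exact_mod_cast hk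
  have hk2' : (k : ℝ) ≤ m := by exact_mod_cast hk2
  have h1 : 0 ≤ 2 * ((k : ℝ) - 1 / 2) / m - ((k : ℝ) - 1 / 2) ^ 2 / (m : ℝ) ^ 2 := by
    rw [sub_nonneg, div_le_div_iff₀ (by positivity) hm']
    have h3 : ((k : ℝ) - 1 / 2) ≤ 2 * m := by linarith
    have h4 : 0 ≤ (k : ℝ) - 1 / 2 := by linarith
    have h5 : ((k : ℝ) - 1 / 2) * ((k : ℝ) - 1 / 2) ≤ ((k : ℝ) - 1 / 2) * (2 * m) :=
      mul_le_mul_of_nonneg_left h3 h4
    nlinarith [mul_le_mul_of_nonneg_right h5 hm'.le]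
  have h2 : 0 < 1 / (4 * (m : ℝ) ^ 2) := by positivity
  linarith

theorem Wb_centre {m : ℕ} (hm : 1 ≤ m) : Wb m 1 0 = 1 / m := by
  have hm' : (0 : ℝ) < m := by exact_mod_cast hm
  unfold Wb
  push_cast
  field_simp
  ring

/-- one sided gradient bound -/
theorem grad_one {h : Z2 → ℝ} {a b : ℤ} {m : ℕ} (hm : 1 ≤ m) {M : ℝ}
    (hL : ∀ P : Z2, |P.1 - a| ≤ m → |P.2 - b| ≤ m → Lp h P = 0)
    (hM : ∀ P : Z2, |P.1 - a| ≤ m + 1 → |P.2 - b| ≤ m + 1 → |h P| ≤ M) :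
    h (a + 1, b) - h (a, b) ≤ 2 * M / m := by
  have hM0 : 0 ≤ M := (abs_nonneg _).trans (hM (a, b) (by simp; omega) (by simp; omega))
  set g : ℤ → ℤ → ℝ := fun k l => h (a + k, b + l) - h (a + 1 - k, b + l) with hg
  set f : ℤ × ℤ → ℝ := fun p => g p.1 p.2 - 2 * M * Wb m p.1 p.2 with hf
  set D : Finset (ℤ × ℤ) := Finset.Icc 1 (m : ℤ) ×ˢ Finset.Icc (-(m : ℤ) + 1) (m - 1) with hD
  have hmem : ∀ k l : ℤ, (k, l) ∈ D ↔ (1 ≤ k ∧ k ≤ m) ∧ (-(m : ℤ) + 1 ≤ l ∧ l ≤ m - 1) := by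
    intro k l
    rw [hD, Finset.mem_product, Finset.mem_Icc, Finset.mem_Icc]
  have gbd : ∀ k l : ℤ, 1 ≤ k → k ≤ m + 1 → |l| ≤ m → g k l ≤ 2 * M := by
    intro k l h1 h2 h3
    have h4 := hM (a + k, b + l) (by simp only; rw [abs_le]; omega)
      (by simp only; rw [abs_le] at h3 ⊢; omega)
    have h5 := hM (a + 1 - k, b + l) (by simp only; rw [abs_le]; omega)
      (by simp only; rw [abs_le] at h3 ⊢; omega)
    rw [abs_le] at h4 h5
    simp only [hg]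
    linarith [h4.2, h5.1]
  -- boundary
  have fR : ∀ l : ℤ, |l| ≤ m → f (m + 1, l) ≤ 0 := by
    intro l hl
    have h1 := gbd (m + 1) l (by omega) (by omega) hl
    have h2 := Wb_right hm l
    simp only [hf]
    nlinarith
  have fT : ∀ k l : ℤ, 1 ≤ k → k ≤ m → |l| = m → f (k, l) ≤ 0 := by
    intro k l h1 h2 h3
    have h4 := gbd k l h1 (by omega) h3.le
    have h5 := Wb_top hm h1 h2 h3
    simp only [hf]
    nlinarith
  -- equations
  have gharm : ∀ k l : ℤ, 1 ≤ k → k ≤ m → |l| ≤ m - 1 →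
      g (k + 1) l + g (k - 1) l + g k (l + 1) + g k (l - 1) = 4 * g k l := by
    intro k l h1 h2 h3
    have h4 := hL (a + k, b + l) (by simp only; rw [abs_le]; omega)
      (by simp only; rw [abs_le] at h3 ⊢; omega)
    have h5 := hL (a + 1 - k, b + l) (by simp only; rw [abs_le]; omega)
      (by simp only; rw [abs_le] at h3 ⊢; omega)
    unfold Lp at h4 h5
    simp only [hg]
    simp only at h4 h5
    have e1 : a + (k + 1) = a + k + 1 := by ring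
    have e2 : a + 1 - (k + 1) = a + 1 - k - 1 := by ring
    have e3 : a + (k - 1) = a + k - 1 := by ring
    have e4 : a + 1 - (k - 1) = a + 1 - k + 1 := by ring
    have e5 : b + (l + 1) = b + l + 1 := by ring
    have e6 : b + (l - 1) = b + l - 1 := by ring
    rw [e1, e2, e3, e4, e5, e6]
    linarith
  have ganti : ∀ l : ℤ, g 0 l = -g 1 l := by
    intro l
    simp only [hg]
    have e1 : a + 1 - 0 = a + 1 := by ring
    have e2 : a + 1 - 1 = a + 0 := by ring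
    rw [e1, e2]
    ring
  by_contra hcon
  push Not at hcon
  have hD0 : D.Nonempty := ⟨(1, 0), (hmem 1 0).2 ⟨⟨le_rfl, by omega⟩, by omega, by omega⟩⟩
  obtain ⟨p, hpD, hp⟩ := Finset.exists_max_image D (fun p => toLex (f p, p.1)) hD0
  obtain ⟨k, l⟩ := p
  have hkl := (hmem k l).1 hpD
  have hle : ∀ q ∈ D, f q ≤ f (k, l) := by
    intro q hq
    have := hp q hq
    rw [Prod.Lex.toLex_le_toLex] at this
    rcases this with h1 | h1
    · exact h1.le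
    · exact h1.1.le
  have hlt : ∀ q ∈ D, k < q.1 → f q < f (k, l) := by
    intro q hq hk
    have := hp q hq
    rw [Prod.Lex.toLex_le_toLex] at this
    rcases this with h1 | h1
    · exact h1
    · exact absurd h1.2 (not_le.2 hk)
  have hpos : 0 < f (k, l) := by
    have h1 := hle (1, 0) ((hmem 1 0).2 ⟨⟨le_rfl, by omega⟩, by omega, by omega⟩)
    have h2 : f (1, 0) = h (a + 1, b) - h (a, b) - 2 * M / m := by
      simp only [hf, hg]
      rw [Wb_centre hm]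
      have e2 : a + 1 - 1 = a := by ring
      rw [e2, add_zero]
      ring
    linarith
  have fle : ∀ k' l' : ℤ, 1 ≤ k' → k' ≤ m → |l'| ≤ m → f (k', l') ≤ f (k, l) := by
    intro k' l' h1 h2 h3
    by_cases h4 : |l'| = m
    · exact (fT k' l' h1 h2 h4).trans hpos.le
    · refine hle _ ((hmem k' l').2 ⟨⟨h1, h2⟩, ?_⟩)
      rw [abs_le] at h3
      have h5 : l' ≠ m := fun h => h4 (by rw [h]; simp)
      have h6 : l' ≠ -(m : ℤ) := fun h => h4 (by rw [h]; simp)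
      omega
  have hR : f (k + 1, l) < f (k, l) := by
    by_cases h4 : k + 1 ≤ m
    · exact hlt _ ((hmem _ _).2 ⟨⟨by omega, h4⟩, hkl.2⟩) (by simp)
    · have h5 : k + 1 = m + 1 := by omega
      rw [h5]
      exact (fR l (by rw [abs_le]; omega)).trans_lt hpos
  have hU := fle k (l + 1) hkl.1.1 hkl.1.2 (by rw [abs_le]; omega)
  have hDn := fle k (l - 1) hkl.1.1 hkl.1.2 (by rw [abs_le]; omega)
  have hh := gharm k l hkl.1.1 hkl.1.2 (by rw [abs_le]; omega)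
  have hw := Wb_harm m k l
  have hsum : f (k + 1, l) + (g (k - 1) l - 2 * M * Wb m (k - 1) l) + f (k, l + 1) +
      f (k, l - 1) = 4 * f (k, l) := by
    simp only [hf]
    linear_combination hh - 2 * M * hw
  by_cases hk1 : k = 1
  · have h1 : g (k - 1) l - 2 * M * Wb m (k - 1) l ≤ -f (k, l) := by
      rw [hk1, sub_self, ganti]
      simp only [hf]
      have := Wb_refl m l
      nlinarith
    linarith
  · have h1 := fle (k - 1) l (by omega) (by omega) (by rw [abs_le]; omega)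
    have h2 : g (k - 1) l - 2 * M * Wb m (k - 1) l = f (k - 1, l) := rfl
    rw [h2] at hsum
    linarith

theorem Lp_neg (h : Z2 → ℝ) (P : Z2) : Lp (fun P => -h P) P = -Lp h P := by
  unfold Lp; ring

theorem Lp_swap (h : Z2 → ℝ) (P : Z2) : Lp (fun P => h (P.2, P.1)) P = Lp h (P.2, P.1) := by
  unfold Lp; ring

/-- horizontal gradient bound -/
theorem grad_x {h : Z2 → ℝ} {a b : ℤ} {m : ℕ} (hm : 1 ≤ m) {M : ℝ}
    (hL : ∀ P : Z2, |P.1 - a| ≤ m → |P.2 - b| ≤ m → Lp h P = 0)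
    (hM : ∀ P : Z2, |P.1 - a| ≤ m + 1 → |P.2 - b| ≤ m + 1 → |h P| ≤ M) :
    |h (a + 1, b) - h (a, b)| ≤ 2 * M / m := by
  rw [abs_le]
  constructor
  · have h1 := grad_one (h := fun P => -h P) hm (M := M) (a := a) (b := b)
      (fun P h1 h2 => by rw [Lp_neg, hL P h1 h2, neg_zero])
      (fun P h1 h2 => by rw [abs_neg]; exact hM P h1 h2)
    linarith
  · exact grad_one hm hL hM

/-- vertical gradient bound -/
theorem grad_y {h : Z2 → ℝ} {a b : ℤ} {m : ℕ} (hm : 1 ≤ m) {M : ℝ}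
    (hL : ∀ P : Z2, |P.1 - a| ≤ m → |P.2 - b| ≤ m → Lp h P = 0)
    (hM : ∀ P : Z2, |P.1 - a| ≤ m + 1 → |P.2 - b| ≤ m + 1 → |h P| ≤ M) :
    |h (a, b + 1) - h (a, b)| ≤ 2 * M / m :=
  grad_x (h := fun P => h (P.2, P.1)) (a := b) (b := a) hm
    (fun P h1 h2 => by rw [Lp_swap]; exact hL _ h2 h1) (fun P h1 h2 => hM _ h2 h1)

/-- the four gradient bounds -/
theorem grad_bd {h : Z2 → ℝ} {a b : ℤ} {m : ℕ} (hm : 1 ≤ m) {M : ℝ}
    (hL : ∀ P : Z2, |P.1 - a| ≤ m + 1 → |P.2 - b| ≤ m + 1 → Lp h P = 0)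
    (hM : ∀ P : Z2, |P.1 - a| ≤ m + 2 → |P.2 - b| ≤ m + 2 → |h P| ≤ M) :
    |h (a + 1, b) - h (a, b)| ≤ 2 * M / m ∧ |h (a - 1, b) - h (a, b)| ≤ 2 * M / m ∧
      |h (a, b + 1) - h (a, b)| ≤ 2 * M / m ∧ |h (a, b - 1) - h (a, b)| ≤ 2 * M / m := by
  refine ⟨grad_x hm (fun P h1 h2 => hL P (by omega) (by omega))
    (fun P h1 h2 => hM P (by omega) (by omega)), ?_,
    grad_y hm (fun P h1 h2 => hL P (by omega) (by omega))
    (fun P h1 h2 => hM P (by omega) (by omega)), ?_⟩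
  · have h1 := grad_x (h := h) (a := a - 1) (b := b) hm
      (fun P h1 h2 => hL P (by rw [abs_le] at h1 ⊢; omega) (by omega))
      (fun P h1 h2 => hM P (by rw [abs_le] at h1 ⊢; omega) (by omega))
    rw [sub_add_cancel, abs_sub_comm] at h1
    exact h1
  · have h1 := grad_y (h := h) (a := a) (b := b - 1) hm
      (fun P h1 h2 => hL P (by omega) (by rw [abs_le] at h2 ⊢; omega))
      (fun P h1 h2 => hM P (by omega) (by rw [abs_le] at h2 ⊢; omega))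
    rw [sub_add_cancel, abs_sub_comm] at h1
    exact h1

/-- the increment in the direction `u` -/
def Di (u : Z2) (h : Z2 → ℝ) (P : Z2) : ℝ := h (P.1 + u.1, P.2 + u.2) - h P

theorem Lp_Di (u : Z2) (h : Z2 → ℝ) (P : Z2) :
    Lp (Di u h) P = Lp h (P.1 + u.1, P.2 + u.2) - Lp h P := by
  unfold Lp Di
  simp only
  have e1 : P.1 + 1 + u.1 = P.1 + u.1 + 1 := by ring
  have e2 : P.1 - 1 + u.1 = P.1 + u.1 - 1 := by ring
  have e3 : P.2 + 1 + u.2 = P.2 + u.2 + 1 := by ring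
  have e4 : P.2 - 1 + u.2 = P.2 + u.2 - 1 := by ring
  rw [e1, e2, e3, e4]
  ring

/-- second differences -/
theorem hess_bd {h : Z2 → ℝ} {a b : ℤ} {m : ℕ} (hm : 1 ≤ m) {M : ℝ}
    (hL : ∀ P : Z2, |P.1 - a| ≤ 2 * m + 1 → |P.2 - b| ≤ 2 * m + 1 → Lp h P = 0)
    (hM : ∀ P : Z2, |P.1 - a| ≤ 2 * m + 2 → |P.2 - b| ≤ 2 * m + 2 → |h P| ≤ M) {u v : Z2}
    (hu : u = (1, 0) ∨ u = (0, 1)) (hv : v = (1, 0) ∨ v = (0, 1)) :
    |Di v (Di u h) (a, b)| ≤ 4 * M / (m : ℝ) ^ 2 := by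
  have hm' : (0 : ℝ) < m := by exact_mod_cast hm
  have h1 : ∀ P : Z2, |P.1 - a| ≤ m + 1 → |P.2 - b| ≤ m + 1 → |Di u h P| ≤ 2 * M / m := by
    rintro ⟨c, d⟩ h1 h2
    simp only at h1 h2
    rcases hu with rfl | rfl
    · have := grad_x (h := h) (a := c) (b := d) hm
        (fun P h3 h4 => hL P (by rw [abs_le] at *; omega) (by rw [abs_le] at *; omega))
        (fun P h3 h4 => hM P (by rw [abs_le] at *; omega) (by rw [abs_le] at *; omega))
      simpa [Di] using this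
    · have := grad_y (h := h) (a := c) (b := d) hm
        (fun P h3 h4 => hL P (by rw [abs_le] at *; omega) (by rw [abs_le] at *; omega))
        (fun P h3 h4 => hM P (by rw [abs_le] at *; omega) (by rw [abs_le] at *; omega))
      simpa [Di] using this
  have h2 : ∀ P : Z2, |P.1 - a| ≤ m → |P.2 - b| ≤ m → Lp (Di u h) P = 0 := by
    intro P h3 h4
    rw [Lp_Di, hL P (by rw [abs_le] at *; omega) (by rw [abs_le] at *; omega), hL, sub_zero]
    · rcases hu with rfl | rfl <;> (simp only; rw [abs_le] at *; omega)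
    · rcases hu with rfl | rfl <;> (simp only; rw [abs_le] at *; omega)
  have e : 4 * M / (m : ℝ) ^ 2 = 2 * (2 * M / m) / m := by
    field_simp
    ring
  rw [e]
  rcases hv with rfl | rfl
  · have := grad_x (h := Di u h) (a := a) (b := b) hm h2 h1
    have e2 : Di (1, 0) (Di u h) (a, b) = Di u h (a + 1, b) - Di u h (a, b) := by
      simp [Di]
    rw [e2]
    exact this
  · have := grad_y (h := Di u h) (a := a) (b := b) hm h2 h1
    have e2 : Di (0, 1) (Di u h) (a, b) = Di u h (a, b + 1) - Di u h (a, b) := by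
      simp [Di]
    rw [e2]
    exact this

end Vale.Agent.P159.T1.H565
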