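import Vale.Agent.P159.T1.H565.UpDefs

/-!
Row D.UP, first part: the pairing of a field with the gradient of the heights.
-/

namespace Vale.Agent.P159.T1.H565

open Vale.Agent.P159.T1.D

/-- the divergence of a field (with the sign of `IsDiv`) -/
def dv (B : Bnd → ℝ) (f : Z2) : ℝ :=
  B (f, false) - B ((f.1, f.2 + 1), false) + B ((f.1 + 1, f.2), true) - B (f, true)

theorem isDiv_iff (U : Finset Z2) (B : Bnd → ℝ) (ρ : Z2 → ℝ) :
    IsDiv U B ρ ↔ ∀ f ∈ U, dv B f = ρ f := Iff.rfl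

theorem mem_sides (f : Z2) (e : Bnd) : e ∈ sides f ↔ lf e = f ∨ rt e = f := by
  obtain ⟨⟨i, j⟩, c⟩ := e
  obtain ⟨a, b⟩ := f
  unfold sides lf rt
  cases c <;> simp only [Finset.mem_insert, Finset.mem_singleton, Prod.mk.injEq, if_true,
    Bool.false_eq_true, if_false, and_true, and_false, or_false, false_or, reduceCtorEq] <;>
    constructor <;> intro h <;> omega

theorem mem_bd (U : Finset Z2) (e : Bnd) : e ∈ bd U ↔ lf e ∈ U ∨ rt e ∈ U := by
  unfold bd
  rw [Finset.mem_biUnion]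
  constructor
  · rintro ⟨f, hf, he⟩
    rcases (mem_sides f e).1 he with h | h
    · rw [h]; exact Or.inl hf
    · rw [h]; exact Or.inr hf
  · rintro (h | h)
    · exact ⟨_, h, (mem_sides _ _).2 (Or.inl rfl)⟩
    · exact ⟨_, h, (mem_sides _ _).2 (Or.inr rfl)⟩

theorem lf_eq (e : Bnd) (f : Z2) : lf e = f ↔ e = (f, false) ∨ e = ((f.1 + 1, f.2), true) := by
  obtain ⟨⟨i, j⟩, c⟩ := e
  obtain ⟨a, b⟩ := f
  unfold lf
  cases c <;> simp only [Prod.mk.injEq, if_true, Bool.false_eq_true, if_false, and_true,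
    and_false, or_false, false_or, reduceCtorEq] <;> constructor <;> intro h <;> omega

theorem rt_eq (e : Bnd) (f : Z2) : rt e = f ↔ e = ((f.1, f.2 + 1), false) ∨ e = (f, true) := by
  obtain ⟨⟨i, j⟩, c⟩ := e
  obtain ⟨a, b⟩ := f
  unfold rt
  cases c <;> simp only [Prod.mk.injEq, if_true, Bool.false_eq_true, if_false, and_true,
    and_false, or_false, false_or, reduceCtorEq] <;> constructor <;> intro h <;> omega

theorem sum_lf (U : Finset Z2) (B : Bnd → ℝ) (h : Z2 → ℝ) (hh : ∀ f, f ∉ U → h f = 0) :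
    ∑ e ∈ bd U, B e * h (lf e) =
      ∑ f ∈ U, (B (f, false) + B ((f.1 + 1, f.2), true)) * h f := by
  have e1 : ∀ e ∈ bd U, B e * h (lf e) = ∑ f ∈ U, if lf e = f then B e * h f else 0 := by
    intro e _
    by_cases hf : lf e ∈ U
    · rw [Finset.sum_ite_eq, if_pos hf]
    · rw [Finset.sum_ite_eq, if_neg hf, hh _ hf, mul_zero]
  rw [Finset.sum_congr rfl e1, Finset.sum_comm]
  refine Finset.sum_congr rfl fun f hf => ?_
  have e2 : ∑ e ∈ bd U, (if lf e = f then B e * h f else 0) =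
      ∑ e ∈ ({(f, false), ((f.1 + 1, f.2), true)} : Finset Bnd), B e * h f := by
    rw [← Finset.sum_filter]
    refine Finset.sum_congr ?_ fun _ _ => rfl
    ext e
    rw [Finset.mem_filter, mem_bd, lf_eq, Finset.mem_insert, Finset.mem_singleton]
    constructor
    · exact fun a => a.2
    · intro a
      refine ⟨Or.inl ?_, a⟩
      rw [(lf_eq e f).2 a]
      exact hf
  rw [e2, Finset.sum_pair (by simp)]
  ring

theorem sum_rt (U : Finset Z2) (B : Bnd → ℝ) (h : Z2 → ℝ) (hh : ∀ f, f ∉ U → h f = 0) :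
    ∑ e ∈ bd U, B e * h (rt e) =
      ∑ f ∈ U, (B ((f.1, f.2 + 1), false) + B (f, true)) * h f := by
  have e1 : ∀ e ∈ bd U, B e * h (rt e) = ∑ f ∈ U, if rt e = f then B e * h f else 0 := by
    intro e _
    by_cases hf : rt e ∈ U
    · rw [Finset.sum_ite_eq, if_pos hf]
    · rw [Finset.sum_ite_eq, if_neg hf, hh _ hf, mul_zero]
  rw [Finset.sum_congr rfl e1, Finset.sum_comm]
  refine Finset.sum_congr rfl fun f hf => ?_
  have e2 : ∑ e ∈ bd U, (if rt e = f then B e * h f else 0) =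
      ∑ e ∈ ({((f.1, f.2 + 1), false), (f, true)} : Finset Bnd), B e * h f := by
    rw [← Finset.sum_filter]
    refine Finset.sum_congr ?_ fun _ _ => rfl
    ext e
    rw [Finset.mem_filter, mem_bd, rt_eq, Finset.mem_insert, Finset.mem_singleton]
    constructor
    · exact fun a => a.2
    · intro a
      refine ⟨Or.inr ?_, a⟩
      rw [(rt_eq e f).2 a]
      exact hf
  rw [e2, Finset.sum_pair (by simp)]
  ring

/-- the flux of the field through the shifted part of the boundary -/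
noncomputable def Fl (U : Finset Z2) (B : Bnd → ℝ) (m : Bnd → ℤ) : ℝ :=
  ∑ e ∈ bd U, B e * (m e : ℝ)

/-- Green's formula -/
theorem pr_eq {U : Finset Z2} {B : Bnd → ℝ} {ρ : Z2 → ℝ} (hB : IsDiv U B ρ) (m : Bnd → ℤ)
    {h : Z2 → ℤ} (hh : ∀ f, f ∉ U → h f = 0) : pr U B m h = ch U ρ h + Fl U B m := by
  unfold pr Fl
  have e1 : ∀ e, B e * ((dh h e + m e : ℤ) : ℝ) =
      (B e * (h (lf e) : ℝ) - B e * (h (rt e) : ℝ)) + B e * (m e : ℝ) := by
    intro e
    unfold dh
    push_cast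
    ring
  rw [Finset.sum_congr rfl fun e _ => e1 e, Finset.sum_add_distrib, Finset.sum_sub_distrib,
    sum_lf U B (fun f => (h f : ℝ)) (fun f hf => by rw [hh f hf]; simp),
    sum_rt U B (fun f => (h f : ℝ)) (fun f hf => by rw [hh f hf]; simp),
    ← Finset.sum_sub_distrib]
  congr 1
  unfold ch
  refine Finset.sum_congr rfl fun f hf => ?_
  have h1 := hB f hf
  rw [← h1]
  ring

/-- partition functions with charges and with a field -/
theorem Zs_eq {b : ℝ} {U : Finset Z2} {B : Bnd → ℝ} {ρ : Z2 → ℝ} (hB : IsDiv U B ρ) (k : ℤ) :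
    Zs b U k ρ = Real.exp (-Fl U B (sec U k)) * ZB b U (sec U k) B := by
  unfold Zs ZB
  rw [← tsum_mul_left]
  refine tsum_congr fun h => ?_
  rw [pr_eq hB (sec U k) h.2, Real.exp_add, Real.exp_neg]
  have h1 := (Real.exp_pos (Fl U B (sec U k))).ne'
  field_simp

end Vale.Agent.P159.T1.H565
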