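import Vale.Agent.P159.T1.H565.Harm
import Vale.Agent.P159.T1.H565.Up1

/-!
Discrete harmonic functions on finite sets of faces: maximum principle, existence, Green's
formula, Dirichlet principle.
-/

namespace Vale.Agent.P159.T1.H565

open Vale.Agent.P159.T1.D

/-- maximum principle for subharmonic functions -/
theorem max_pr {R : Finset Z2} {v : Z2 → ℝ} {M : ℝ} (hL : ∀ P ∈ R, 0 ≤ Lp v P)
    (ho : ∀ P, P ∉ R → v P ≤ M) (P : Z2) : v P ≤ M := by
  by_contra hcon
  push Not at hcon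
  have hPR : P ∈ R := by
    by_contra h
    exact absurd (ho P h) (not_le.2 hcon)
  obtain ⟨Q, hQR, hQ⟩ := Finset.exists_max_image R (fun p => toLex (v p, p.1)) ⟨P, hPR⟩
  have hle : ∀ q ∈ R, v q ≤ v Q := by
    intro q hq
    have := hQ q hq
    rw [Prod.Lex.toLex_le_toLex] at this
    rcases this with h1 | h1
    · exact h1.le
    · exact h1.1.le
  have hM : M < v Q := hcon.trans_le (hle P hPR)
  have hall : ∀ q, v q ≤ v Q := by
    intro q
    by_cases hq : q ∈ R
    · exact hle q hq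
    · exact (ho q hq).trans hM.le
  have hR : v (Q.1 + 1, Q.2) < v Q := by
    by_cases hq : (Q.1 + 1, Q.2) ∈ R
    · have := hQ _ hq
      rw [Prod.Lex.toLex_le_toLex] at this
      rcases this with h1 | h1
      · exact h1
      · exact absurd h1.2 (by simp)
    · exact (ho _ hq).trans_lt hM
  have h1 := hL Q hQR
  unfold Lp at h1
  linarith [hall (Q.1 - 1, Q.2), hall (Q.1, Q.2 + 1), hall (Q.1, Q.2 - 1)]

/-- minimum principle for superharmonic functions -/
theorem min_pr {R : Finset Z2} {v : Z2 → ℝ} {M : ℝ} (hL : ∀ P ∈ R, Lp v P ≤ 0)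
    (ho : ∀ P, P ∉ R → M ≤ v P) (P : Z2) : M ≤ v P := by
  have h := max_pr (R := R) (v := fun P => -v P) (M := -M)
    (fun P hP => by rw [Lp_neg]; linarith [hL P hP]) (fun P hP => by linarith [ho P hP]) P
  linarith

theorem Lp_add (v w : Z2 → ℝ) (P : Z2) : Lp (fun P => v P + w P) P = Lp v P + Lp w P := by
  unfold Lp; ring

theorem Lp_smul (c : ℝ) (v : Z2 → ℝ) (P : Z2) : Lp (fun P => c * v P) P = c * Lp v P := by
  unfold Lp; ring

/-- extension by zero -/
def ext0 (R : Finset Z2) (w : R → ℝ) (P : Z2) : ℝ := if h : P ∈ R then w ⟨P, h⟩ else 0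

/-- the Dirichlet Laplacian of `R` -/
def LR (R : Finset Z2) : (R → ℝ) →ₗ[ℝ] (R → ℝ) where
  toFun w P := Lp (ext0 R w) P.1
  map_add' w w' := by
    funext P
    have e : ext0 R (w + w') = fun P => ext0 R w P + ext0 R w' P := by
      funext Q
      unfold ext0
      split_ifs
      · rfl
      · ring
    rw [e, Lp_add]
    rfl
  map_smul' c w := by
    funext P
    have e : ext0 R (c • w) = fun P => c * ext0 R w P := by
      funext Q
      unfold ext0
      split_ifs
      · rfl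
      · ring
    rw [e, Lp_smul]
    rfl

theorem LR_inj (R : Finset Z2) : Function.Injective (LR R) := by
  rw [← LinearMap.ker_eq_bot, LinearMap.ker_eq_bot']
  intro w hw
  have h0 : ∀ P ∈ R, Lp (ext0 R w) P = 0 := fun P hP => congrFun hw ⟨P, hP⟩
  have hout : ∀ P, P ∉ R → ext0 R w P = 0 := fun P hP => dif_neg hP
  funext P
  have h1 := max_pr (R := R) (v := ext0 R w) (M := 0) (fun P hP => (h0 P hP).ge)
    (fun P hP => (hout P hP).le) P.1
  have h2 := min_pr (R := R) (v := ext0 R w) (M := 0) (fun P hP => (h0 P hP).le)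
    (fun P hP => (hout P hP).ge) P.1
  have h3 : ext0 R w P.1 = w P := dif_pos P.2
  rw [h3] at h1 h2
  exact le_antisymm h1 h2

/-- the Dirichlet problem -/
theorem exists_harm (R : Finset Z2) (t : Z2 → ℝ) (s : Z2 → ℝ) :
    ∃ v : Z2 → ℝ, (∀ P, P ∉ R → v P = t P) ∧ ∀ P ∈ R, Lp v P = s P := by
  classical
  have hsurj : Function.Surjective (LR R) := LinearMap.injective_iff_surjective.1 (LR_inj R)
  set t' : Z2 → ℝ := fun P => if P ∈ R then 0 else t P with ht'
  obtain ⟨w, hw⟩ := hsurj (fun P => s P.1 - Lp t' P.1)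
  refine ⟨fun P => ext0 R w P + t' P, fun P hP => ?_, fun P hP => ?_⟩
  · have h1 : ext0 R w P = 0 := dif_neg hP
    simp only [ht']
    rw [h1, if_neg hP, zero_add]
  · rw [Lp_add]
    have h1 : Lp (ext0 R w) P = s P - Lp t' P := congrFun hw ⟨P, hP⟩
    rw [h1]
    ring

/-- uniqueness -/
theorem harm_unique {R : Finset Z2} {v w : Z2 → ℝ} (ho : ∀ P, P ∉ R → v P = w P)
    (hL : ∀ P ∈ R, Lp v P = Lp w P) : v = w := by
  funext P
  have e : ∀ P, Lp (fun P => v P + -w P) P = Lp v P - Lp w P := by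
    intro P
    rw [Lp_add v (fun P => -w P), Lp_neg]
    ring
  have h1 := max_pr (R := R) (v := fun P => v P + -w P) (M := 0)
    (fun P hP => by rw [e, hL P hP, sub_self])
    (fun P hP => by rw [ho P hP]; simp) P
  have h2 := min_pr (R := R) (v := fun P => v P + -w P) (M := 0)
    (fun P hP => by rw [e, hL P hP, sub_self])
    (fun P hP => by rw [ho P hP]; simp) P
  linarith

/-- the divergence of a gradient -/
theorem dv_dr (φ : Z2 → ℝ) (f : Z2) : dv (dr φ) f = -Lp φ f := by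
  unfold dv dr Lp lf rt
  simp only [if_true, Bool.false_eq_true, if_false]
  have e1 : f.1 + 1 - 1 = f.1 := by ring
  have e2 : f.2 + 1 - 1 = f.2 := by ring
  rw [e1, e2]
  ring

/-- Green's formula -/
theorem green {R : Finset Z2} (B : Bnd → ℝ) {φ : Z2 → ℝ} (hφ : ∀ f, f ∉ R → φ f = 0) :
    ∑ e ∈ bd R, B e * dr φ e = ∑ f ∈ R, dv B f * φ f := by
  have e1 : ∀ e, B e * dr φ e = B e * φ (lf e) - B e * φ (rt e) := by
    intro e
    unfold dr
    ring
  rw [Finset.sum_congr rfl fun e _ => e1 e, Finset.sum_sub_distrib, sum_lf R B φ hφ,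
    sum_rt R B φ hφ, ← Finset.sum_sub_distrib]
  refine Finset.sum_congr rfl fun f _ => ?_
  unfold dv
  ring

/-- orthogonality of harmonic functions to functions supported in `R` -/
theorem harm_orth {R : Finset Z2} {v φ : Z2 → ℝ} (hv : ∀ f ∈ R, Lp v f = 0)
    (hφ : ∀ f, f ∉ R → φ f = 0) : ∑ e ∈ bd R, dr v e * dr φ e = 0 := by
  rw [green (dr v) hφ]
  refine Finset.sum_eq_zero fun f hf => ?_
  rw [dv_dr, hv f hf]
  ring

/-- Dirichlet principle -/
theorem dirichlet {R : Finset Z2} {v w : Z2 → ℝ} (hv : ∀ f ∈ R, Lp v f = 0)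
    (ho : ∀ f, f ∉ R → v f = w f) :
    ∑ e ∈ bd R, dr v e ^ 2 + ∑ e ∈ bd R, (dr w e - dr v e) ^ 2 = ∑ e ∈ bd R, dr w e ^ 2 := by
  have h := harm_orth (φ := fun f => w f - v f) hv (fun f hf => by rw [ho f hf, sub_self])
  have e1 : ∀ e, dr (fun f => w f - v f) e = dr w e - dr v e := by
    intro e
    unfold dr
    ring
  simp only [e1] at h
  rw [← Finset.sum_add_distrib]
  have e2 : ∑ e ∈ bd R, dr w e ^ 2 = ∑ e ∈ bd R, (dr v e ^ 2 + (dr w e - dr v e) ^ 2) +
      2 * ∑ e ∈ bd R, dr v e * (dr w e - dr v e) := by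
    rw [Finset.mul_sum, ← Finset.sum_add_distrib]
    exact Finset.sum_congr rfl fun e _ => by ring
  rw [e2, h]
  ring

end Vale.Agent.P159.T1.H565
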