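import Vale.Agent.P159.T1.H857.UW5
import Mathlib.Probability.Distributions.Poisson.PoissonLimitThm

/-!
The kernels `kerP (J / (2 m)) m` converge to `wI J` and are dominated by `exp J * wI J`.
-/

namespace Vale.Agent.P159.T1.H565

open Vale.Agent.P159.H353 Vale.Agent.P159.T1.H254

/-- the second difference operator plus four -/
def TT : Module.End ℝ (ℤ → ℝ) where
  toFun c := fun n => c (n - 1) + 2 * c n + c (n + 1)
  map_add' c d := by
    funext n
    simp only [Pi.add_apply]
    ring
  map_smul' r c := by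
    funext n
    simp only [Pi.smul_apply, smul_eq_mul, RingHom.id_apply]
    ring

theorem cb_succ (k : ℕ) (n : ℤ) : (cb (k + 1) n : ℝ) = cb k (n - 1) + 2 * cb k n + cb k (n + 1) := by
  have key : cb (k + 1) n = cb k (n - 1) + 2 * cb k n + cb k (n + 1) := by
    have main : ∀ a : ℕ, cb (k + 1) (a : ℤ) = cb k ((a : ℤ) - 1) + 2 * cb k a + cb k ((a : ℤ) + 1) := by
      intro a
      unfold cb
      rcases Nat.eq_zero_or_pos a with h | h
      · subst h
        have e1 : (((0 : ℕ) : ℤ) - 1).natAbs = 1 := by norm_num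
        have e2 : (((0 : ℕ) : ℤ) + 1).natAbs = 1 := by norm_num
        rw [e1, e2]
        simp only [Nat.cast_zero, Int.natAbs_zero, add_zero]
        rw [show 2 * (k + 1) = (2 * k + 1) + 1 by ring, Nat.choose_succ_succ']
        rw [show 2 * k + 1 = (2 * k) + 1 by ring]
        have e3 : (2 * k + 1).choose k = (2 * k + 1).choose (k + 1) := by
          rw [← Nat.choose_symm_half]
        rw [e3, Nat.choose_succ_succ']
        ring
      · obtain ⟨c, rfl⟩ : ∃ c, a = c + 1 := ⟨a - 1, by omega⟩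
        have e0 : (((c + 1 : ℕ) : ℤ)).natAbs = c + 1 := by omega
        have e1 : (((c + 1 : ℕ) : ℤ) - 1).natAbs = c := by omega
        have e2 : (((c + 1 : ℕ) : ℤ) + 1).natAbs = c + 2 := by omega
        rw [e0, e1, e2]
        rw [show 2 * (k + 1) = (2 * k + 1) + 1 by ring, show k + 1 + (c + 1) = (k + c + 1) + 1 by ring,
          Nat.choose_succ_succ', show 2 * k + 1 = (2 * k) + 1 by ring, Nat.choose_succ_succ',
          Nat.choose_succ_succ', show k + (c + 1) = k + c + 1 by ring,
          show k + (c + 2) = k + c + 1 + 1 by ring]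
        ring
    rcases Int.natAbs_eq n with h | h
    · rw [h]
      exact main _
    · rw [h, cb_neg, show -(n.natAbs : ℤ) - 1 = -((n.natAbs : ℤ) + 1) by ring,
        show -(n.natAbs : ℤ) + 1 = -((n.natAbs : ℤ) - 1) by ring, cb_neg, cb_neg, cb_neg, main]
      ring
  rw [key]
  push_cast
  ring

/-- the delta at `0` -/
def dl (n : ℤ) : ℝ := if n = 0 then 1 else 0

theorem TT_pow (k : ℕ) : (TT ^ k) dl = fun n => (cb k n : ℝ) := by
  induction k with
  | zero =>
      funext n
      simp only [pow_zero, Module.End.one_apply]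
      unfold dl cb
      by_cases h : n = 0
      · subst h; simp
      · rw [if_neg h, Nat.choose_eq_zero_of_lt (by omega)]
        simp
  | succ k ih =>
      rw [pow_succ', Module.End.mul_apply, ih]
      funext n
      rw [cb_succ]
      rfl

theorem kerP_pow (β : ℝ) (m : ℕ) :
    kerP β m = (((1 - 2 * β) • (1 : Module.End ℝ (ℤ → ℝ)) + β • TT) ^ m) dl := by
  induction m with
  | zero =>
      funext n
      simp only [pow_zero, Module.End.one_apply]
      rfl
  | succ m ih =>
      rw [pow_succ', Module.End.mul_apply, ← ih]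
      funext n
      have e1 : kerP β (m + 1) n = kerP β m n + β * (kerP β m (n - 1) + kerP β m (n + 1)) := rfl
      rw [e1]
      simp only [LinearMap.add_apply, LinearMap.smul_apply, Module.End.one_apply, Pi.add_apply,
        Pi.smul_apply, smul_eq_mul]
      have e2 : TT (kerP β m) n = kerP β m (n - 1) + 2 * kerP β m n + kerP β m (n + 1) := rfl
      rw [e2]
      ring

/-- binomial formula for `kerP` -/
theorem kerP_binom (β : ℝ) (m : ℕ) (n : ℤ) : kerP β m n =
    ∑ k ∈ Finset.range (m + 1), (m.choose k : ℝ) * (1 - 2 * β) ^ (m - k) * β ^ k * cb k n := by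
  rw [kerP_pow]
  have hc : Commute (β • TT) ((1 - 2 * β) • (1 : Module.End ℝ (ℤ → ℝ))) :=
    ((Commute.one_right (β • TT)).smul_right (1 - 2 * β))
  rw [add_comm, hc.add_pow, LinearMap.sum_apply, Finset.sum_apply]
  refine Finset.sum_congr rfl fun k _ => ?_
  have e1 : ((β • TT) ^ k * ((1 - 2 * β) • (1 : Module.End ℝ (ℤ → ℝ))) ^ (m - k) *
      ((m.choose k : ℕ) : Module.End ℝ (ℤ → ℝ))) dl =
      ((m.choose k : ℝ) * (1 - 2 * β) ^ (m - k) * β ^ k) • ((TT ^ k) dl) := by
    rw [smul_pow, smul_pow, one_pow]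
    have e2 : (((m.choose k : ℕ) : Module.End ℝ (ℤ → ℝ))) dl = (m.choose k : ℝ) • dl := by
      rw [Module.End.natCast_apply, Nat.cast_smul_eq_nsmul]
    rw [Module.End.mul_apply, Module.End.mul_apply, e2, map_smul, LinearMap.smul_apply,
      LinearMap.smul_apply, Module.End.one_apply, map_smul, map_smul, smul_smul, smul_smul]
    congr 1
    ring
  rw [e1, TT_pow]
  simp only [Pi.smul_apply, smul_eq_mul]

/-- the terms of the binomial formula for `β = J / (2 m)` -/
noncomputable def ft (J : ℝ) (n : ℤ) (m k : ℕ) : ℝ :=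
  (m.choose k : ℝ) * (J / m) ^ k * (1 - J / m) ^ (m - k) * ((1 / 2) ^ k * cb k n)

theorem kerP_ft {J : ℝ} {m : ℕ} (n : ℤ) : kerP (J / (2 * m)) m n = ∑' k, ft J n m k := by
  rw [kerP_binom]
  have h1 : ∀ k, k ∉ Finset.range (m + 1) → ft J n m k = 0 := by
    intro k hk
    rw [Finset.mem_range, not_lt] at hk
    unfold ft
    rw [Nat.choose_eq_zero_of_lt (by omega)]
    simp
  rw [tsum_eq_sum (s := Finset.range (m + 1)) h1]
  refine Finset.sum_congr rfl fun k _ => ?_
  unfold ft
  have e1 : 2 * (J / (2 * (m : ℝ))) = J / m := by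
    rw [mul_div_assoc', mul_div_mul_left _ _ two_ne_zero]
  have e2 : J / (2 * (m : ℝ)) = (1 / 2) * (J / m) := by
    rw [← e1]; ring
  rw [e1, e2, mul_pow]
  ring

theorem ft_le {J : ℝ} (hJ : 0 ≤ J) {m : ℕ} (hm : 0 < m) (hJm : J ≤ m) (n : ℤ) (k : ℕ) :
    0 ≤ ft J n m k ∧ ft J n m k ≤ aw J k n := by
  have hm' : (0 : ℝ) < m := by exact_mod_cast hm
  have h0 : 0 ≤ 1 - J / m := by
    rw [sub_nonneg, div_le_one hm']
    exact hJm
  have h1 : 1 - J / m ≤ 1 := by
    have : 0 ≤ J / m := by positivity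
    linarith
  have h2 : (0 : ℝ) ≤ (1 - J / m) ^ (m - k) := pow_nonneg h0 _
  have h3 : (1 - J / m) ^ (m - k) ≤ 1 := pow_le_one₀ h0 h1
  have hA : 0 ≤ (m.choose k : ℝ) * (J / m) ^ k := by positivity
  have hB : (0 : ℝ) ≤ (1 / 2) ^ k * cb k n := by positivity
  refine ⟨?_, ?_⟩
  · unfold ft
    exact mul_nonneg (mul_nonneg hA h2) hB
  · unfold ft aw
    have h4 : (m.choose k : ℝ) * (J / m) ^ k ≤ J ^ k / (k.factorial : ℝ) := by
      have h5 := Nat.choose_le_pow_div (α := ℝ) k m
      calc (m.choose k : ℝ) * (J / m) ^ k ≤ (m : ℝ) ^ k / (k.factorial : ℝ) * (J / m) ^ k :=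
            mul_le_mul_of_nonneg_right h5 (by positivity)
        _ = J ^ k / (k.factorial : ℝ) := by
            rw [div_pow]
            have : (m : ℝ) ^ k ≠ 0 := (pow_pos hm' k).ne'
            field_simp
    calc (m.choose k : ℝ) * (J / m) ^ k * (1 - J / m) ^ (m - k) * ((1 / 2) ^ k * cb k n)
        ≤ (J ^ k / (k.factorial : ℝ)) * 1 * ((1 / 2) ^ k * cb k n) :=
          mul_le_mul_of_nonneg_right (mul_le_mul h4 h3 h2 (by positivity)) hB
      _ = (J / 2) ^ k / (k.factorial : ℝ) * (cb k n : ℝ) := by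
          rw [div_pow, div_pow, one_pow]
          ring

/-- domination -/
theorem kerP_dom {J : ℝ} (hJ : 0 ≤ J) {m : ℕ} (hm : 0 < m) (hJm : J ≤ m) (n : ℤ) :
    kerP (J / (2 * m)) m n ≤ Real.exp J * wI J n := by
  have hs := summable_aw_col hJ n
  rw [kerP_ft, wI_eq, ← mul_assoc, ← Real.exp_add, add_neg_cancel, Real.exp_zero, one_mul]
  exact Summable.tsum_le_tsum (fun k => (ft_le hJ hm hJm n k).2)
    (Summable.of_nonneg_of_le (fun k => (ft_le hJ hm hJm n k).1)
      (fun k => (ft_le hJ hm hJm n k).2) hs) hs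

open Filter Topology in
/-- convergence -/
theorem kerP_lim {J : ℝ} (hJ : 0 ≤ J) (n : ℤ) :
    Tendsto (fun m : ℕ => kerP (J / (2 * m)) m n) atTop (𝓝 (wI J n)) := by
  have hs := summable_aw_col hJ n
  have e1 : (fun m : ℕ => kerP (J / (2 * m)) m n) = fun m : ℕ => ∑' k, ft J n m k :=
    funext fun m => kerP_ft n
  rw [e1, wI_eq, ← tsum_mul_left]
  refine tendsto_tsum_of_dominated_convergence hs (fun k => ?_) ?_
  · have h1 : Tendsto (fun m : ℕ => (m : ℝ) * (J / m)) atTop (𝓝 J) := by
      refine (tendsto_const_nhds (x := J)).congr' ?_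
      filter_upwards [eventually_gt_atTop 0] with m hm
      have : (m : ℝ) ≠ 0 := by exact_mod_cast hm.ne'
      field_simp
    have h2 := (ProbabilityTheory.tendsto_choose_mul_pow_of_tendsto_mul_atTop k h1).mul_const
      ((1 / 2) ^ k * (cb k n : ℝ))
    have e2 : Real.exp (-J) * J ^ k / (k.factorial : ℝ) * ((1 / 2) ^ k * (cb k n : ℝ)) =
        Real.exp (-J) * aw J k n := by
      unfold aw
      rw [div_pow, div_pow, one_pow]
      ring
    rw [e2] at h2
    exact h2
  · obtain ⟨N, hN⟩ := exists_nat_ge J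
    filter_upwards [eventually_ge_atTop (max N 1)] with m hm k
    have h1 : 0 < m := lt_of_lt_of_le Nat.one_pos ((le_max_right N 1).trans hm)
    have h2 : J ≤ m := hN.trans (by exact_mod_cast (le_max_left N 1).trans hm)
    rw [Real.norm_of_nonneg (ft_le hJ h1 h2 n k).1]
    exact (ft_le hJ h1 h2 n k).2

end Vale.Agent.P159.T1.H565
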