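import Vale.Agent.P159.T1.H910.PinSeq
import Vale.Agent.P159.T1.H565.UW2i

/-!
Spread of a linear functional of the heights (row SPREAD of plan 109 of helper568): the
probability that `h(g) ≥ T` is at least `(1 - e^{1/2} E^X exp (- h(g)^2 / (2 T^2))) / 2`, where
`E^X` is the expectation of the system in which more vertices are pinned.
-/

open Filter Topology
open MeasureTheory (Integrable charFun_apply_real)

namespace Vale.Agent.P159.T1.H565

open Vale.Agent.P159.H353 Vale.Agent.P159.T1.H254 Vale.Agent.P159.T1.H910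
open Vale.Agent.P159.T1.H934 (W W_nonneg grd Conn)

section

variable {V E : Type} [Fintype V] [DecidableEq V] [Fintype E] [DecidableEq E] {s t : E → V}

omit [DecidableEq V] [DecidableEq E] in
open Classical in
/-- sums over the heights pinned on a set, with an indicator -/
theorem ZW_ZZ (s t : E → V) (J : E → ℝ) (X : Set V) (Q : (V → ℤ) → Prop) :
    ZW s t (fun e => wI (J e)) (fun h => (∀ v ∈ X, h v = 0) ∧ Q h) =
      H910.ZZ s t J X (fun h => if Q h then 1 else 0) := by
  unfold ZW H910.ZZ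
  have e1 : ∑' h : {h : V → ℤ // (∀ v ∈ X, h v = 0) ∧ Q h},
      ∏ e, wI (J e) (h.1 (t e) - h.1 (s e)) =
      ∑' h : V → ℤ, ({h : V → ℤ | (∀ v ∈ X, h v = 0) ∧ Q h}).indicator
        (fun h => ∏ e, wI (J e) (h (t e) - h (s e))) h :=
    tsum_subtype {h : V → ℤ | (∀ v ∈ X, h v = 0) ∧ Q h}
      (fun h => ∏ e, wI (J e) (h (t e) - h (s e)))
  rw [e1]
  refine tsum_congr fun h => ?_
  by_cases h1 : ∀ v ∈ X, h v = 0
  · rw [if_pos h1]
    beta_reduce
    by_cases h2 : Q h
    · rw [if_pos h2, mul_one, Set.indicator_of_mem]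
      · rfl
      · exact ⟨h1, h2⟩
    · rw [if_neg h2, mul_zero, Set.indicator_of_notMem]
      exact fun h3 => h2 h3.2
  · rw [if_neg h1, Set.indicator_of_notMem]
    exact fun h3 => h1 h3.1

theorem pair_iff {om op : V} (h : V → ℤ) :
    (∀ v ∈ ({om, op} : Set V), h v = 0) ↔ h om = 0 ∧ h op = 0 := by
  simp

/-- the Gaussian as an average of cosines -/
theorem gauss_cos (x : ℝ) : ∫ u, Real.cos (u * x) ∂(ProbabilityTheory.gaussianReal 0 1) =
    Real.exp (-x ^ 2 / 2) := by
  have h1 := ProbabilityTheory.charFun_gaussianReal (μ := 0) (v := 1) x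
  rw [charFun_apply_real] at h1
  have h2 : Integrable (fun u : ℝ => Complex.exp (x * u * Complex.I))
      (ProbabilityTheory.gaussianReal 0 1) := by
    refine Integrable.of_bound (by fun_prop) 1 (Eventually.of_forall fun u => ?_)
    rw [show (x : ℂ) * u * Complex.I = ((x * u : ℝ) : ℂ) * Complex.I by push_cast; ring,
      Complex.norm_exp_ofReal_mul_I]
  have h3 := congrArg Complex.re h1
  have h4 : (∫ u : ℝ, Complex.exp (x * u * Complex.I) ∂(ProbabilityTheory.gaussianReal 0 1)).re =
      ∫ u : ℝ, (Complex.exp (x * u * Complex.I)).re ∂(ProbabilityTheory.gaussianReal 0 1) :=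
    (integral_re h2).symm
  rw [h4] at h3
  have h5 : ∀ u : ℝ, (Complex.exp (x * u * Complex.I)).re = Real.cos (u * x) := by
    intro u
    rw [show (x : ℂ) * u * Complex.I = ((u * x : ℝ) : ℂ) * Complex.I by push_cast; ring,
      Complex.exp_ofReal_mul_I_re]
  simp only [h5] at h3
  rw [h3]
  have h6 : (x : ℂ) * ((0 : ℝ) : ℂ) * Complex.I - ((1 : NNReal) : ℝ) * (x : ℂ) ^ 2 / 2 =
      ((-x ^ 2 / 2 : ℝ) : ℂ) := by
    push_cast
    ring
  rw [h6, Complex.exp_ofReal_re]

/-- abbreviation for the standard Gaussian -/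
noncomputable abbrev gam : MeasureTheory.Measure ℝ := ProbabilityTheory.gaussianReal 0 1

omit [DecidableEq V] [DecidableEq E] in
open Classical in
/-- the terms of the sum with a cosine -/
theorem ZZ_gauss (hc : Conn s t) {J : E → ℝ} (hJ : ∀ e, 0 ≤ J e) {X : Set V} (hX : X.Nonempty)
    (g : V → ℝ) :
    Integrable (fun u : ℝ => H910.ZZ s t J X (fun h => Real.cos (u * li g h))) gam ∧
    ∫ u, (H910.ZZ s t J X (fun h => Real.cos (u * li g h))) ∂gam =
      H910.ZZ s t J X (fun h => Real.exp (-(li g h) ^ 2 / 2)) := by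
  set F : (V → ℤ) → ℝ → ℝ := fun h u =>
    if ∀ v ∈ X, h v = 0 then W (grd s t) J h * Real.cos (u * li g h) else 0 with hF
  have hs : Summable fun h : V → ℤ => |if ∀ v ∈ X, h v = 0 then W (grd s t) J h * 1 else 0| :=
    summable_ZZ hc hJ hX 0 (f := fun _ => 1) (C := 1) (one_le' 0)
  have hFb : ∀ h u, ‖F h u‖ ≤ |if ∀ v ∈ X, h v = 0 then W (grd s t) J h * 1 else 0| := by
    intro h u
    simp only [hF]
    split_ifs
    · rw [Real.norm_eq_abs, abs_mul, abs_mul, abs_one]
      exact mul_le_mul_of_nonneg_left (Real.abs_cos_le_one _) (abs_nonneg _)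
    · simp
  have hFc : ∀ h, Continuous (F h) := by
    intro h
    simp only [hF]
    split_ifs
    · fun_prop
    · fun_prop
  have hFi : ∀ h, Integrable (F h) gam := fun h =>
    Integrable.of_bound (hFc h).aestronglyMeasurable _ (Eventually.of_forall (hFb h))
  have hcont : Continuous fun u => ∑' h, F h u :=
    continuous_tsum hFc hs (fun h u => hFb h u)
  have hbd : ∀ u, ‖∑' h, F h u‖ ≤ ∑' h : V → ℤ,
      |if ∀ v ∈ X, h v = 0 then W (grd s t) J h * 1 else 0| := by
    intro u
    exact tsum_of_norm_bounded hs.hasSum (fun h => hFb h u)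
  refine ⟨Integrable.of_bound hcont.aestronglyMeasurable _ (Eventually.of_forall hbd), ?_⟩
  have h1 := MeasureTheory.integral_tsum_of_summable_integral_norm (μ := gam) hFi (by
    refine Summable.of_nonneg_of_le (fun h => MeasureTheory.integral_nonneg fun _ =>
      norm_nonneg _) (fun h => ?_) hs
    calc ∫ u, ‖F h u‖ ∂gam ≤ ∫ _u, |if ∀ v ∈ X, h v = 0 then W (grd s t) J h * 1 else 0| ∂gam :=
          MeasureTheory.integral_mono (hFi h).norm (MeasureTheory.integrable_const _) (hFb h)
      _ = _ := by simp)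
  have h2 : ∫ u, (H910.ZZ s t J X (fun h => Real.cos (u * li g h))) ∂gam = ∫ u, ∑' h, F h u ∂gam :=
    rfl
  rw [h2, ← h1]
  unfold H910.ZZ
  refine tsum_congr fun h => ?_
  simp only [hF]
  split_ifs
  · rw [MeasureTheory.integral_const_mul, gauss_cos]
  · simp

omit [Fintype V] [DecidableEq V] [Fintype E] [DecidableEq E] in
theorem li_mul [Fintype V] (c : ℝ) (g : V → ℝ) (h : V → ℤ) :
    li (fun v => c * g v) h = c * li g h := by
  unfold li
  rw [Finset.mul_sum]
  exact Finset.sum_congr rfl fun v _ => by ring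

omit [DecidableEq V] [DecidableEq E] in
/-- Gaussian averages increase if more vertices are pinned -/
theorem pin_mono_gauss (hc : Conn s t) {J : E → ℝ} (hJ : ∀ e, 0 ≤ J e) {X X' : Set V}
    (hX : X.Nonempty) (hXX : X ⊆ X') (g : V → ℝ) :
    H910.ZZ s t J X (fun h => Real.exp (-(li g h) ^ 2 / 2)) * H910.ZZ s t J X' (fun _ => 1) ≤
      H910.ZZ s t J X' (fun h => Real.exp (-(li g h) ^ 2 / 2)) * H910.ZZ s t J X (fun _ => 1) := by
  obtain ⟨i1, e1⟩ := ZZ_gauss hc hJ hX g
  obtain ⟨i2, e2⟩ := ZZ_gauss hc hJ (hX.mono hXX) g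
  rw [← e1, ← e2, ← MeasureTheory.integral_mul_const, ← MeasureTheory.integral_mul_const]
  refine MeasureTheory.integral_mono (i1.mul_const _) (i2.mul_const _) fun u => ?_
  have h := pin_mono_cos hc hJ hX hXX (fun v => u * g v)
  simp only [li_mul] at h
  exact h

omit [DecidableEq V] [DecidableEq E] in
open Classical in
theorem ZZ_pos (hc : Conn s t) {J : E → ℝ} (hJ : ∀ e, 0 ≤ J e) {X : Set V} (hX : X.Nonempty) :
    0 < H910.ZZ s t J X (fun _ => 1) := by
  have hs := (summable_ZZ hc hJ hX 0 (f := fun _ => 1) (C := 1) (one_le' 0)).of_abs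
  unfold H910.ZZ
  refine hs.tsum_pos (fun h => ?_) 0 ?_
  · split_ifs
    · rw [mul_one]; exact W_nonneg hJ h
    · exact le_rfl
  · rw [if_pos (show ∀ v ∈ X, (0 : V → ℤ) v = 0 from fun v _ => rfl), mul_one]
    unfold W
    refine Finset.prod_pos fun e _ => ?_
    rw [map_zero]
    exact wI_zero_pos (hJ e)

omit [DecidableEq V] [DecidableEq E] in
open Classical in
/-- the symmetry `h → -h` -/
theorem ZZ_symm {J : E → ℝ} (X : Set V) (f : (V → ℤ) → ℝ) :
    H910.ZZ s t J X (fun h => f (-h)) = H910.ZZ s t J X f := by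
  unfold H910.ZZ
  rw [← (Equiv.neg (V → ℤ)).tsum_eq]
  refine tsum_congr fun h => ?_
  simp only [Equiv.neg_apply, neg_neg, Pi.neg_apply, neg_eq_zero]
  have hW : W (grd s t) J (-h) = W (grd s t) J h := by
    unfold W
    refine Finset.prod_congr rfl fun e _ => ?_
    rw [map_neg, Pi.neg_apply, wI_neg]
  rw [hW]

omit [DecidableEq V] [DecidableEq E] in
open Classical in
theorem ZZ_bdd (hc : Conn s t) {J : E → ℝ} (hJ : ∀ e, 0 ≤ J e) {X : Set V} (hX : X.Nonempty)
    {f : (V → ℤ) → ℝ} {C : ℝ} (hf : ∀ h, |f h| ≤ C) :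
    Summable fun h : V → ℤ => if ∀ v ∈ X, h v = 0 then W (grd s t) J h * f h else 0 :=
  (summable_ZZ hc hJ hX 0 (f := f) (C := C) (fun h => (hf h).trans (by
    have h0 : 0 ≤ C := (abs_nonneg _).trans (hf h)
    have h1 : (1 : ℝ) ≤ Real.exp |li 0 h| := Real.one_le_exp (abs_nonneg _)
    nlinarith))).of_abs

/-- **Spread.** The probability that `h(g) ≥ T` from the Gaussian average of a system with more
pinned vertices. -/
theorem spread (hc : Conn s t) {J : E → ℝ} (hJ : ∀ e, 0 ≤ J e) {om op : V} {X : Set V}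
    (ho : om ∈ X) (hp : op ∈ X) (g : V → ℝ) {T : ℝ} (hT : 0 < T) :
    (1 - Real.exp (1 / 2) * (H910.ZZ s t J X (fun h => Real.exp (-(li g h / T) ^ 2 / 2)) /
      H910.ZZ s t J X (fun _ => 1))) / 2 ≤
    ZW s t (fun e => wI (J e)) (QT om op g T) / ZS s t (fun e => wI (J e)) om op ∅ 0 := by
  classical
  set P : Set V := {om, op} with hP
  have hPn : P.Nonempty := ⟨om, by simp [hP]⟩
  have hPX : P ⊆ X := by
    intro v hv
    rcases hv with rfl | hv
    · exact ho
    · rw [Set.mem_singleton_iff.1 hv]; exact hp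
  have hZP := ZZ_pos hc hJ hPn
  have hZX := ZZ_pos hc hJ (hPn.mono hPX)
  -- bridges
  have b1 : ZS s t (fun e => wI (J e)) om op ∅ 0 = H910.ZZ s t J P (fun _ => 1) := by
    rw [ZS_ZW]
    have e' : (fun h : V → ℤ => h om = 0 ∧ h op = 0) =
        fun h : V → ℤ => (∀ v ∈ P, h v = 0) ∧ (fun _ : V → ℤ => True) h := by
      funext h
      rw [and_true]
      exact (propext (pair_iff h)).symm
    rw [e', ZW_ZZ s t J P]
    congr 1
    funext h
    rw [if_pos trivial]
  have b2 : ZW s t (fun e => wI (J e)) (QT om op g T) =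
      H910.ZZ s t J P (fun h => if T ≤ li g h then 1 else 0) := by
    have e : ZW s t (fun e => wI (J e)) (fun h => (∀ v ∈ P, h v = 0) ∧ T ≤ li g h) =
      H910.ZZ s t J P (fun h => if T ≤ li g h then 1 else 0) :=
      ZW_ZZ s t J P (fun h => T ≤ li g h)
    have e' : (fun h : V → ℤ => (∀ v ∈ P, h v = 0) ∧ T ≤ li g h) = QT om op g T := by
      funext h
      unfold QT li
      exact propext ⟨fun a => ⟨((pair_iff h).1 a.1).1, ((pair_iff h).1 a.1).2, a.2⟩,
        fun a => ⟨(pair_iff h).2 ⟨a.1, a.2.1⟩, a.2.2⟩⟩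
    rw [e'] at e
    exact e
  -- symmetry
  have b3 : H910.ZZ s t J P (fun h => if T ≤ li g h then 1 else 0) =
      H910.ZZ s t J P (fun h => if li g h ≤ -T then 1 else 0) := by
    rw [← ZZ_symm P (fun h => if T ≤ li g h then (1 : ℝ) else 0)]
    congr 1
    funext h
    rw [li_neg]
    by_cases h1 : li g h ≤ -T
    · rw [if_pos h1, if_pos (by linarith)]
    · rw [if_neg h1, if_neg (by intro h2; exact h1 (by linarith))]
  have hmono := pin_mono_gauss hc hJ hPn hPX (fun v => T⁻¹ * g v)
  simp only [li_mul] at hmono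
  have hdiv : ∀ h : V → ℤ, T⁻¹ * li g h = li g h / T := fun h => by
    rw [div_eq_mul_inv, mul_comm]
  simp only [hdiv] at hmono
  -- the main inequality
  have s1 := ZZ_bdd hc hJ hPn (f := fun h => if T ≤ li g h then (1 : ℝ) else 0) (C := 1)
    (fun h => by split_ifs <;> simp)
  have s2 := ZZ_bdd hc hJ hPn (f := fun h => if li g h ≤ -T then (1 : ℝ) else 0) (C := 1)
    (fun h => by split_ifs <;> simp)
  have s3 := ZZ_bdd hc hJ hPn (f := fun _ => (1 : ℝ)) (C := 1) (fun h => by simp)
  have s4 := ZZ_bdd hc hJ hPn (f := fun h => Real.exp (-(li g h / T) ^ 2 / 2)) (C := 1)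
    (fun h => by
      rw [abs_of_pos (Real.exp_pos _), Real.exp_le_one_iff]
      have := sq_nonneg (li g h / T)
      linarith)
  have main : H910.ZZ s t J P (fun _ => 1) - Real.exp (1 / 2) *
      H910.ZZ s t J P (fun h => Real.exp (-(li g h / T) ^ 2 / 2)) ≤
      H910.ZZ s t J P (fun h => if T ≤ li g h then 1 else 0) +
      H910.ZZ s t J P (fun h => if li g h ≤ -T then 1 else 0) := by
    unfold H910.ZZ
    rw [← tsum_mul_left, ← s3.tsum_sub (s4.mul_left _), ← s1.tsum_add s2]
    refine (s3.sub (s4.mul_left _)).tsum_le_tsum (fun h => ?_) (s1.add s2)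
    by_cases h0 : ∀ v ∈ P, h v = 0
    · rw [if_pos h0, if_pos h0, if_pos h0, if_pos h0]
      have hW := W_nonneg (D := grd s t) hJ h
      have key : 1 - Real.exp (1 / 2) * Real.exp (-(li g h / T) ^ 2 / 2) ≤
          (if T ≤ li g h then (1 : ℝ) else 0) + (if li g h ≤ -T then 1 else 0) := by
        by_cases h1 : T ≤ li g h
        · rw [if_pos h1]
          have h3 : (0 : ℝ) ≤ if li g h ≤ -T then 1 else 0 := by split_ifs <;> norm_num
          have h4 : 0 < Real.exp (1 / 2) * Real.exp (-(li g h / T) ^ 2 / 2) := by positivity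
          linarith
        · by_cases h2 : li g h ≤ -T
          · rw [if_neg h1, if_pos h2]
            have h4 : 0 < Real.exp (1 / 2) * Real.exp (-(li g h / T) ^ 2 / 2) := by positivity
            linarith
          · rw [if_neg h1, if_neg h2, add_zero, sub_nonpos, ← Real.exp_add]
            refine Real.one_le_exp ?_
            push Not at h1 h2
            have h5 : |li g h / T| ≤ 1 := by
              rw [abs_le]
              constructor
              · rw [le_div_iff₀ hT]; linarith
              · rw [div_le_one hT]; linarith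
            have h6 : (li g h / T) ^ 2 ≤ 1 := by
              rw [← sq_abs]
              nlinarith [abs_nonneg (li g h / T)]
            linarith
      have := mul_le_mul_of_nonneg_left key hW
      linarith
    · rw [if_neg h0, if_neg h0, if_neg h0, if_neg h0]
      simp
  rw [b1, b2]
  rw [← b3] at main
  rw [div_le_div_iff₀ two_pos hZP]
  have h7 : H910.ZZ s t J P (fun h => Real.exp (-(li g h / T) ^ 2 / 2)) ≤
      H910.ZZ s t J X (fun h => Real.exp (-(li g h / T) ^ 2 / 2)) /
        H910.ZZ s t J X (fun _ => 1) * H910.ZZ s t J P (fun _ => 1) := by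
    rw [div_mul_eq_mul_div, le_div_iff₀ hZX]
    exact hmono
  have h8 := mul_le_mul_of_nonneg_left h7 (Real.exp_pos (1 / 2)).le
  nlinarith [h8, main]

end

end Vale.Agent.P159.T1.H565
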