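import Vale.Agent.P159.T1.H254.UWDefs

/-!
Path sums for the subdivision of a bond (row UW2 of the unwiring inequality).
-/


namespace Vale.Agent.P159.T1.H565

open Vale.Agent.P159.T1.H254

/-- the states of one height in `(-M, M]` -/
abbrev R (M : ℕ) : Type := Fin M × Bool

/-- the height of a state -/
def vl {M : ℕ} (z : R M) : ℤ := hgt z.1 z.2

theorem vl_range {M : ℕ} (z : R M) : -(M : ℤ) < vl z ∧ vl z ≤ M := by
  obtain ⟨i, b⟩ := z
  have h := i.2
  unfold vl hgt
  cases b
  · simp only [Bool.false_eq_true, if_false]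
    omega
  · simp only [if_true]
    omega

theorem vl_inj {M : ℕ} : Function.Injective (vl (M := M)) := by
  rintro ⟨i, b⟩ ⟨j, c⟩ h
  unfold vl hgt at h
  have key : (i : ℕ) = j ∧ b = c := by
    cases b <;> cases c <;> simp only [Bool.false_eq_true, if_false, if_true] at h
    · exact ⟨by omega, rfl⟩
    · exfalso; omega
    · exfalso; omega
    · exact ⟨by omega, rfl⟩
  exact Prod.ext (Fin.ext key.1) key.2

theorem exists_vl {M : ℕ} {n : ℤ} (h1 : -(M : ℤ) < n) (h2 : n ≤ M) : ∃ z : R M, vl z = n := by
  by_cases h : 1 ≤ n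
  · refine ⟨(⟨(n - 1).toNat, by omega⟩, true), ?_⟩
    unfold vl hgt
    simp only [if_true]
    omega
  · refine ⟨(⟨(-n).toNat, by omega⟩, false), ?_⟩
    unfold vl hgt
    simp only [Bool.false_eq_true, if_false]
    omega

theorem sum_vl {M : ℕ} (φ : ℤ → ℝ) :
    ∑ z : R M, φ (vl z) = ∑ n ∈ Finset.Ioc (-(M : ℤ)) M, φ n := by
  refine Finset.sum_nbij vl (fun z _ => ?_) (fun a _ b _ h => vl_inj h) (fun n hn => ?_)
    (fun z _ => rfl)
  · exact Finset.mem_Ioc.2 (vl_range z)
  · obtain ⟨h1, h2⟩ := Finset.mem_Ioc.1 (Finset.mem_coe.1 hn)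
    obtain ⟨z, hz⟩ := exists_vl h1 h2
    exact ⟨z, Finset.mem_coe.2 (Finset.mem_univ z), hz⟩

/-- all heights at distance at most `k` of `x` are in `(-M, M]` -/
def Safe (M k : ℕ) (x : ℤ) : Prop := -(M : ℤ) < x - k ∧ x + k ≤ M

theorem ker_zero (β : ℝ) : ker 1 β 0 = 1 := by unfold ker; simp
theorem ker_one (β : ℝ) : ker 1 β 1 = β := by unfold ker; norm_num
theorem ker_neg_one (β : ℝ) : ker 1 β (-1) = β := by unfold ker; norm_num

theorem ker_neg (β : ℝ) (n : ℤ) : ker 1 β (-n) = ker 1 β n := by
  unfold ker
  simp only [abs_neg, neg_eq_zero]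

theorem ker_supp {β : ℝ} {n : ℤ} (h : ker 1 β n ≠ 0) : |n| ≤ 1 := by
  by_contra hc
  apply h
  unfold ker
  rw [if_neg, if_neg]
  · intro e; apply hc; exact e.le
  · intro e; apply hc; rw [e]; simp

theorem ker_nonneg {β : ℝ} (hβ : 0 ≤ β) (n : ℤ) : 0 ≤ ker 1 β n := by
  unfold ker
  split_ifs
  · exact zero_le_one
  · exact hβ
  · exact le_rfl

/-- one step of a path -/
theorem ker_step {M : ℕ} (β : ℝ) {x : ℤ} (hx : Safe M 1 x) (F : ℤ → ℝ) :
    ∑ z : R M, ker 1 β (vl z - x) * F (vl z) = F x + β * (F (x - 1) + F (x + 1)) := by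
  rw [sum_vl (fun n => ker 1 β (n - x) * F n)]
  have hs : ({x - 1, x, x + 1} : Finset ℤ) ⊆ Finset.Ioc (-(M : ℤ)) M := by
    intro n hn
    simp only [Finset.mem_insert, Finset.mem_singleton] at hn
    rw [Finset.mem_Ioc]
    obtain ⟨h1, h2⟩ := hx
    push_cast at h1 h2
    rcases hn with rfl | rfl | rfl <;> constructor <;> omega
  rw [← Finset.sum_subset hs]
  · have e1 : x - 1 ∉ ({x, x + 1} : Finset ℤ) := by
      simp only [Finset.mem_insert, Finset.mem_singleton]; omega
    have e2 : x ∉ ({x + 1} : Finset ℤ) := by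
      simp only [Finset.mem_singleton]; omega
    rw [Finset.sum_insert e1, Finset.sum_insert e2, Finset.sum_singleton]
    rw [show x - 1 - x = -1 by ring, sub_self, show x + 1 - x = 1 by ring, ker_zero, ker_one,
      ker_neg_one]
    ring
  · intro n _ hn
    have : ker 1 β (n - x) = 0 := by
      by_contra hne
      have h2 := ker_supp hne
      apply hn
      simp only [Finset.mem_insert, Finset.mem_singleton]
      rw [abs_le] at h2
      omega
    rw [this, zero_mul]

theorem ker_step' {M : ℕ} (β : ℝ) {x : ℤ} (hx : Safe M 1 x) :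
    ∑ z : R M, ker 1 β (x - vl z) = 1 + 2 * β := by
  have h := ker_step β hx (fun _ => 1)
  simp only [mul_one] at h
  have e : ∀ z : R M, ker 1 β (x - vl z) = ker 1 β (vl z - x) := by
    intro z
    rw [show x - vl z = -(vl z - x) by ring]
    exact ker_neg β _
  rw [Finset.sum_congr rfl fun z _ => e z, h]
  ring

/-- the sum over the interior heights of a path with `k` interior vertices, from height `x` to
height `y`; the steps `i` with `d i = true` are deleted -/
noncomputable def GG (M : ℕ) (β : ℝ) : (k : ℕ) → (Fin (k + 1) → Bool) → ℤ → ℤ → ℝ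
  | 0, d, x, y => if d 0 then 1 else ker 1 β (y - x)
  | k + 1, d, x, y =>
      ∑ z : R M, (if d 0 then 1 else ker 1 β (vl z - x)) * GG M β k (fun i => d i.succ) (vl z) y

theorem GG_nonneg {M : ℕ} {β : ℝ} (hβ : 0 ≤ β) : ∀ (k : ℕ) (d : Fin (k + 1) → Bool) (x y : ℤ),
    0 ≤ GG M β k d x y
  | 0, d, x, y => by
      unfold GG
      split_ifs
      · exact zero_le_one
      · exact ker_nonneg hβ _
  | k + 1, d, x, y => by
      unfold GG
      refine Finset.sum_nonneg fun z _ => mul_nonneg ?_ (GG_nonneg hβ k _ _ _)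
      split_ifs
      · exact zero_le_one
      · exact ker_nonneg hβ _

/-- the path sum as a sum over functions -/
theorem GG_eq {M : ℕ} (β : ℝ) : ∀ (k : ℕ) (d : Fin (k + 1) → Bool) (x y : R M),
    ∑ u : Fin k → R M, ∏ i : Fin (k + 1), (if d i then 1 else
      ker 1 β (vl ((Fin.snoc u y : Fin (k + 1) → R M) i) -
        vl ((Fin.cons x u : Fin (k + 1) → R M) i))) = GG M β k d (vl x) (vl y)
  | 0, d, x, y => by
      unfold GG
      rw [Fintype.sum_unique, Fin.prod_univ_one]
      rfl
  | k + 1, d, x, y => by
      unfold GG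
      rw [← (Fin.consEquiv (fun _ : Fin (k + 1) => R M)).sum_comp, Fintype.sum_prod_type]
      refine Finset.sum_congr rfl fun z _ => ?_
      rw [← GG_eq β k (fun i => d i.succ) z y, Finset.mul_sum]
      refine Finset.sum_congr rfl fun u _ => ?_
      rw [Fin.prod_univ_succ]
      congr 1
      simp only [Fin.consEquiv, Equiv.coe_fn_mk]
      rw [← Fin.cons_snoc_eq_snoc_cons]
      simp

theorem kerP_one (β : ℝ) (n : ℤ) : kerP β 1 n = ker 1 β n := by
  unfold kerP kerP ker
  by_cases h0 : n = 0
  · subst h0; norm_num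
  · by_cases h1 : n = 1
    · subst h1; norm_num
    · by_cases h2 : n = -1
      · subst h2; norm_num
      · have h3 : |n| ≠ 1 := by
          intro h
          rcases (abs_eq (by norm_num : (0 : ℤ) ≤ 1)).1 h with h | h
          · exact h1 h
          · exact h2 h
        rw [if_neg h0, if_neg (by omega), if_neg (by omega), if_neg h0, if_neg h3]
        ring

theorem kerP_supp {β : ℝ} : ∀ {m : ℕ} {n : ℤ}, kerP β m n ≠ 0 → |n| ≤ m
  | 0, n, h => by
      unfold kerP at h
      by_cases h0 : n = 0
      · rw [h0]; simp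
      · rw [if_neg h0] at h; exact absurd rfl h
  | m + 1, n, h => by
      by_contra hc
      apply h
      unfold kerP
      have h1 : kerP β m n = 0 := by
        by_contra hne
        have := kerP_supp hne
        push_cast at hc
        omega
      have h2 : kerP β m (n - 1) = 0 := by
        by_contra hne
        have := kerP_supp hne
        rw [abs_le] at this
        push_cast at hc
        rw [abs_le] at hc
        omega
      have h3 : kerP β m (n + 1) = 0 := by
        by_contra hne
        have := kerP_supp hne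
        rw [abs_le] at this
        push_cast at hc
        rw [abs_le] at hc
        omega
      rw [h1, h2, h3]
      ring

/-- a whole path -/
theorem GG_none {M : ℕ} (β : ℝ) : ∀ (k : ℕ) {x y : ℤ}, Safe M (k + 1) x →
    GG M β k (fun _ => false) x y = kerP β (k + 1) (y - x)
  | 0, x, y, _ => by
      unfold GG
      rw [if_neg Bool.false_ne_true, kerP_one]
  | k + 1, x, y, hx => by
      unfold GG
      simp only [Bool.false_eq_true, if_false]
      obtain ⟨h1, h2⟩ := hx
      push_cast at h1 h2
      have e := ker_step (M := M) β (x := x) ⟨by push_cast; omega, by push_cast; omega⟩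
        (fun z => GG M β k (fun _ => false) z y)
      rw [e]
      rw [GG_none β k (x := x) (y := y) ⟨by push_cast; omega, by push_cast; omega⟩,
        GG_none β k (x := x - 1) (y := y) ⟨by push_cast; omega, by push_cast; omega⟩,
        GG_none β k (x := x + 1) (y := y) ⟨by push_cast; omega, by push_cast; omega⟩]
      rw [show kerP β (k + 1 + 1) (y - x) = kerP β (k + 1) (y - x) +
        β * (kerP β (k + 1) (y - x - 1) + kerP β (k + 1) (y - x + 1)) from rfl]
      rw [show y - (x - 1) = y - x + 1 by ring, show y - (x + 1) = y - x - 1 by ring]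
      ring

theorem GG_supp {M : ℕ} {β : ℝ} : ∀ (k : ℕ) {x y : ℤ},
    GG M β k (fun _ => false) x y ≠ 0 → |y - x| ≤ k + 1
  | 0, x, y, h => by
      unfold GG at h
      rw [if_neg Bool.false_ne_true] at h
      have := ker_supp h
      simpa using this
  | k + 1, x, y, h => by
      unfold GG at h
      simp only [Bool.false_eq_true, if_false] at h
      obtain ⟨z, _, hz⟩ := Finset.exists_ne_zero_of_sum_ne_zero h
      have h1 := ker_supp (left_ne_zero_of_mul hz)
      have h2 := GG_supp k (right_ne_zero_of_mul hz)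
      rw [abs_le] at h1 h2 ⊢
      push_cast
      omega

/-- sum over the first end point of a whole path -/
theorem GG_sum {M : ℕ} {β : ℝ} : ∀ (k : ℕ) {y : ℤ}, Safe M (k + 1) y →
    ∑ z : R M, GG M β k (fun _ => false) (vl z) y = (1 + 2 * β) ^ (k + 1)
  | 0, y, hy => by
      unfold GG
      simp only [Bool.false_eq_true, if_false]
      rw [ker_step' β (by simpa using hy)]
      ring
  | k + 1, y, hy => by
      unfold GG
      simp only [Bool.false_eq_true, if_false]
      rw [Finset.sum_comm]
      have hy' : Safe M (k + 1) y := by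
        obtain ⟨h1, h2⟩ := hy
        push_cast at h1 h2
        exact ⟨by push_cast; omega, by push_cast; omega⟩
      rw [pow_succ, ← GG_sum k hy', Finset.sum_mul]
      refine Finset.sum_congr rfl fun z' _ => ?_
      rw [← Finset.sum_mul, mul_comm]
      by_cases h : GG M β k (fun _ => false) (vl z') y = 0
      · rw [h, zero_mul, zero_mul]
      · have h1 := GG_supp k h
        rw [ker_step' β (x := vl z')]
        obtain ⟨h2, h3⟩ := hy
        rw [abs_le] at h1
        push_cast at h2 h3
        exact ⟨by push_cast; omega, by push_cast; omega⟩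

/-- all steps deleted -/
theorem GG_all {M : ℕ} {β : ℝ} : ∀ (k : ℕ) (x y : ℤ),
    GG M β k (fun _ => true) x y = (Fintype.card (R M) : ℝ) ^ k
  | 0, x, y => by
      unfold GG
      simp
  | k + 1, x, y => by
      unfold GG
      simp only [if_true, one_mul]
      rw [Finset.sum_congr rfl fun z _ => GG_all k (vl z) y, Finset.sum_const, Finset.card_univ,
        nsmul_eq_mul, pow_succ, mul_comm]

theorem card_R {M : ℕ} (hM : 0 < M) : (0 : ℝ) < (Fintype.card (R M) : ℝ) := by
  haveI : Nonempty (R M) := ⟨(⟨0, hM⟩, true)⟩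
  exact_mod_cast Fintype.card_pos

/-- deleted steps up to the last one: the sum does not depend on a safe start -/
theorem GG_up {M : ℕ} {β : ℝ} (hM : 0 < M) (hβ : 0 ≤ β) : ∀ (k : ℕ) (d : Fin (k + 1) → Bool),
    (∀ i j, d i = true → i ≤ j → d j = true) → d (Fin.last k) = true →
    ∃ c : ℝ, 0 < c ∧ ∀ x y, Safe M (k + 1) x → GG M β k d x y = c
  | 0, d, _, h => by
      refine ⟨1, zero_lt_one, fun x y _ => ?_⟩
      unfold GG
      have : d 0 = true := h
      rw [if_pos this]
  | k + 1, d, hup, hl => by
      by_cases h0 : d 0 = true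
      · have : d = fun _ => true := by
          funext j
          exact hup 0 j h0 (Fin.zero_le _)
        refine ⟨(Fintype.card (R M) : ℝ) ^ (k + 1), pow_pos (card_R hM) _, fun x y _ => ?_⟩
        rw [this, GG_all]
      · obtain ⟨c, hc, h⟩ := GG_up hM hβ k (fun i => d i.succ)
          (fun i j hi hij => hup i.succ j.succ hi (Fin.succ_le_succ_iff.2 hij))
          (by rw [Fin.succ_last]; exact hl)
        refine ⟨c + β * (c + c), by positivity, fun x y hx => ?_⟩
        unfold GG
        simp only [h0, if_false, Bool.false_eq_true]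
        obtain ⟨h1, h2⟩ := hx
        push_cast at h1 h2
        have e := ker_step (M := M) β (x := x) ⟨by push_cast; omega, by push_cast; omega⟩
          (fun z => GG M β k (fun i => d i.succ) z y)
        rw [e, h x y ⟨by push_cast; omega, by push_cast; omega⟩,
          h (x - 1) y ⟨by push_cast; omega, by push_cast; omega⟩,
          h (x + 1) y ⟨by push_cast; omega, by push_cast; omega⟩]

/-- deleted steps from the first one on -/
theorem GG_down {M : ℕ} {β : ℝ} (hM : 0 < M) (hβ : 0 ≤ β) : ∀ (k : ℕ) (d : Fin (k + 1) → Bool),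
    (∀ i j, d j = true → i ≤ j → d i = true) → d 0 = true →
    ∃ c : ℝ, 0 < c ∧ ∀ x y, Safe M (k + 1) y → GG M β k d x y = c
  | 0, d, _, h => by
      refine ⟨1, zero_lt_one, fun x y _ => ?_⟩
      unfold GG
      rw [if_pos h]
  | k + 1, d, hdn, h0 => by
      by_cases h1 : d (Fin.succ 0) = true
      · obtain ⟨c, hc, h⟩ := GG_down hM hβ k (fun i => d i.succ)
          (fun i j hi hij => hdn i.succ j.succ hi (Fin.succ_le_succ_iff.2 hij)) h1
        refine ⟨(Fintype.card (R M) : ℝ) * c, mul_pos (card_R hM) hc, fun x y hy => ?_⟩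
        unfold GG
        simp only [h0, if_true, one_mul]
        obtain ⟨h2, h3⟩ := hy
        push_cast at h2 h3
        rw [Finset.sum_congr rfl fun z _ => h (vl z) y ⟨by push_cast; omega, by push_cast; omega⟩,
          Finset.sum_const, Finset.card_univ, nsmul_eq_mul]
      · have hd : (fun i : Fin (k + 1) => d i.succ) = fun _ => false := by
          funext i
          by_contra hne
          have h2 : d i.succ = true := by simpa using hne
          exact h1 (hdn (Fin.succ 0) i.succ h2 (Fin.succ_le_succ_iff.2 (Fin.zero_le _)))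
        refine ⟨(1 + 2 * β) ^ (k + 1), by positivity, fun x y hy => ?_⟩
        unfold GG
        rw [hd]
        simp only [h0, if_true, one_mul]
        obtain ⟨h2, h3⟩ := hy
        push_cast at h2 h3
        exact GG_sum k ⟨by push_cast; omega, by push_cast; omega⟩

end Vale.Agent.P159.T1.H565
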