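import Vale.Agent.P159.T1.H565.UW2a

/-!
The finite sums of row UW1 as sums over functions, and the subdivided graph.
-/

namespace Vale.Agent.P159.T1.H565

open Vale.Agent.P159.T1.H254

section

variable {V E : Type} [Fintype V] [DecidableEq V] [Fintype E] [DecidableEq E]

open scoped Classical in
/-- sum over heights in `(-M, M]` with property `Q`, the edges of `F` deleted -/
noncomputable def TQ (s t : E → V) (M : ℕ) (β : E → ℝ) (Q : (V → ℤ) → Prop) (F : Finset E) : ℝ :=
  ∑ h : V → R M, if Q (fun v => vl (h v)) then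
    ∏ e, (if e ∈ F then 1 else ker 1 (β e) (vl (h (t e)) - vl (h (s e)))) else 0

theorem vl_eq_zero {M : ℕ} (i : Fin M) (b : Bool) : hgt i b = 0 ↔ (i : ℕ) = 0 ∧ b = false := by
  unfold hgt
  cases b
  · simp
  · simp only [if_true, Bool.true_eq_false, and_false, iff_false]
    omega

theorem vl_eq_one {M : ℕ} (i : Fin M) (b : Bool) : hgt i b = 1 ↔ (i : ℕ) = 0 ∧ b = true := by
  unfold hgt
  cases b
  · simp only [Bool.false_eq_true, if_false, and_false, iff_false]
    omega
  · simp

theorem one_le_vl {M : ℕ} (i : Fin M) (b : Bool) : 1 ≤ hgt i b ↔ b = true := by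
  unfold hgt
  cases b
  · simp only [Bool.false_eq_true, if_false, iff_false]
    omega
  · simp

omit [Fintype V] [DecidableEq V] in
theorem prod_compl (F : Finset E) (g : E → ℝ) :
    ∏ e ∈ Fᶜ, g e = ∏ e, (if e ∈ F then 1 else g e) := by
  rw [← Finset.prod_filter_mul_prod_filter_not Finset.univ (fun e => e ∈ F)
    (fun e => if e ∈ F then 1 else g e)]
  rw [Finset.prod_congr rfl (g := fun _ => (1 : ℝ)) (fun e he => if_pos (Finset.mem_filter.1 he).2),
    Finset.prod_const_one, one_mul]
  refine Finset.prod_congr ?_ fun e he => ?_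
  · ext e; simp
  · rw [if_neg (Finset.mem_filter.1 he).2]

/-- heights `0` at `om` and `k` at `op` -/
def Q01 (om op : V) (k : ℤ) (h : V → ℤ) : Prop := h om = 0 ∧ h op = k

/-- heights `0` at `om` and at `op` and `≥ 1` at `f` -/
def QP (om op f : V) (h : V → ℤ) : Prop := h om = 0 ∧ h op = 0 ∧ 1 ≤ h f

theorem ZF_eq (s t : E → V) (M : ℕ) (β : E → ℝ) (om op : V) (F : Finset E) (j : Bool) :
    ZF s t M β om op F j = TQ s t M β (Q01 om op (if j then 1 else 0)) F := by
  unfold ZF TQ
  rw [← (Equiv.arrowProdEquivProdArrow V (fun _ => Fin M) (fun _ => Bool)).symm.sum_comp,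
    Fintype.sum_prod_type]
  refine Finset.sum_congr rfl fun a _ => Finset.sum_congr rfl fun σ _ => ?_
  rw [prod_compl]
  have key : ((a om : ℕ) = 0 ∧ (a op : ℕ) = 0 ∧ σ om = false ∧ σ op = j) ↔
      Q01 om op (if j then 1 else 0) (fun v => vl
        ((Equiv.arrowProdEquivProdArrow V (fun _ => Fin M) (fun _ => Bool)).symm (a, σ) v)) := by
    simp only [Q01, vl, Equiv.arrowProdEquivProdArrow, Equiv.coe_fn_symm_mk]
    rw [vl_eq_zero]
    cases j
    · simp only [Bool.false_eq_true, if_false]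
      rw [vl_eq_zero]
      tauto
    · simp only [if_true]
      rw [vl_eq_one]
      tauto
  by_cases h : (a om : ℕ) = 0 ∧ (a op : ℕ) = 0 ∧ σ om = false ∧ σ op = j
  · rw [if_pos h, if_pos (key.1 h)]
    rfl
  · rw [if_neg h, if_neg (fun h' => h (key.2 h'))]

theorem ZFP_eq (s t : E → V) (M : ℕ) (β : E → ℝ) (om op f : V) :
    ZFP s t M β om op f = TQ s t M β (QP om op f) ∅ := by
  unfold ZFP TQ
  rw [← (Equiv.arrowProdEquivProdArrow V (fun _ => Fin M) (fun _ => Bool)).symm.sum_comp,
    Fintype.sum_prod_type]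
  refine Finset.sum_congr rfl fun a _ => Finset.sum_congr rfl fun σ _ => ?_
  simp only [Finset.notMem_empty, if_false]
  have key : ((a om : ℕ) = 0 ∧ (a op : ℕ) = 0 ∧ σ om = false ∧ σ op = false ∧ σ f = true) ↔
      QP om op f (fun v => vl
        ((Equiv.arrowProdEquivProdArrow V (fun _ => Fin M) (fun _ => Bool)).symm (a, σ) v)) := by
    simp only [QP, vl, Equiv.arrowProdEquivProdArrow, Equiv.coe_fn_symm_mk]
    rw [vl_eq_zero, vl_eq_zero, one_le_vl]
    tauto
  by_cases h : (a om : ℕ) = 0 ∧ (a op : ℕ) = 0 ∧ σ om = false ∧ σ op = false ∧ σ f = true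
  · rw [if_pos h, if_pos (key.1 h)]
    rfl
  · rw [if_neg h, if_neg (fun h' => h (key.2 h'))]

/-- first end point of a step of the subdivided graph -/
def sS (s : E → V) (k : ℕ) (p : E × Fin (k + 1)) : V ⊕ (E × Fin k) :=
  (Fin.cons (Sum.inl (s p.1)) (fun j => Sum.inr (p.1, j)) : Fin (k + 1) → V ⊕ (E × Fin k)) p.2

/-- second end point of a step of the subdivided graph -/
def tS (t : E → V) (k : ℕ) (p : E × Fin (k + 1)) : V ⊕ (E × Fin k) :=
  (Fin.snoc (fun j => Sum.inr (p.1, j)) (Sum.inl (t p.1)) : Fin (k + 1) → V ⊕ (E × Fin k)) p.2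

/-- the deleted steps of the bond `e` -/
def dd {k : ℕ} (F : Finset (E × Fin (k + 1))) (e : E) (i : Fin (k + 1)) : Bool :=
  decide ((e, i) ∈ F)

omit [Fintype V] [DecidableEq V] [Fintype E] [DecidableEq E] in
theorem elim_sS {k : ℕ} {A : Type} (s : E → V) (h : V → A) (g : E → Fin k → A) (e : E)
    (i : Fin (k + 1)) :
    (Sum.elim h (fun p : E × Fin k => g p.1 p.2)) (sS s k (e, i)) =
      (Fin.cons (h (s e)) (g e) : Fin (k + 1) → A) i := by
  unfold sS
  refine Fin.cases ?_ (fun j => ?_) i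
  · simp
  · simp

omit [Fintype V] [DecidableEq V] [Fintype E] [DecidableEq E] in
theorem elim_tS {k : ℕ} {A : Type} (t : E → V) (h : V → A) (g : E → Fin k → A) (e : E)
    (i : Fin (k + 1)) :
    (Sum.elim h (fun p : E × Fin k => g p.1 p.2)) (tS t k (e, i)) =
      (Fin.snoc (g e) (h (t e)) : Fin (k + 1) → A) i := by
  unfold tS
  refine Fin.lastCases ?_ (fun j => ?_) i
  · simp
  · simp

/-- the sum over the subdivided graph: the interior heights are summed first -/
theorem TQ_sub (s t : E → V) (k M : ℕ) (β : E → ℝ) (Q : (V → ℤ) → Prop)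
    (F : Finset (E × Fin (k + 1))) [DecidablePred Q] :
    TQ (sS s k) (tS t k) M (fun p => β p.1) (fun H => Q fun v => H (Sum.inl v)) F =
      ∑ h : V → R M, if Q (fun v => vl (h v)) then
        ∏ e, GG M (β e) k (dd F e) (vl (h (s e))) (vl (h (t e))) else 0 := by
  unfold TQ
  rw [← (Equiv.sumArrowEquivProdArrow V (E × Fin k) (R M)).symm.sum_comp, Fintype.sum_prod_type]
  refine Finset.sum_congr rfl fun h _ => ?_
  rw [← (Equiv.curry E (Fin k) (R M)).symm.sum_comp]
  by_cases hQ : Q fun v => vl (h v)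
  · rw [if_pos hQ]
    simp only [← GG_eq]
    rw [Finset.prod_univ_sum, Fintype.piFinset_univ]
    refine Finset.sum_congr rfl fun g _ => ?_
    rw [if_pos (by exact hQ), Fintype.prod_prod_type]
    refine Finset.prod_congr rfl fun e _ => Finset.prod_congr rfl fun i _ => ?_
    have e1 := elim_sS s h g e i
    have e2 := elim_tS t h g e i
    have e3 : ((Equiv.sumArrowEquivProdArrow V (E × Fin k) (R M)).symm
        (h, (Equiv.curry E (Fin k) (R M)).symm g)) =
        Sum.elim h (fun p : E × Fin k => g p.1 p.2) := by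
      funext x
      rcases x with x | x <;> rfl
    rw [e3, e1, e2]
    unfold dd
    by_cases hF : (e, i) ∈ F
    · rw [if_pos hF, if_pos (decide_eq_true hF)]
    · rw [if_neg hF, if_neg (by simpa using hF)]
  · rw [if_neg hQ]
    refine Finset.sum_eq_zero fun g _ => ?_
    rw [if_neg (by exact hQ)]

end

end Vale.Agent.P159.T1.H565
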