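import Vale.Agent.P159.T1.H565.UW2b

/-!
Factorization of the sum over the subdivided graph when the deleted steps cut off a set `S`.
-/

namespace Vale.Agent.P159.T1.H565

open Vale.Agent.P159.T1.H254

section

variable {V E : Type} [Fintype V] [DecidableEq V] [Fintype E] [DecidableEq E]

/-- the deleted steps `F` of the subdivided graph cut off exactly `S` -/
structure Cut (s t : E → V) (k : ℕ) (S : Finset V) (F : Finset (E × Fin (k + 1))) : Prop where
  inn : ∀ e, s e ∉ S → t e ∉ S → ∀ i, (e, i) ∉ F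
  up : ∀ e, s e ∉ S → t e ∈ S →
    (∀ i j, (e, i) ∈ F → i ≤ j → (e, j) ∈ F) ∧ (e, Fin.last k) ∈ F
  down : ∀ e, s e ∈ S → t e ∉ S →
    (∀ i j, (e, j) ∈ F → i ≤ j → (e, i) ∈ F) ∧ (e, 0) ∈ F

/-- boundary conditions `Q` off `S` with bounded heights -/
structure Bdd (s t : E → V) (k M : ℕ) (S : Finset V) (Q : (V → ℤ) → Prop) : Prop where
  loc : ∀ h h' : V → ℤ, (∀ v, v ∉ S → h v = h' v) → (Q h ↔ Q h')
  safe : ∀ h : V → ℤ, Q h →
    (∀ e, s e ∉ S → t e ∉ S → |h (t e) - h (s e)| ≤ k + 1) → ∀ v, v ∉ S → Safe M (k + 1) (h v)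

/-- weight of the bonds off `S` -/
noncomputable def II (s t : E → V) (k : ℕ) (β : E → ℝ) (S : Finset V) (h : V → ℤ) : ℝ :=
  ∏ e, if s e ∈ S ∨ t e ∈ S then 1 else kerP (β e) (k + 1) (h (t e) - h (s e))

/-- sum over the heights off `S` -/
noncomputable def ZQ (s t : E → V) (k : ℕ) (β : E → ℝ) (S : Finset V) (Q : (V → ℤ) → Prop) : ℝ :=
  ∑' h : {h : V → ℤ // Q h ∧ ∀ v ∈ S, h v = 0}, II s t k β S h.1

/-- weight of the bonds inside `S` -/
noncomputable def YY (s t : E → V) (k M : ℕ) (β : E → ℝ) (S : Finset V)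
    (F : Finset (E × Fin (k + 1))) (h : V → ℤ) : ℝ :=
  ∏ e, if s e ∈ S ∧ t e ∈ S then GG M (β e) k (dd F e) (h (s e)) (h (t e)) else 1

/-- extension by `0` on `S` of heights off `S` -/
def ec {M : ℕ} (S : Finset V) (c : {v // ¬ v ∈ S} → R M) (v : V) : ℤ :=
  if h : v ∈ S then 0 else vl (c ⟨v, h⟩)

/-- extension by `0` off `S` of heights on `S` -/
def eu {M : ℕ} (S : Finset V) (u : {v // v ∈ S} → R M) (v : V) : ℤ :=
  if h : v ∈ S then vl (u ⟨v, h⟩) else 0

omit [Fintype V] [Fintype E] [DecidableEq E] in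
theorem ec_inj {M : ℕ} (S : Finset V) : Function.Injective (ec (M := M) S) := by
  intro c c' h
  funext v
  have h1 := congrFun h v.1
  unfold ec at h1
  rw [dif_neg v.2, dif_neg v.2] at h1
  exact vl_inj h1

/-- the product over all bonds, in three factors -/
theorem prod_split {s t : E → V} {k M : ℕ} {β : E → ℝ} (hM : 0 < M) (hβ : ∀ e, 0 ≤ β e)
    {S : Finset V} {F : Finset (E × Fin (k + 1))} (hF : Cut s t k S F) :
    ∃ X : ℝ, 0 < X ∧ (S = ∅ → X = 1) ∧ ∀ Q, Bdd s t k M S Q → ∀ h : V → ℤ, Q h →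
      ∏ e, GG M (β e) k (dd F e) (h (s e)) (h (t e)) =
        II s t k β S h * (X * YY s t k M β S F h) := by
  have hup : ∀ e, ∃ c : ℝ, 0 < c ∧ (s e ∉ S → t e ∈ S → ∀ x y, Safe M (k + 1) x →
      GG M (β e) k (dd F e) x y = c) := by
    intro e
    by_cases h1 : s e ∉ S ∧ t e ∈ S
    · obtain ⟨h2, h3⟩ := hF.up e h1.1 h1.2
      obtain ⟨c, hc, h⟩ := GG_up hM (hβ e) k (dd F e)
        (fun i j hi hij => decide_eq_true (h2 i j (of_decide_eq_true hi) hij))
        (decide_eq_true h3)
      exact ⟨c, hc, fun _ _ => h⟩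
    · exact ⟨1, zero_lt_one, fun a b => absurd ⟨a, b⟩ h1⟩
  have hdn : ∀ e, ∃ c : ℝ, 0 < c ∧ (s e ∈ S → t e ∉ S → ∀ x y, Safe M (k + 1) y →
      GG M (β e) k (dd F e) x y = c) := by
    intro e
    by_cases h1 : s e ∈ S ∧ t e ∉ S
    · obtain ⟨h2, h3⟩ := hF.down e h1.1 h1.2
      obtain ⟨c, hc, h⟩ := GG_down hM (hβ e) k (dd F e)
        (fun i j hi hij => decide_eq_true (h2 i j (of_decide_eq_true hi) hij))
        (decide_eq_true h3)
      exact ⟨c, hc, fun _ _ => h⟩
    · exact ⟨1, zero_lt_one, fun a b => absurd ⟨a, b⟩ h1⟩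
  choose cu cu0 hcu using hup
  choose cd cd0 hcd using hdn
  set X : E → ℝ := fun e => if s e ∉ S ∧ t e ∈ S then cu e else
    if s e ∈ S ∧ t e ∉ S then cd e else 1 with hX
  have hfalse : ∀ e, s e ∉ S → t e ∉ S → dd F e = fun _ => false := by
    intro e h1 h2
    funext i
    exact decide_eq_false (hF.inn e h1 h2 i)
  refine ⟨∏ e, X e, Finset.prod_pos fun e _ => ?_, fun hS => ?_, fun Q hQ h hQh => ?_⟩
  · simp only [hX]
    split_ifs
    · exact cu0 e
    · exact cd0 e
    · exact zero_lt_one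
  · refine Finset.prod_eq_one fun e _ => ?_
    simp only [hX, hS, Finset.notMem_empty, false_and, and_false, if_false]
  · by_cases hb : ∀ e, s e ∉ S → t e ∉ S → |h (t e) - h (s e)| ≤ k + 1
    · have hs := hQ.safe h hQh hb
      unfold II YY
      rw [← Finset.prod_mul_distrib, ← Finset.prod_mul_distrib]
      refine Finset.prod_congr rfl fun e _ => ?_
      by_cases h1 : s e ∈ S <;> by_cases h2 : t e ∈ S
      · simp only [hX, h1, h2, not_true, and_false, false_and, if_false, true_or, if_true,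
          and_self, one_mul]
      · simp only [hX, h1, h2, not_true, false_and, if_false, true_or, if_true, not_false_eq_true,
          and_self, and_false, one_mul, mul_one]
        exact hcd e h1 h2 _ _ (hs _ h2)
      · simp only [hX, h1, h2, or_true, if_true, not_false_eq_true, and_self, false_and,
          if_false, one_mul, mul_one]
        exact hcu e h1 h2 _ _ (hs _ h1)
      · simp only [hX, h1, h2, or_self, if_false, and_false, false_and, mul_one]
        rw [hfalse e h1 h2, GG_none (β e) k (hs _ h1)]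
    · push Not at hb
      obtain ⟨e, h1, h2, h3⟩ := hb
      have e1 : GG M (β e) k (dd F e) (h (s e)) (h (t e)) = 0 := by
        by_contra hne
        rw [hfalse e h1 h2] at hne
        exact absurd (GG_supp k hne) (not_le.2 h3)
      have e2 : (if s e ∈ S ∨ t e ∈ S then 1 else kerP (β e) (k + 1) (h (t e) - h (s e))) = 0 := by
        rw [if_neg (by tauto)]
        by_contra hne
        have := kerP_supp hne
        push_cast at this
        exact absurd this (not_le.2 h3)
      unfold II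
      rw [Finset.prod_eq_zero (Finset.mem_univ e) e1, Finset.prod_eq_zero (Finset.mem_univ e) e2,
        zero_mul]

omit [Fintype V] in
theorem II_congr (s t : E → V) (k : ℕ) (β : E → ℝ) (S : Finset V) {h h' : V → ℤ}
    (hh : ∀ v, v ∉ S → h v = h' v) : II s t k β S h = II s t k β S h' := by
  unfold II
  refine Finset.prod_congr rfl fun e _ => ?_
  by_cases h1 : s e ∈ S ∨ t e ∈ S
  · rw [if_pos h1, if_pos h1]
  · rw [if_neg h1, if_neg h1]
    push Not at h1
    rw [hh _ h1.1, hh _ h1.2]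

omit [Fintype V] in
theorem YY_congr (s t : E → V) (k M : ℕ) (β : E → ℝ) (S : Finset V)
    (F : Finset (E × Fin (k + 1))) {h h' : V → ℤ}
    (hh : ∀ v, v ∈ S → h v = h' v) : YY s t k M β S F h = YY s t k M β S F h' := by
  unfold YY
  refine Finset.prod_congr rfl fun e _ => ?_
  by_cases h1 : s e ∈ S ∧ t e ∈ S
  · rw [if_pos h1, if_pos h1, hh _ h1.1, hh _ h1.2]
  · rw [if_neg h1, if_neg h1]

/-- the sum `ZQ` is a finite sum -/
theorem ZQ_finite {s t : E → V} {k M : ℕ} {β : E → ℝ} {S : Finset V} {Q : (V → ℤ) → Prop}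
    [DecidablePred Q] (hQ : Bdd s t k M S Q) :
    ∑ c : {v // ¬ v ∈ S} → R M, (if Q (ec S c) then II s t k β S (ec S c) else 0) =
      ZQ s t k β S Q := by
  unfold ZQ
  have e1 : ∑' h : {h : V → ℤ // Q h ∧ ∀ v ∈ S, h v = 0}, II s t k β S h.1 =
      ∑' h : V → ℤ, ({h : V → ℤ | Q h ∧ ∀ v ∈ S, h v = 0}).indicator (II s t k β S) h :=
    tsum_subtype {h : V → ℤ | Q h ∧ ∀ v ∈ S, h v = 0} (II s t k β S)
  rw [e1, ← (ec_inj (M := M) S).tsum_eq, tsum_fintype]
  · refine Finset.sum_congr rfl fun c _ => ?_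
    by_cases h : Q (ec S c)
    · rw [if_pos h, Set.indicator_of_mem]
      refine ⟨h, fun v hv => ?_⟩
      unfold ec
      rw [dif_pos hv]
    · rw [if_neg h, Set.indicator_of_notMem]
      exact fun h' => h h'.1
  · intro h hne
    have hmem : h ∈ {h : V → ℤ | Q h ∧ ∀ v ∈ S, h v = 0} := by
      by_contra hc
      exact hne (Set.indicator_of_notMem hc _)
    rw [Function.mem_support, Set.indicator_of_mem hmem] at hne
    have hb : ∀ e, s e ∉ S → t e ∉ S → |h (t e) - h (s e)| ≤ k + 1 := by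
      intro e h1 h2
      have h3 := (Finset.prod_ne_zero_iff.1 hne) e (Finset.mem_univ e)
      rw [if_neg (by tauto)] at h3
      have := kerP_supp h3
      push_cast at this
      exact this
    have hs := hQ.safe h hmem.1 hb
    have hz : ∀ v : {v // ¬ v ∈ S}, ∃ z : R M, vl z = h v.1 := by
      intro v
      obtain ⟨h1, h2⟩ := hs v.1 v.2
      push_cast at h1 h2
      exact exists_vl (by omega) (by omega)
    choose c hc using hz
    refine ⟨c, ?_⟩
    funext v
    unfold ec
    by_cases hv : v ∈ S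
    · rw [dif_pos hv, hmem.2 v hv]
    · rw [dif_neg hv, hc]

/-- factorization -/
theorem fact {s t : E → V} {k M : ℕ} {β : E → ℝ} (hM : 0 < M) (hβ : ∀ e, 0 ≤ β e)
    {S : Finset V} {F : Finset (E × Fin (k + 1))} (hF : Cut s t k S F) :
    ∃ c : ℝ, 0 ≤ c ∧ ((∀ e, s e ∈ S → t e ∈ S → ∀ i, (e, i) ∈ F) → 0 < c) ∧ (S = ∅ → c = 1) ∧
      ∀ Q, Bdd s t k M S Q →
      TQ (sS s k) (tS t k) M (fun p => β p.1) (fun H => Q fun v => H (Sum.inl v)) F =
        c * ZQ s t k β S Q := by
  classical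
  obtain ⟨X, hX0, hX1, hX⟩ := prod_split hM hβ hF
  refine ⟨X * ∑ u : {v // v ∈ S} → R M, YY s t k M β S F (eu S u), ?_, ?_, ?_, fun Q hQ => ?_⟩
  · refine mul_nonneg hX0.le (Finset.sum_nonneg fun u _ => Finset.prod_nonneg fun e _ => ?_)
    split_ifs
    · exact GG_nonneg (hβ e) k _ _ _
    · exact zero_le_one
  · intro hS
    haveI : Nonempty ({v // v ∈ S} → R M) := ⟨fun _ => (⟨0, hM⟩, true)⟩
    refine mul_pos hX0 (Finset.sum_pos (fun u _ => Finset.prod_pos fun e _ => ?_)
      Finset.univ_nonempty)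
    by_cases h1 : s e ∈ S ∧ t e ∈ S
    · rw [if_pos h1]
      have h2 : dd F e = fun _ => true := by
        funext i
        exact decide_eq_true (hS e h1.1 h1.2 i)
      rw [h2, GG_all]
      exact pow_pos (card_R hM) _
    · rw [if_neg h1]
      exact zero_lt_one
  · intro hS
    rw [hX1 hS, one_mul]
    have e1 : ∀ u : {v // v ∈ S} → R M, YY s t k M β S F (eu S u) = 1 := by
      intro u
      unfold YY
      refine Finset.prod_eq_one fun e _ => ?_
      rw [if_neg]
      rw [hS]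
      simp
    rw [Finset.sum_congr rfl fun u _ => e1 u]
    have : IsEmpty {v // v ∈ S} := ⟨fun v =>
      Finset.notMem_empty v.1 (Eq.mp (congrArg (fun T : Finset V => v.1 ∈ T) hS) v.2)⟩
    rw [Finset.sum_const, Finset.card_univ, nsmul_eq_mul, mul_one]
    rw [Fintype.card_eq_one_iff_nonempty_unique.2 ⟨inferInstance⟩]
    simp
  · rw [TQ_sub, ← (Equiv.piEquivPiSubtypeProd (fun v => v ∈ S) (fun _ => R M)).symm.sum_comp,
      Fintype.sum_prod_type, mul_comm X, mul_assoc, Finset.sum_mul]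
    refine Finset.sum_congr rfl fun u _ => ?_
    rw [← ZQ_finite (M := M) hQ, Finset.mul_sum, Finset.mul_sum]
    refine Finset.sum_congr rfl fun c _ => ?_
    set h : V → R M := (Equiv.piEquivPiSubtypeProd (fun v => v ∈ S) (fun _ => R M)).symm (u, c)
      with hh
    have h1 : ∀ v, v ∉ S → vl (h v) = ec S c v := by
      intro v hv
      unfold ec
      rw [dif_neg hv, hh]
      simp only [Equiv.piEquivPiSubtypeProd_symm_apply]
      rw [dif_neg hv]
    have h2 : ∀ v, v ∈ S → vl (h v) = eu S u v := by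
      intro v hv
      unfold eu
      rw [dif_pos hv, hh]
      simp only [Equiv.piEquivPiSubtypeProd_symm_apply]
      rw [dif_pos hv]
    have h3 : Q (fun v => vl (h v)) ↔ Q (ec S c) := hQ.loc _ _ h1
    by_cases hq : Q (fun v => vl (h v))
    · rw [if_pos hq, if_pos (h3.1 hq)]
      have h4 := hX Q hQ (fun v => vl (h v)) hq
      rw [h4, II_congr s t k β S h1, YY_congr s t k M β S F h2]
      ring
    · rw [if_neg hq, if_neg (fun a => hq (h3.2 a))]
      ring

end

end Vale.Agent.P159.T1.H565
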