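import Vale.Agent.P159.T1.H565.UW2c
import Vale.Agent.P159.T1.H254.UWDefsB

/-!
Row UW2 of the unwiring inequality: the choice of the height bound, and the assembly.
-/

namespace Vale.Agent.P159.T1.H565

open Vale.Agent.P159.T1.H254

section

variable {V E : Type} [Fintype V] [DecidableEq V] [Fintype E] [DecidableEq E]

omit [Fintype V] [DecidableEq V] [Fintype E] [DecidableEq E] in
/-- heights are controlled along paths off `S` -/
theorem path_bnd (s t : E → V) (K : ℕ) {S : Finset V} {x v : V}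
    (hp : Relation.ReflTransGen (adjS s t S) x v) :
    ∃ B : ℕ, ∀ h : V → ℤ, (∀ e, s e ∉ S → t e ∉ S → |h (t e) - h (s e)| ≤ K) →
      |h v - h x| ≤ B := by
  induction hp with
  | refl => exact ⟨0, fun h _ => by simp⟩
  | @tail b c _ hbc ih =>
      obtain ⟨B, hB⟩ := ih
      refine ⟨B + K, fun h hh => ?_⟩
      have h1 := hB h hh
      obtain ⟨hb, hc, e, he⟩ := hbc
      have h2 : |h c - h b| ≤ K := by
        rcases he with ⟨h3, h4⟩ | ⟨h3, h4⟩
        · have := hh e (by rw [h3]; exact hb) (by rw [h4]; exact hc)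
          rwa [h3, h4] at this
        · have := hh e (by rw [h3]; exact hc) (by rw [h4]; exact hb)
          rw [h3, h4, abs_sub_comm] at this
          exact this
      have h3 : h c - h x = (h c - h b) + (h b - h x) := by ring
      rw [h3]
      refine (abs_add_le _ _).trans ?_
      push_cast
      linarith

omit [DecidableEq V] [Fintype E] [DecidableEq E] in
/-- a bound for all heights off `S` -/
theorem bnd (s t : E → V) (K : ℕ) {om op : V} {S : Finset V} (hJ : Joined s t om op S) :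
    ∃ B : ℕ, ∀ h : V → ℤ, h om = 0 → (h op = 0 ∨ h op = 1) →
      (∀ e, s e ∉ S → t e ∉ S → |h (t e) - h (s e)| ≤ K) → ∀ v, v ∉ S → |h v| ≤ B := by
  have h1 : ∀ v, ∃ B : ℕ, v ∉ S → ∀ h : V → ℤ, h om = 0 → (h op = 0 ∨ h op = 1) →
      (∀ e, s e ∉ S → t e ∉ S → |h (t e) - h (s e)| ≤ K) → |h v| ≤ B := by
    intro v
    by_cases hv : v ∉ S
    · rcases hJ.2.2 v hv with hp | hp
      · obtain ⟨B, hB⟩ := path_bnd s t K hp
        refine ⟨B, fun _ h h0 _ hh => ?_⟩
        have := hB h hh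
        rwa [h0, sub_zero] at this
      · obtain ⟨B, hB⟩ := path_bnd s t K hp
        refine ⟨B + 1, fun _ h _ hop hh => ?_⟩
        have h2 := hB h hh
        have h3 : |h op| ≤ 1 := by
          rcases hop with h4 | h4
          · rw [h4]; norm_num
          · rw [h4]; norm_num
        have h5 : h v = (h v - h op) + h op := by ring
        rw [h5]
        refine (abs_add_le _ _).trans ?_
        push_cast
        linarith
    · exact ⟨0, fun h => absurd h hv⟩
  choose B hB using h1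
  refine ⟨∑ v, B v, fun h h0 hop hh v hv => (hB v hv h h0 hop hh).trans ?_⟩
  exact_mod_cast Finset.single_le_sum (f := B) (fun _ _ => Nat.zero_le _) (Finset.mem_univ v)

omit [Fintype V] [DecidableEq V] [Fintype E] [DecidableEq E] in
theorem safe_of {M K B : ℕ} {x : ℤ} (hx : |x| ≤ B) (hM : B + K < M) : Safe M K x := by
  rw [abs_le] at hx
  constructor <;> omega

omit [DecidableEq V] [Fintype E] [DecidableEq E] in
/-- a choice of the height bound -/
theorem exists_M (s t : E → V) (k : ℕ) {om op : V} {S : Finset V} (hJ : Joined s t om op S) :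
    ∃ M0 : ℕ, 0 < M0 ∧ ∀ M, M0 ≤ M → ∀ h : V → ℤ, h om = 0 → (h op = 0 ∨ h op = 1) →
      (∀ e, s e ∉ S → t e ∉ S → |h (t e) - h (s e)| ≤ k + 1) →
        ∀ v, v ∉ S → Safe M (k + 1) (h v) := by
  obtain ⟨B, hB⟩ := bnd s t (k + 1) hJ
  refine ⟨B + (k + 1) + 1, by omega, fun M hM h h0 hop hh v hv => ?_⟩
  refine safe_of (hB h h0 hop (fun e h1 h2 => ?_) v hv) (by omega)
  push_cast
  exact hh e h1 h2

omit [Fintype V] [DecidableEq V] [Fintype E] [DecidableEq E] in
theorem bdd_Q01 {s t : E → V} {k M : ℕ} {om op : V} {S : Finset V} (ho : om ∉ S) (hp : op ∉ S)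
    (hM : ∀ h : V → ℤ, h om = 0 → (h op = 0 ∨ h op = 1) →
      (∀ e, s e ∉ S → t e ∉ S → |h (t e) - h (s e)| ≤ k + 1) →
        ∀ v, v ∉ S → Safe M (k + 1) (h v)) {j : ℤ} (hj : j = 0 ∨ j = 1) :
    Bdd s t k M S (Q01 om op j) := by
  refine ⟨fun h h' hh => ?_, fun h hQ hh => ?_⟩
  · unfold Q01
    rw [hh om ho, hh op hp]
  · refine hM h hQ.1 ?_ hh
    rw [hQ.2]
    exact hj

omit [Fintype V] [DecidableEq V] [Fintype E] [DecidableEq E] in
theorem bdd_QP {s t : E → V} {k M : ℕ} {om op f : V}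
    (hM : ∀ h : V → ℤ, h om = 0 → (h op = 0 ∨ h op = 1) →
      (∀ e, s e ∉ (∅ : Finset V) → t e ∉ (∅ : Finset V) → |h (t e) - h (s e)| ≤ k + 1) →
        ∀ v, v ∉ (∅ : Finset V) → Safe M (k + 1) (h v)) :
    Bdd s t k M ∅ (QP om op f) := by
  refine ⟨fun h h' hh => ?_, fun h hQ hh => ?_⟩
  · unfold QP
    rw [hh om (Finset.notMem_empty _), hh op (Finset.notMem_empty _),
      hh f (Finset.notMem_empty _)]
  · exact hM h hQ.1 (Or.inl hQ.2.1) hh

omit [Fintype V] in
/-- `ZS` in terms of `ZQ` -/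
theorem ZS_eq (s t : E → V) (k : ℕ) (β : E → ℝ) (om op : V) (S : Finset V) (j : ℤ) :
    ZS s t (fun e => kerP (β e) (k + 1)) om op S j = ZQ s t k β S (Q01 om op j) := by
  unfold ZS ZQ II
  have e : ∀ h : V → ℤ, (h om = 0 ∧ h op = j ∧ ∀ v ∈ S, h v = 0) ↔
      (Q01 om op j h ∧ ∀ v ∈ S, h v = 0) := by
    intro h
    unfold Q01
    rw [and_assoc]
  exact (Equiv.subtypeEquivRight e).tsum_eq (fun h : {h : V → ℤ // Q01 om op j h ∧
    ∀ v ∈ S, h v = 0} => ∏ e, if s e ∈ S ∨ t e ∈ S then 1 else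
      kerP (β e) (k + 1) (h.1 (t e) - h.1 (s e)))

omit [Fintype V] in
/-- `ZP` in terms of `ZQ` -/
theorem ZP_eq (s t : E → V) (k : ℕ) (β : E → ℝ) (om op f : V) :
    ZP s t (fun e => kerP (β e) (k + 1)) om op f = ZQ s t k β ∅ (QP om op f) := by
  unfold ZP ZQ II
  have e : ∀ h : V → ℤ, (h om = 0 ∧ h op = 0 ∧ 1 ≤ h f) ↔
      (QP om op f h ∧ ∀ v ∈ (∅ : Finset V), h v = 0) := by
    intro h
    unfold QP
    simp
  rw [← (Equiv.subtypeEquivRight e).tsum_eq (fun h : {h : V → ℤ // QP om op f h ∧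
    ∀ v ∈ (∅ : Finset V), h v = 0} => ∏ e, if s e ∈ (∅ : Finset V) ∨ t e ∈ (∅ : Finset V) then 1
      else kerP (β e) (k + 1) (h.1 (t e) - h.1 (s e)))]
  refine tsum_congr fun h => Finset.prod_congr rfl fun e _ => ?_
  rw [if_neg (by simp)]
  rfl

omit [Fintype V] [Fintype E] [DecidableEq V] [DecidableEq E] in
theorem cut_empty (s t : E → V) (k : ℕ) : Cut s t k ∅ ∅ :=
  ⟨fun _ _ _ _ => Finset.notMem_empty _, fun e _ h => absurd h (Finset.notMem_empty _),
    fun e h _ => absurd h (Finset.notMem_empty _)⟩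

/-- the steps touching a vertex of the original graph -/
theorem mem_touch_inl (s t : E → V) (k : ℕ) (f : V) (e : E) (i : Fin (k + 1)) :
    (e, i) ∈ touch (sS s k) (tS t k) {Sum.inl f} ↔
      (s e = f ∧ i = 0) ∨ (t e = f ∧ i = Fin.last k) := by
  unfold touch
  rw [Finset.mem_filter]
  simp only [Finset.mem_univ, true_and, Finset.mem_singleton]
  refine or_congr ?_ ?_
  · unfold sS
    refine Fin.cases ?_ (fun j => ?_) i
    · simp
    · simp
  · unfold tS
    refine Fin.lastCases ?_ (fun j => ?_) i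
    · simp
    · simp only [Fin.snoc_castSucc, reduceCtorEq, false_iff, not_and]
      intro _ h
      exact absurd h (Fin.castSucc_lt_last j).ne

theorem cut_touch (s t : E → V) (k : ℕ) (f : V) :
    Cut s t k {f} (touch (sS s k) (tS t k) {Sum.inl f}) := by
  refine ⟨fun e h1 h2 i hi => ?_, fun e h1 h2 => ⟨fun i j hi hij => ?_, ?_⟩,
    fun e h1 h2 => ⟨fun i j hj hij => ?_, ?_⟩⟩
  · rw [mem_touch_inl] at hi
    rw [Finset.mem_singleton] at h1 h2
    rcases hi with h | h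
    · exact h1 h.1
    · exact h2 h.1
  · rw [mem_touch_inl] at hi ⊢
    rw [Finset.mem_singleton] at h1 h2
    rcases hi with h | h
    · exact absurd h.1 h1
    · right
      refine ⟨h2, le_antisymm (Fin.le_last j) ?_⟩
      rw [← h.2]
      exact hij
  · rw [mem_touch_inl]
    rw [Finset.mem_singleton] at h2
    exact Or.inr ⟨h2, rfl⟩
  · rw [mem_touch_inl] at hj ⊢
    rw [Finset.mem_singleton] at h1 h2
    rcases hj with h | h
    · left
      refine ⟨h1, le_antisymm ?_ (Fin.zero_le i)⟩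
      rw [← h.2]
      exact hij
    · exact absurd h.1 h2
  · rw [mem_touch_inl]
    rw [Finset.mem_singleton] at h1
    exact Or.inl ⟨h1, rfl⟩

end

/-- row UW2, form with `G` minus `f` only -/
theorem uw2f (h1 : StmtUW1f) : StmtUW2f := by
  intro V E _ _ _ _ s t J om op f hJ hl hfo hfp hoo hJ0 hJf m hm hJm
  obtain ⟨k, rfl⟩ : ∃ k, m = k + 1 := ⟨m - 1, by omega⟩
  set β : E → ℝ := fun e => J e / (2 * ((k + 1 : ℕ) : ℝ)) with hβ
  have hk : (0 : ℝ) < ((k + 1 : ℕ) : ℝ) := by exact_mod_cast hm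
  have hβ1 : ∀ e, 0 < β e ∧ β e ≤ 1 / 2 := by
    intro e
    refine ⟨div_pos (hJ e) (by positivity), ?_⟩
    rw [hβ]
    simp only
    rw [div_le_div_iff₀ (by positivity) (by norm_num)]
    have := hJm e
    linarith
  have hβ0 : ∀ e, 0 ≤ β e := fun e => (hβ1 e).1.le
  obtain ⟨M1, hM1, hA⟩ := exists_M s t k hJ0
  obtain ⟨M2, hM2, hB⟩ := exists_M s t k hJf
  have hM : 0 < M1 + M2 := by omega
  have hA' := hA (M1 + M2) (Nat.le_add_right _ _)
  have hB' := hB (M1 + M2) (Nat.le_add_left _ _)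
  have key := h1 (V ⊕ (E × Fin k)) (E × Fin (k + 1)) (sS s k) (tS t k) (M1 + M2)
    (fun p => β p.1) (Sum.inl om) (Sum.inl op) (Sum.inl f) hM (fun p => hβ1 p.1)
    (fun h => hfo (Sum.inl_injective h)) (fun h => hfp (Sum.inl_injective h))
    (fun h => hoo (Sum.inl_injective h))
  rw [ZFP_eq, ZF_eq, ZF_eq, ZF_eq] at key
  obtain ⟨c0, _, _, hc0, hf0⟩ := fact hM hβ0 (cut_empty s t k)
  obtain ⟨c, _, hc, _, hf⟩ := fact hM hβ0 (cut_touch s t k f)
  have hcpos : 0 < c := hc fun e he he' => absurd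
    ((Finset.mem_singleton.1 he).trans (Finset.mem_singleton.1 he').symm) (hl e)
  have e1 := hf0 (QP om op f) (bdd_QP hA')
  have e2 := hf0 (Q01 om op 1) (bdd_Q01 hJ0.1 hJ0.2.1 hA' (Or.inr rfl))
  have e3 := hf (Q01 om op 0) (bdd_Q01 hJf.1 hJf.2.1 hB' (Or.inl rfl))
  have e4 := hf (Q01 om op 1) (bdd_Q01 hJf.1 hJf.2.1 hB' (Or.inr rfl))
  rw [hc0 rfl, one_mul] at e1 e2
  simp only [if_true, Bool.false_eq_true, if_false] at key
  change 2 * TQ (sS s k) (tS t k) (M1 + M2) (fun p => β p.1)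
      (fun H => QP om op f fun v => H (Sum.inl v)) ∅ *
      TQ (sS s k) (tS t k) (M1 + M2) (fun p => β p.1)
      (fun H => Q01 om op 1 fun v => H (Sum.inl v)) (touch (sS s k) (tS t k) {Sum.inl f}) ≤
      TQ (sS s k) (tS t k) (M1 + M2) (fun p => β p.1)
      (fun H => Q01 om op 1 fun v => H (Sum.inl v)) ∅ *
      TQ (sS s k) (tS t k) (M1 + M2) (fun p => β p.1)
      (fun H => Q01 om op 0 fun v => H (Sum.inl v)) (touch (sS s k) (tS t k) {Sum.inl f}) at key
  rw [e1, e2, e3, e4, ← ZP_eq, ← ZS_eq, ← ZS_eq, ← ZS_eq] at key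
  have h5 : c * (2 * ZP s t (fun e => kerP (β e) (k + 1)) om op f *
      ZS s t (fun e => kerP (β e) (k + 1)) om op {f} 1) ≤
      c * (ZS s t (fun e => kerP (β e) (k + 1)) om op ∅ 1 *
      ZS s t (fun e => kerP (β e) (k + 1)) om op {f} 0) := by
    linarith
  exact le_of_mul_le_mul_left h5 hcpos

end Vale.Agent.P159.T1.H565
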