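import Vale.Agent.P159.T1.H565.UW2d
import Vale.Agent.P159.T1.H254.UWDefsC

/-!
Row UW2, set form: the subdivided graph.
-/

namespace Vale.Agent.P159.T1.H565

open Vale.Agent.P159.T1.H254

section

variable {V E : Type} [Fintype V] [DecidableEq V] [Fintype E] [DecidableEq E]

open scoped Classical in
/-- `B` together with the interiors of the cables with both ends in `B` -/
noncomputable def BS (s t : E → V) (k : ℕ) (B : Finset V) : Finset (V ⊕ (E × Fin k)) :=
  Finset.univ.filter fun x =>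
    Sum.elim (fun v => v ∈ B) (fun p : E × Fin k => s p.1 ∈ B ∧ t p.1 ∈ B) x

theorem inl_mem_BS {s t : E → V} {k : ℕ} {B : Finset V} {v : V} :
    (Sum.inl v : V ⊕ (E × Fin k)) ∈ BS s t k B ↔ v ∈ B := by
  classical
  unfold BS
  rw [Finset.mem_filter]
  simp

theorem inr_mem_BS {s t : E → V} {k : ℕ} {B : Finset V} {e : E} {j : Fin k} :
    (Sum.inr (e, j) : V ⊕ (E × Fin k)) ∈ BS s t k B ↔ s e ∈ B ∧ t e ∈ B := by
  classical
  unfold BS
  rw [Finset.mem_filter]
  simp

omit [Fintype V] [DecidableEq V] [Fintype E] [DecidableEq E] in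
theorem sS_zero (s : E → V) (k : ℕ) (e : E) : sS s k (e, 0) = Sum.inl (s e) := by
  unfold sS; simp

omit [Fintype V] [DecidableEq V] [Fintype E] [DecidableEq E] in
theorem sS_succ (s : E → V) (k : ℕ) (e : E) (i : Fin k) :
    sS s k (e, i.succ) = Sum.inr (e, i) := by
  unfold sS; simp

omit [Fintype V] [DecidableEq V] [Fintype E] [DecidableEq E] in
theorem tS_last (t : E → V) (k : ℕ) (e : E) : tS t k (e, Fin.last k) = Sum.inl (t e) := by
  unfold tS; simp

omit [Fintype V] [DecidableEq V] [Fintype E] [DecidableEq E] in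
theorem tS_castSucc (t : E → V) (k : ℕ) (e : E) (i : Fin k) :
    tS t k (e, i.castSucc) = Sum.inr (e, i) := by
  unfold tS; simp

omit [Fintype V] [DecidableEq V] [Fintype E] [DecidableEq E] in
theorem sS_cases (s : E → V) (k : ℕ) (p : E × Fin (k + 1)) :
    (p.2 = 0 ∧ sS s k p = Sum.inl (s p.1)) ∨
      ∃ j : Fin k, p.2 = j.succ ∧ sS s k p = Sum.inr (p.1, j) := by
  obtain ⟨e, i⟩ := p
  refine Fin.cases ?_ (fun j => ?_) i
  · exact Or.inl ⟨rfl, sS_zero s k e⟩
  · exact Or.inr ⟨j, rfl, sS_succ s k e j⟩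

omit [Fintype V] [DecidableEq V] [Fintype E] [DecidableEq E] in
theorem tS_cases (t : E → V) (k : ℕ) (p : E × Fin (k + 1)) :
    (p.2 = Fin.last k ∧ tS t k p = Sum.inl (t p.1)) ∨
      ∃ j : Fin k, p.2 = j.castSucc ∧ tS t k p = Sum.inr (p.1, j) := by
  obtain ⟨e, i⟩ := p
  refine Fin.lastCases ?_ (fun j => ?_) i
  · exact Or.inl ⟨rfl, tS_last t k e⟩
  · exact Or.inr ⟨j, rfl, tS_castSucc t k e j⟩

theorem sS_mem_BS (s t : E → V) (k : ℕ) (B : Finset V) (e : E) (i : Fin (k + 1)) :
    sS s k (e, i) ∈ BS s t k B ↔ s e ∈ B ∧ (i = 0 ∨ t e ∈ B) := by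
  refine Fin.cases ?_ (fun j => ?_) i
  · rw [sS_zero, inl_mem_BS]
    exact ⟨fun h => ⟨h, Or.inl rfl⟩, fun h => h.1⟩
  · rw [sS_succ, inr_mem_BS]
    exact ⟨fun h => ⟨h.1, Or.inr h.2⟩,
      fun h => ⟨h.1, h.2.resolve_left (Fin.succ_ne_zero j)⟩⟩

theorem tS_mem_BS (s t : E → V) (k : ℕ) (B : Finset V) (e : E) (i : Fin (k + 1)) :
    tS t k (e, i) ∈ BS s t k B ↔ t e ∈ B ∧ (i = Fin.last k ∨ s e ∈ B) := by
  refine Fin.lastCases ?_ (fun j => ?_) i
  · rw [tS_last, inl_mem_BS]
    exact ⟨fun h => ⟨h, Or.inl rfl⟩, fun h => h.1⟩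
  · rw [tS_castSucc, inr_mem_BS]
    exact ⟨fun h => ⟨h.2, Or.inr h.1⟩,
      fun h => ⟨h.2.resolve_left (Fin.castSucc_lt_last j).ne, h.1⟩⟩

/-- the steps touching `BS` -/
theorem mem_touch_BS (s t : E → V) (k : ℕ) (B : Finset V) (e : E) (i : Fin (k + 1)) :
    (e, i) ∈ touch (sS s k) (tS t k) (BS s t k B) ↔
      (s e ∈ B ∧ (i = 0 ∨ t e ∈ B)) ∨ (t e ∈ B ∧ (i = Fin.last k ∨ s e ∈ B)) := by
  unfold touch
  rw [Finset.mem_filter, sS_mem_BS, tS_mem_BS]
  exact ⟨fun h => h.2, fun h => ⟨Finset.mem_univ _, h⟩⟩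

theorem cut_BS (s t : E → V) (k : ℕ) (B : Finset V) :
    Cut s t k B (touch (sS s k) (tS t k) (BS s t k B)) := by
  refine ⟨fun e h1 h2 i hi => ?_, fun e h1 h2 => ⟨fun i j hi hij => ?_, ?_⟩,
    fun e h1 h2 => ⟨fun i j hj hij => ?_, ?_⟩⟩
  · rw [mem_touch_BS] at hi
    rcases hi with h | h
    · exact h1 h.1
    · exact h2 h.1
  · rw [mem_touch_BS] at hi ⊢
    rcases hi with h | h
    · exact absurd h.1 h1
    · have h3 := h.2.resolve_right h1
      refine Or.inr ⟨h2, Or.inl (le_antisymm (Fin.le_last j) ?_)⟩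
      rw [← h3]
      exact hij
  · rw [mem_touch_BS]
    exact Or.inr ⟨h2, Or.inl rfl⟩
  · rw [mem_touch_BS] at hj ⊢
    rcases hj with h | h
    · have h3 := h.2.resolve_right h2
      refine Or.inl ⟨h1, Or.inl (le_antisymm ?_ (Fin.zero_le i))⟩
      rw [← h3]
      exact hij
    · exact absurd h.1 h2
  · rw [mem_touch_BS]
    exact Or.inl ⟨h1, Or.inl rfl⟩

theorem full_BS (s t : E → V) (k : ℕ) (B : Finset V) (e : E) (h1 : s e ∈ B) (h2 : t e ∈ B)
    (i : Fin (k + 1)) : (e, i) ∈ touch (sS s k) (tS t k) (BS s t k B) := by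
  rw [mem_touch_BS]
  exact Or.inl ⟨h1, Or.inr h2⟩

omit [Fintype V] [DecidableEq V] [Fintype E] [DecidableEq E] in
/-- the steps of a cable are joined -/
theorem cable (s t : E → V) (k : ℕ) (e : E) (i : Fin (k + 1)) :
    Relation.ReflTransGen (adjS (sS s k) (tS t k) ∅) (Sum.inl (s e)) (sS s k (e, i)) := by
  induction i using Fin.induction with
  | zero => rw [sS_zero]
  | succ j ih =>
      refine ih.tail ⟨Finset.notMem_empty _, Finset.notMem_empty _, (e, j.castSucc), Or.inl
        ⟨rfl, ?_⟩⟩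
      rw [tS_castSucc, sS_succ]

omit [Fintype V] [DecidableEq V] [Fintype E] [DecidableEq E] in
theorem cable_end (s t : E → V) (k : ℕ) (e : E) :
    Relation.ReflTransGen (adjS (sS s k) (tS t k) ∅) (Sum.inl (s e)) (Sum.inl (t e)) := by
  refine (cable s t k e (Fin.last k)).tail ⟨Finset.notMem_empty _, Finset.notMem_empty _,
    (e, Fin.last k), Or.inl ⟨rfl, tS_last t k e⟩⟩

omit [Fintype V] [DecidableEq V] [Fintype E] [DecidableEq E] in
theorem adjS_rev (s t : E → V) (S : Finset V) {x y : V}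
    (h : Relation.ReflTransGen (adjS s t S) x y) : Relation.ReflTransGen (adjS s t S) y x := by
  induction h with
  | refl => exact Relation.ReflTransGen.refl
  | tail _ hbc ih =>
      obtain ⟨h1, h2, e, h3⟩ := hbc
      exact ih.head ⟨h2, h1, e, h3.symm⟩

omit [Fintype V] [DecidableEq V] [Fintype E] [DecidableEq E] in
theorem path_sub (s t : E → V) (k : ℕ) {x y : V} (h : Relation.ReflTransGen (adjS s t ∅) x y) :
    Relation.ReflTransGen (adjS (sS s k) (tS t k) ∅) (Sum.inl x) (Sum.inl y) := by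
  induction h with
  | refl => exact Relation.ReflTransGen.refl
  | tail _ hbc ih =>
      obtain ⟨_, _, e, he⟩ := hbc
      refine ih.trans ?_
      rcases he with ⟨h3, h4⟩ | ⟨h3, h4⟩
      · rw [← h3, ← h4]
        exact cable_end s t k e
      · rw [← h3, ← h4]
        exact adjS_rev _ _ _ (cable_end s t k e)

omit [Fintype V] [DecidableEq V] [Fintype E] [DecidableEq E] in
/-- the subdivided graph is joined -/
theorem joined_sub {s t : E → V} {om op : V} (k : ℕ) (h : Joined s t om op ∅) :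
    Joined (sS s k) (tS t k) (Sum.inl om) (Sum.inl op) ∅ := by
  refine ⟨Finset.notMem_empty _, Finset.notMem_empty _, fun x _ => ?_⟩
  rcases x with v | ⟨e, j⟩
  · exact (h.2.2 v (Finset.notMem_empty _)).imp (path_sub s t k) (path_sub s t k)
  · refine (h.2.2 (s e) (Finset.notMem_empty _)).imp (fun h' => ?_) (fun h' => ?_)
    · refine (path_sub s t k h').trans ?_
      rw [← sS_succ s k e j]
      exact cable s t k e j.succ
    · refine (path_sub s t k h').trans ?_
      rw [← sS_succ s k e j]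
      exact cable s t k e j.succ

/-- reached in the coarse graph -/
def Rch (s t : E → V) (k : ℕ) (P : V → Prop) : V ⊕ (E × Fin k) → Prop :=
  Sum.elim P (fun p => P (s p.1) ∨ P (t p.1))

omit [Fintype V] [DecidableEq V] [Fintype E] [DecidableEq E] in
/-- paths of the subdivided graph inside a set `A` project to paths of the coarse graph -/
theorem project {s t : E → V} {k : ℕ} (A : V ⊕ (E × Fin k) → Prop) (P : V → Prop)
    (hP : ∀ e, (P (s e) → A (Sum.inl (t e)) → P (t e)) ∧ (P (t e) → A (Sum.inl (s e)) → P (s e)))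
    {x : V} (hx : P x) {z : V ⊕ (E × Fin k)}
    (h : Relation.ReflTransGen (fun a b => A a ∧ A b ∧
      ∃ p, (sS s k p = a ∧ tS t k p = b) ∨ (sS s k p = b ∧ tS t k p = a)) (Sum.inl x) z) :
    Rch s t k P z := by
  induction h with
  | refl => exact hx
  | @tail b c _ hbc ih =>
      obtain ⟨hb, hc, ⟨e, i⟩, he⟩ := hbc
      -- whatever the position, one of the two ends of the cable is reached
      have h1 : P (s e) ∨ P (t e) := by
        rcases he with ⟨h3, h4⟩ | ⟨h3, h4⟩
        · rcases sS_cases s k (e, i) with ⟨_, h'⟩ | ⟨j, _, h'⟩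
          · rw [h'] at h3
            rw [← h3] at ih
            exact Or.inl ih
          · rw [h'] at h3
            rw [← h3] at ih
            exact ih
        · rcases tS_cases t k (e, i) with ⟨_, h'⟩ | ⟨j, _, h'⟩
          · rw [h'] at h4
            rw [← h4] at ih
            exact Or.inr ih
          · rw [h'] at h4
            rw [← h4] at ih
            exact ih
      rcases he with ⟨h3, h4⟩ | ⟨h3, h4⟩
      · rcases tS_cases t k (e, i) with ⟨_, h'⟩ | ⟨j, _, h'⟩
        · rw [h'] at h4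
          rw [← h4] at hc ⊢
          exact h1.elim (fun a => (hP e).1 a hc) id
        · rw [h'] at h4
          rw [← h4]
          exact h1
      · rcases sS_cases s k (e, i) with ⟨_, h'⟩ | ⟨j, _, h'⟩
        · rw [h'] at h3
          rw [← h3] at hc ⊢
          exact h1.elim id (fun a => (hP e).2 a hc)
        · rw [h'] at h3
          rw [← h3]
          exact h1

omit [Fintype V] [DecidableEq V] [Fintype E] [DecidableEq E] in
/-- low paths of the subdivided graph project to low paths -/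
theorem project_low {s t : E → V} {k : ℕ} (H : V ⊕ (E × Fin k) → ℤ) {x : V}
    (hx : H (Sum.inl x) ≤ 0) {z : V ⊕ (E × Fin k)}
    (h : Relation.ReflTransGen (lowA (sS s k) (tS t k) H) (Sum.inl x) z) :
    Rch s t k (Relation.ReflTransGen (lowA s t fun v => H (Sum.inl v)) x) z := by
  have hlow : ∀ y, Relation.ReflTransGen (lowA s t fun v => H (Sum.inl v)) x y →
      H (Sum.inl y) ≤ 0 := by
    intro y hy
    rcases Relation.ReflTransGen.cases_tail hy with h1 | ⟨b, _, h2⟩
    · rw [h1]; exact hx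
    · exact h2.2.1
  refine project (fun a => H a ≤ 0) _ (fun e => ⟨fun h1 h2 => ?_, fun h1 h2 => ?_⟩)
    Relation.ReflTransGen.refl h
  · exact h1.tail ⟨hlow _ h1, h2, e, Or.inl ⟨rfl, rfl⟩⟩
  · exact h1.tail ⟨hlow _ h1, h2, e, Or.inr ⟨rfl, rfl⟩⟩

/-- coarse miss implies subdivided miss -/
theorem miss_sub {s t : E → V} {k : ℕ} {om op : V} {B : Finset V} {H : V ⊕ (E × Fin k) → ℤ}
    (h0 : H (Sum.inl om) = 0) (h1 : H (Sum.inl op) = 0)
    (h : Miss s t om op B fun v => H (Sum.inl v)) :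
    Miss (sS s k) (tS t k) (Sum.inl om) (Sum.inl op) (BS s t k B) H := by
  intro z hz
  have key : ∀ P : V → Prop, Rch s t k P z → ∃ v ∈ B, P v := by
    intro P hP
    rcases z with v | ⟨e, j⟩
    · exact ⟨v, inl_mem_BS.1 hz, hP⟩
    · obtain ⟨h2, h3⟩ := inr_mem_BS.1 hz
      rcases hP with h4 | h4
      · exact ⟨_, h2, h4⟩
      · exact ⟨_, h3, h4⟩
  refine ⟨fun hp => ?_, fun hp => ?_⟩
  · obtain ⟨v, hv, h2⟩ := key _ (project_low H h0.le hp)
    exact (h v hv).1 h2
  · obtain ⟨v, hv, h2⟩ := key _ (project_low H h1.le hp)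
    exact (h v hv).2 h2

end

end Vale.Agent.P159.T1.H565
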