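import Vale.Agent.P159.T1.H565.UW2e

/-!
Row UW2, set form: the unwiring inequality with the miss event of the subdivided graph, and with
the coarse miss event.
-/

namespace Vale.Agent.P159.T1.H565

open Vale.Agent.P159.T1.H254

theorem kerP_nonneg {β : ℝ} (hβ : 0 ≤ β) : ∀ (m : ℕ) (n : ℤ), 0 ≤ kerP β m n
  | 0, n => by
      unfold kerP
      split_ifs
      · exact zero_le_one
      · exact le_rfl
  | m + 1, n => by
      unfold kerP
      have h1 := kerP_nonneg hβ m n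
      have h2 := kerP_nonneg hβ m (n - 1)
      have h3 := kerP_nonneg hβ m (n + 1)
      positivity

section

variable {V E : Type} [Fintype V] [DecidableEq V] [Fintype E] [DecidableEq E]

/-- heights `0` at `om` and `op` which miss `B` -/
def QM (s t : E → V) (om op : V) (B : Finset V) (h : V → ℤ) : Prop :=
  h om = 0 ∧ h op = 0 ∧ Miss s t om op B h

theorem ZFM_eq (s t : E → V) (M : ℕ) (β : E → ℝ) (om op : V) (B : Finset V) :
    ZFM s t M β om op B = TQ s t M β (QM s t om op B) ∅ := by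
  classical
  unfold ZFM TQ
  rw [← (Equiv.arrowProdEquivProdArrow V (fun _ => Fin M) (fun _ => Bool)).symm.sum_comp,
    Fintype.sum_prod_type]
  refine Finset.sum_congr rfl fun a _ => Finset.sum_congr rfl fun σ _ => ?_
  simp only [Finset.notMem_empty, if_false]
  have key : ((a om : ℕ) = 0 ∧ (a op : ℕ) = 0 ∧ σ om = false ∧ σ op = false ∧
      Miss s t om op B (fun v => hgt (a v) (σ v))) ↔
      QM s t om op B (fun v => vl
        ((Equiv.arrowProdEquivProdArrow V (fun _ => Fin M) (fun _ => Bool)).symm (a, σ) v)) := by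
    simp only [QM, vl, Equiv.arrowProdEquivProdArrow, Equiv.coe_fn_symm_mk]
    rw [vl_eq_zero, vl_eq_zero]
    tauto
  by_cases h : (a om : ℕ) = 0 ∧ (a op : ℕ) = 0 ∧ σ om = false ∧ σ op = false ∧
      Miss s t om op B (fun v => hgt (a v) (σ v))
  · rw [if_pos h, if_pos (key.1 h)]
    rfl
  · rw [if_neg h, if_neg (fun h' => h (key.2 h'))]

theorem TQ_nonneg (s t : E → V) (M : ℕ) {β : E → ℝ} (hβ : ∀ e, 0 ≤ β e) (Q : (V → ℤ) → Prop)
    (F : Finset E) : 0 ≤ TQ s t M β Q F := by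
  classical
  unfold TQ
  refine Finset.sum_nonneg fun h _ => ?_
  split_ifs
  · refine Finset.prod_nonneg fun e _ => ?_
    split_ifs
    · exact zero_le_one
    · exact ker_nonneg (hβ e) _
  · exact le_rfl

theorem TQ_mono (s t : E → V) (M : ℕ) {β : E → ℝ} (hβ : ∀ e, 0 ≤ β e) {Q Q' : (V → ℤ) → Prop}
    (F : Finset E) (hQ : ∀ h, Q h → Q' h) : TQ s t M β Q F ≤ TQ s t M β Q' F := by
  classical
  unfold TQ
  refine Finset.sum_le_sum fun h _ => ?_
  by_cases h1 : Q fun v => vl (h v)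
  · rw [if_pos h1, if_pos (hQ _ h1)]
  · rw [if_neg h1]
    split_ifs
    · refine Finset.prod_nonneg fun e _ => ?_
      split_ifs
      · exact zero_le_one
      · exact ker_nonneg (hβ e) _
    · exact le_rfl

/-- the finite sum as the sum over all heights -/
theorem TQ_tsum (s t : E → V) (M : ℕ) (β : E → ℝ) (Q : (V → ℤ) → Prop)
    (hQ : ∀ h : V → ℤ, Q h → (∀ e, |h (t e) - h (s e)| ≤ 1) → ∀ v, -(M : ℤ) < h v ∧ h v ≤ M) :
    TQ s t M β Q ∅ = ∑' h : {h : V → ℤ // Q h}, ∏ e, ker 1 (β e) (h.1 (t e) - h.1 (s e)) := by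
  classical
  have hinj : Function.Injective (fun (c : V → R M) (v : V) => vl (c v)) := by
    intro c c' h
    funext v
    exact vl_inj (congrFun h v)
  have e1 : ∑' h : {h : V → ℤ // Q h}, ∏ e, ker 1 (β e) (h.1 (t e) - h.1 (s e)) =
      ∑' h : V → ℤ, ({h : V → ℤ | Q h}).indicator
        (fun h => ∏ e, ker 1 (β e) (h (t e) - h (s e))) h :=
    tsum_subtype {h : V → ℤ | Q h} (fun h => ∏ e, ker 1 (β e) (h (t e) - h (s e)))
  rw [e1, ← hinj.tsum_eq, tsum_fintype]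
  · unfold TQ
    refine Finset.sum_congr rfl fun c _ => ?_
    simp only [Finset.notMem_empty, if_false]
    by_cases h : Q fun v => vl (c v)
    · rw [if_pos h, Set.indicator_of_mem]
      exact h
    · rw [if_neg h, Set.indicator_of_notMem]
      exact h
  · intro h hne
    have hmem : h ∈ {h : V → ℤ | Q h} := by
      by_contra hc
      exact hne (Set.indicator_of_notMem hc _)
    rw [Function.mem_support, Set.indicator_of_mem hmem] at hne
    have hb : ∀ e, |h (t e) - h (s e)| ≤ 1 := fun e =>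
      ker_supp ((Finset.prod_ne_zero_iff.1 hne) e (Finset.mem_univ e))
    have hz : ∀ v, ∃ z : R M, vl z = h v := fun v => exists_vl (hQ h hmem hb v).1 (hQ h hmem hb v).2
    choose c hc using hz
    exact ⟨c, funext hc⟩

/-- the choice of the bound for the subdivided graph -/
theorem exists_M_sub (s t : E → V) (k : ℕ) {om op : V} (hJ : Joined s t om op ∅) :
    ∃ M0 : ℕ, ∀ M, M0 ≤ M → ∀ h : V ⊕ (E × Fin k) → ℤ, h (Sum.inl om) = 0 →
      h (Sum.inl op) = 0 → (∀ p, |h (tS t k p) - h (sS s k p)| ≤ 1) →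
        ∀ v, -(M : ℤ) < h v ∧ h v ≤ M := by
  obtain ⟨M0, _, hM⟩ := exists_M (sS s k) (tS t k) 0 (joined_sub k hJ)
  refine ⟨M0, fun M hM0 h h0 h1 hh v => ?_⟩
  obtain ⟨h2, h3⟩ := hM M hM0 h h0 (Or.inl h1) (fun p _ _ => by
    have := hh p
    push_cast
    linarith) v (Finset.notMem_empty v)
  push_cast at h2 h3
  constructor <;> omega

omit [Fintype V] [DecidableEq V] [Fintype E] [DecidableEq E] in
theorem bdd_any {s t : E → V} {k M : ℕ} {om op : V} (Q : (V → ℤ) → Prop)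
    (hQ : ∀ h, Q h → h om = 0 ∧ h op = 0)
    (hM : ∀ h : V → ℤ, h om = 0 → (h op = 0 ∨ h op = 1) →
      (∀ e, s e ∉ (∅ : Finset V) → t e ∉ (∅ : Finset V) → |h (t e) - h (s e)| ≤ k + 1) →
        ∀ v, v ∉ (∅ : Finset V) → Safe M (k + 1) (h v)) :
    Bdd s t k M ∅ Q := by
  refine ⟨fun h h' hh => ?_, fun h hQh hh => ?_⟩
  · have : h = h' := funext fun v => hh v (Finset.notMem_empty v)
    rw [this]
  · exact hM h (hQ h hQh).1 (Or.inl (hQ h hQh).2) hh

/-- sum over all coarse heights with property `Q` -/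
noncomputable def ZW (s t : E → V) (w : E → ℤ → ℝ) (Q : (V → ℤ) → Prop) : ℝ :=
  ∑' h : {h : V → ℤ // Q h}, ∏ e, w e (h.1 (t e) - h.1 (s e))

omit [Fintype V] in
theorem ZW_eq (s t : E → V) (k : ℕ) (β : E → ℝ) (Q : (V → ℤ) → Prop) :
    ZW s t (fun e => kerP (β e) (k + 1)) Q = ZQ s t k β ∅ Q := by
  unfold ZW ZQ II
  have e : ∀ h : V → ℤ, Q h ↔ (Q h ∧ ∀ v ∈ (∅ : Finset V), h v = 0) := by
    intro h
    simp
  rw [← (Equiv.subtypeEquivRight e).tsum_eq (fun h : {h : V → ℤ // Q h ∧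
    ∀ v ∈ (∅ : Finset V), h v = 0} => ∏ e, if s e ∈ (∅ : Finset V) ∨ t e ∈ (∅ : Finset V) then 1
      else kerP (β e) (k + 1) (h.1 (t e) - h.1 (s e)))]
  refine tsum_congr fun h => Finset.prod_congr rfl fun e _ => ?_
  rw [if_neg (by simp)]
  rfl

/-- a coarse observable has the same weight in the subdivided graph -/
theorem coarse_sub (s t : E → V) (k : ℕ) {β : E → ℝ} (hβ : ∀ e, 0 ≤ β e) {om op : V}
    (hJ : Joined s t om op ∅) (Q : (V → ℤ) → Prop) (hQ : ∀ h, Q h → h om = 0 ∧ h op = 0) :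
    ZW (sS s k) (tS t k) (fun p => ker 1 (β p.1)) (fun H => Q fun v => H (Sum.inl v)) =
      ZW s t (fun e => kerP (β e) (k + 1)) Q := by
  obtain ⟨M1, hM1, hA⟩ := exists_M s t k hJ
  obtain ⟨M2, hB⟩ := exists_M_sub s t k hJ
  obtain ⟨c0, _, _, hc0, hf0⟩ := fact (M := M1 + M2) (by omega) hβ (cut_empty s t k)
  have e1 := hf0 Q (bdd_any Q hQ (hA (M1 + M2) (Nat.le_add_right _ _)))
  rw [hc0 rfl, one_mul, TQ_tsum] at e1
  · rw [ZW_eq, ← e1]
    rfl
  · intro h hq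
    exact hB (M1 + M2) (Nat.le_add_left _ _) h (hQ _ hq).1 (hQ _ hq).2

theorem ZW_mono (s t : E → V) {β : E → ℝ} (hβ : ∀ e, 0 ≤ β e) {om op : V}
    (hJ : Joined s t om op ∅) {Q Q' : (V → ℤ) → Prop} (hQ : ∀ h, Q' h → h om = 0 ∧ h op = 0)
    (hQQ : ∀ h, Q h → Q' h) :
    ZW s t (fun e => ker 1 (β e)) Q ≤ ZW s t (fun e => ker 1 (β e)) Q' := by
  obtain ⟨M, _, hA⟩ := exists_M s t 0 hJ
  have hB : ∀ h : V → ℤ, Q' h → (∀ e, |h (t e) - h (s e)| ≤ 1) →
      ∀ v, -(M : ℤ) < h v ∧ h v ≤ M := by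
    intro h hq hh v
    obtain ⟨h2, h3⟩ := hA M le_rfl h (hQ h hq).1 (Or.inl (hQ h hq).2) (fun p _ _ => by
      have := hh p
      push_cast
      linarith) v (Finset.notMem_empty v)
    push_cast at h2 h3
    constructor <;> omega
  have e1 := TQ_tsum s t M β Q' hB
  have e2 := TQ_tsum s t M β Q (fun h hq => hB h (hQQ h hq))
  unfold ZW
  rw [← e1, ← e2]
  exact TQ_mono s t M hβ ∅ hQQ

theorem ZW_nonneg (s t : E → V) {β : E → ℝ} (hβ : ∀ e, 0 ≤ β e) (Q : (V → ℤ) → Prop) :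
    0 ≤ ZW s t (fun e => ker 1 (β e)) Q :=
  tsum_nonneg fun _ => Finset.prod_nonneg fun e _ => ker_nonneg (hβ e) _

/-- splitting a sum -/
theorem ZW_add (s t : E → V) {β : E → ℝ} {om op : V}
    (hJ : Joined s t om op ∅) {Q : (V → ℤ) → Prop} (hQ : ∀ h, Q h → h om = 0 ∧ h op = 0)
    (P : (V → ℤ) → Prop) :
    ZW s t (fun e => ker 1 (β e)) Q = ZW s t (fun e => ker 1 (β e)) (fun h => Q h ∧ P h) +
      ZW s t (fun e => ker 1 (β e)) (fun h => Q h ∧ ¬ P h) := by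
  classical
  obtain ⟨M, _, hA⟩ := exists_M s t 0 hJ
  have hB : ∀ h : V → ℤ, Q h → (∀ e, |h (t e) - h (s e)| ≤ 1) →
      ∀ v, -(M : ℤ) < h v ∧ h v ≤ M := by
    intro h hq hh v
    obtain ⟨h2, h3⟩ := hA M le_rfl h (hQ h hq).1 (Or.inl (hQ h hq).2) (fun p _ _ => by
      have := hh p
      push_cast
      linarith) v (Finset.notMem_empty v)
    push_cast at h2 h3
    constructor <;> omega
  have e1 := TQ_tsum s t M β Q hB
  have e2 := TQ_tsum s t M β (fun h => Q h ∧ P h) (fun h hq => hB h hq.1)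
  have e3 := TQ_tsum s t M β (fun h => Q h ∧ ¬ P h) (fun h hq => hB h hq.1)
  unfold ZW
  rw [← e1, ← e2, ← e3]
  unfold TQ
  rw [← Finset.sum_add_distrib]
  refine Finset.sum_congr rfl fun h _ => ?_
  by_cases h1 : Q fun v => vl (h v) <;> by_cases h2 : P fun v => vl (h v)
  · rw [if_pos h1, if_pos ⟨h1, h2⟩, if_neg (fun a => a.2 h2), add_zero]
  · rw [if_pos h1, if_neg (fun a => h2 a.2), if_pos ⟨h1, h2⟩, zero_add]
  · rw [if_neg h1, if_neg (fun a => h1 a.1), if_neg (fun a => h1 a.1), add_zero]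
  · rw [if_neg h1, if_neg (fun a => h1 a.1), if_neg (fun a => h1 a.1), add_zero]

/-- the unwiring inequality with the miss event of the subdivided graph -/
theorem uw2_sub (h1 : StmtUW1B) (s t : E → V) {β : E → ℝ} (hβ1 : ∀ e, 0 < β e ∧ β e ≤ 1 / 2)
    (k : ℕ) {om op : V} {B : Finset V} (hJ0 : Joined s t om op ∅) (hJB : Joined s t om op B) :
    ZM (sS s k) (tS t k) (fun p => ker 1 (β p.1)) (Sum.inl om) (Sum.inl op) (BS s t k B) *
        ZS s t (fun e => kerP (β e) (k + 1)) om op B 1 ≤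
      ZS s t (fun e => kerP (β e) (k + 1)) om op ∅ 1 *
        ZS s t (fun e => kerP (β e) (k + 1)) om op B 0 := by
  have hβ0 : ∀ e, 0 ≤ β e := fun e => (hβ1 e).1.le
  obtain ⟨M1, hM1, hA⟩ := exists_M s t k hJ0
  obtain ⟨M2, hM2, hB⟩ := exists_M s t k hJB
  obtain ⟨M3, hC⟩ := exists_M_sub s t k hJ0
  have hM : 0 < M1 + M2 + M3 := by omega
  have hA' := hA (M1 + M2 + M3) (by omega)
  have hB' := hB (M1 + M2 + M3) (by omega)
  have hC' := hC (M1 + M2 + M3) (by omega)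
  have key := h1 (V ⊕ (E × Fin k)) (E × Fin (k + 1)) (sS s k) (tS t k) (M1 + M2 + M3)
    (fun p => β p.1) (Sum.inl om) (Sum.inl op) (BS s t k B) hM (fun p => hβ1 p.1)
    (fun h => hJB.1 (inl_mem_BS.1 h)) (fun h => hJB.2.1 (inl_mem_BS.1 h))
  rw [ZFM_eq, TQ_tsum, ZF_eq, ZF_eq, ZF_eq] at key
  · obtain ⟨c0, _, _, hc0, hf0⟩ := fact hM hβ0 (cut_empty s t k)
    obtain ⟨c, _, hc, _, hf⟩ := fact hM hβ0 (cut_BS s t k B)
    have hcpos : 0 < c := hc (full_BS s t k B)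
    have e2 := hf0 (Q01 om op 1) (bdd_Q01 hJ0.1 hJ0.2.1 hA' (Or.inr rfl))
    have e3 := hf (Q01 om op 0) (bdd_Q01 hJB.1 hJB.2.1 hB' (Or.inl rfl))
    have e4 := hf (Q01 om op 1) (bdd_Q01 hJB.1 hJB.2.1 hB' (Or.inr rfl))
    rw [hc0 rfl, one_mul] at e2
    simp only [if_true, Bool.false_eq_true, if_false] at key
    change ZM (sS s k) (tS t k) (fun p => ker 1 (β p.1)) (Sum.inl om) (Sum.inl op) (BS s t k B) *
        TQ (sS s k) (tS t k) (M1 + M2 + M3) (fun p => β p.1)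
        (fun H => Q01 om op 1 fun v => H (Sum.inl v))
        (touch (sS s k) (tS t k) (BS s t k B)) ≤
        TQ (sS s k) (tS t k) (M1 + M2 + M3) (fun p => β p.1)
        (fun H => Q01 om op 1 fun v => H (Sum.inl v)) ∅ *
        TQ (sS s k) (tS t k) (M1 + M2 + M3) (fun p => β p.1)
        (fun H => Q01 om op 0 fun v => H (Sum.inl v))
        (touch (sS s k) (tS t k) (BS s t k B)) at key
    rw [e2, e3, e4, ← ZS_eq, ← ZS_eq, ← ZS_eq] at key
    have h5 : c * (ZM (sS s k) (tS t k) (fun p => ker 1 (β p.1)) (Sum.inl om) (Sum.inl op)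
        (BS s t k B) * ZS s t (fun e => kerP (β e) (k + 1)) om op B 1) ≤
        c * (ZS s t (fun e => kerP (β e) (k + 1)) om op ∅ 1 *
        ZS s t (fun e => kerP (β e) (k + 1)) om op B 0) := by
      linarith
    exact le_of_mul_le_mul_left h5 hcpos
  · intro h hq
    exact hC' h hq.1 hq.2.1

/-- the coarse miss sum is at most the subdivided one -/
theorem ZM_le_sub (s t : E → V) (k : ℕ) {β : E → ℝ} (hβ : ∀ e, 0 ≤ β e) {om op : V}
    (B : Finset V) (hJ : Joined s t om op ∅) :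
    ZM s t (fun e => kerP (β e) (k + 1)) om op B ≤
      ZM (sS s k) (tS t k) (fun p => ker 1 (β p.1)) (Sum.inl om) (Sum.inl op) (BS s t k B) := by
  have e1 := coarse_sub s t k hβ hJ (QM s t om op B) (fun h hq => ⟨hq.1, hq.2.1⟩)
  have e2 := ZW_mono (sS s k) (tS t k) (β := fun p => β p.1) (fun p => hβ p.1)
    (joined_sub k hJ) (Q := fun H => QM s t om op B fun v => H (Sum.inl v))
    (Q' := QM (sS s k) (tS t k) (Sum.inl om) (Sum.inl op) (BS s t k B))
    (fun h hq => ⟨hq.1, hq.2.1⟩) (fun H hq => ⟨hq.1, hq.2.1, miss_sub hq.1 hq.2.1 hq.2.2⟩)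
  exact e1.symm.le.trans e2

end

/-- row UW2, set form, from the finite core -/
theorem uw2B_of (h1 : StmtUW1B) : StmtUW2B := by
  intro V E _ _ _ _ s t J om op B hJ hJ0 hJB m hm hJm
  obtain ⟨k, rfl⟩ : ∃ k, m = k + 1 := ⟨m - 1, by omega⟩
  have hk : (0 : ℝ) < ((k + 1 : ℕ) : ℝ) := by exact_mod_cast hm
  have hβ1 : ∀ e, 0 < J e / (2 * ((k + 1 : ℕ) : ℝ)) ∧
      J e / (2 * ((k + 1 : ℕ) : ℝ)) ≤ 1 / 2 := by
    intro e
    refine ⟨div_pos (hJ e) (by positivity), ?_⟩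
    rw [div_le_div_iff₀ (by positivity) (by norm_num)]
    have := hJm e
    linarith
  have key := uw2_sub h1 s t hβ1 k hJ0 hJB
  have h2 := ZM_le_sub s t k (fun e => (hβ1 e).1.le) B hJ0
  have h3 : 0 ≤ ZS s t (fun e => kerP (J e / (2 * ((k + 1 : ℕ) : ℝ))) (k + 1)) om op B 1 := by
    refine tsum_nonneg fun h => Finset.prod_nonneg fun e _ => ?_
    split_ifs
    · exact zero_le_one
    · exact kerP_nonneg (hβ1 e).1.le _ _
  exact (mul_le_mul_of_nonneg_right h2 h3).trans key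

end Vale.Agent.P159.T1.H565
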