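import Vale.Agent.P159.T1.H565.UW2f
import Vale.Agent.P159.T1.H254.UW1h
import Vale.Agent.P159.T1.H254.UW1e

/-!
Rows UW2 from the proved finite cores of helper254.
-/

namespace Vale.Agent.P159.T1.H565

open Vale.Agent.P159.T1.H254

/-- row UW2, one vertex, no hypothesis -/
theorem uw2f' : StmtUW2f := uw2f uw1f

/-- row UW2, set form, no hypothesis -/
theorem uw2B : StmtUW2B := uw2B_of uw1B

end Vale.Agent.P159.T1.H565
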