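import Vale.Agent.P159.T1.H565.UW2g

/-!
Row UW2, set form: miss events of coarse vertices of the subdivided graph, transfer of flows.
-/

namespace Vale.Agent.P159.T1.H565

open Vale.Agent.P159.T1.H254

section

variable {V E : Type} [Fintype V] [DecidableEq V] [Fintype E] [DecidableEq E]

/-- the coarse vertices of `B` in the subdivided graph -/
def BI (E : Type) (k : ℕ) (B : Finset V) : Finset (V ⊕ (E × Fin k)) :=
  B.map Function.Embedding.inl

omit [Fintype V] [DecidableEq V] [Fintype E] [DecidableEq E] in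
theorem inl_mem_BI {k : ℕ} {B : Finset V} {v : V} : (Sum.inl v : V ⊕ (E × Fin k)) ∈ BI E k B ↔
    v ∈ B := by
  unfold BI
  simp

omit [Fintype V] [DecidableEq V] [Fintype E] [DecidableEq E] in
/-- a path of the subdivided graph to an interior vertex of a cable passes an end of it -/
theorem pass_end {s t : E → V} {k : ℕ} (A : V ⊕ (E × Fin k) → Prop) {x : V}
    {z : V ⊕ (E × Fin k)}
    (h : Relation.ReflTransGen (fun a b => A a ∧ A b ∧
      ∃ p, (sS s k p = a ∧ tS t k p = b) ∨ (sS s k p = b ∧ tS t k p = a)) (Sum.inl x) z) :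
    Rch s t k (fun y => Relation.ReflTransGen (fun a b => A a ∧ A b ∧
      ∃ p, (sS s k p = a ∧ tS t k p = b) ∨ (sS s k p = b ∧ tS t k p = a))
        (Sum.inl x) (Sum.inl y)) z := by
  induction h with
  | refl => exact Relation.ReflTransGen.refl
  | @tail b c hab hbc ih =>
      have hc := hab.tail hbc
      obtain ⟨_, _, ⟨e, i⟩, he⟩ := hbc
      rcases c with y | ⟨e', j'⟩
      · exact hc
      · rcases he with ⟨h3, h4⟩ | ⟨h3, h4⟩
        · rcases tS_cases t k (e, i) with ⟨_, h'⟩ | ⟨j, _, h'⟩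
          · rw [h'] at h4
            exact absurd h4 Sum.inl_ne_inr
          · rw [h'] at h4
            have h5 : (e, j) = (e', j') := Sum.inr_injective h4
            have h6 : e = e' := congrArg Prod.fst h5
            subst h6
            rcases sS_cases s k (e, i) with ⟨_, h''⟩ | ⟨j2, _, h''⟩
            · rw [h''] at h3
              rw [← h3] at hab
              exact Or.inl hab
            · rw [h''] at h3
              rw [← h3] at ih
              exact ih
        · rcases sS_cases s k (e, i) with ⟨_, h'⟩ | ⟨j, _, h'⟩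
          · rw [h'] at h3
            exact absurd h3 Sum.inl_ne_inr
          · rw [h'] at h3
            have h5 : (e, j) = (e', j') := Sum.inr_injective h3
            have h6 : e = e' := congrArg Prod.fst h5
            subst h6
            rcases tS_cases t k (e, i) with ⟨_, h''⟩ | ⟨j2, _, h''⟩
            · rw [h''] at h4
              rw [← h4] at hab
              exact Or.inr hab
            · rw [h''] at h4
              rw [← h4] at ih
              exact ih

/-- missing the coarse vertices of `B` implies missing `BS` -/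
theorem miss_inl {s t : E → V} {k : ℕ} {om op : V} {B : Finset V} {H : V ⊕ (E × Fin k) → ℤ}
    (h : Miss (sS s k) (tS t k) (Sum.inl om) (Sum.inl op) (BI E k B) H) :
    Miss (sS s k) (tS t k) (Sum.inl om) (Sum.inl op) (BS s t k B) H := by
  intro z hz
  have key : ∀ x : V, Relation.ReflTransGen (lowA (sS s k) (tS t k) H) (Sum.inl x) z →
      ∃ v ∈ B, Relation.ReflTransGen (lowA (sS s k) (tS t k) H) (Sum.inl x) (Sum.inl v) := by
    intro x hx
    have h1 := pass_end (fun a => H a ≤ 0) hx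
    rcases z with v | ⟨e, j⟩
    · exact ⟨v, inl_mem_BS.1 hz, h1⟩
    · obtain ⟨h2, h3⟩ := inr_mem_BS.1 hz
      rcases h1 with h4 | h4
      · exact ⟨_, h2, h4⟩
      · exact ⟨_, h3, h4⟩
  refine ⟨fun hp => ?_, fun hp => ?_⟩
  · obtain ⟨v, hv, h2⟩ := key _ hp
    exact (h _ (inl_mem_BI.2 hv)).1 h2
  · obtain ⟨v, hv, h2⟩ := key _ hp
    exact (h _ (inl_mem_BI.2 hv)).2 h2

/-- the unwiring inequality with the event that the coarse vertices of `B` are missed in the
subdivided graph -/
theorem uw2_sub_inl (s t : E → V) {β : E → ℝ} (hβ1 : ∀ e, 0 < β e ∧ β e ≤ 1 / 2)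
    (k : ℕ) {om op : V} {B : Finset V} (hJ0 : Joined s t om op ∅) (hJB : Joined s t om op B) :
    ZM (sS s k) (tS t k) (fun p => ker 1 (β p.1)) (Sum.inl om) (Sum.inl op) (BI E k B) *
        ZS s t (fun e => kerP (β e) (k + 1)) om op B 1 ≤
      ZS s t (fun e => kerP (β e) (k + 1)) om op ∅ 1 *
        ZS s t (fun e => kerP (β e) (k + 1)) om op B 0 := by
  have h1 : ZM (sS s k) (tS t k) (fun p => ker 1 (β p.1)) (Sum.inl om) (Sum.inl op) (BI E k B) ≤
      ZM (sS s k) (tS t k) (fun p => ker 1 (β p.1)) (Sum.inl om) (Sum.inl op) (BS s t k B) :=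
    ZW_mono (sS s k) (tS t k) (β := fun p => β p.1) (fun p => (hβ1 p.1).1.le)
      (joined_sub k hJ0)
      (Q := QM (sS s k) (tS t k) (Sum.inl om) (Sum.inl op) (BI E k B))
      (Q' := QM (sS s k) (tS t k) (Sum.inl om) (Sum.inl op) (BS s t k B))
      (fun h hq => ⟨hq.1, hq.2.1⟩) (fun H hq => ⟨hq.1, hq.2.1, miss_inl hq.2.2⟩)
  have h3 : 0 ≤ ZS s t (fun e => kerP (β e) (k + 1)) om op B 1 := by
    refine tsum_nonneg fun h => Finset.prod_nonneg fun e _ => ?_
    split_ifs
    · exact zero_le_one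
    · exact kerP_nonneg (hβ1 e).1.le _ _
  exact (mul_le_mul_of_nonneg_right h1 h3).trans (uw2_sub uw1B s t hβ1 k hJ0 hJB)

/-- `x` and `y` are neighbours inside `C` -/
def inC (s t : E → V) (C : Finset V) (x y : V) : Prop :=
  x ∈ C ∧ y ∈ C ∧ ∃ e, (s e = x ∧ t e = y) ∨ (s e = y ∧ t e = x)

/-- flow hypothesis: for every set `C` which contains `om` and `op`, is connected to them inside
and meets `B` there is a flow with sources `g` off `C` of energy at most `v` -/
def FlowHyp (s t : E → V) (om op : V) (B : Finset V) (g : V → ℝ) (c : E → ℝ) (v : ℝ) : Prop :=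
  ∀ C : Finset V, om ∈ C → op ∈ C →
    (∀ x ∈ C, Relation.ReflTransGen (inC s t C) om x ∨ Relation.ReflTransGen (inC s t C) op x) →
    (∃ x ∈ C, x ∈ B) →
    ∃ η : E → ℝ, (∀ x : V → ℝ, (∀ y ∈ C, x y = 0) →
      ∑ e, η e * (x (t e) - x (s e)) = ∑ y, g y * x y) ∧ ∑ e, c e * η e ^ 2 ≤ v

omit [Fintype V] [DecidableEq V] [Fintype E] [DecidableEq E] in
theorem tele {k : ℕ} (s t : E → V) (x : V ⊕ (E × Fin k) → ℝ) (e : E) :
    ∑ i : Fin (k + 1), (x (tS t k (e, i)) - x (sS s k (e, i))) =
      x (Sum.inl (t e)) - x (Sum.inl (s e)) := by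
  rw [Finset.sum_sub_distrib, Fin.sum_univ_castSucc, Fin.sum_univ_succ
    (fun i => x (sS s k (e, i)))]
  rw [tS_last, sS_zero]
  have h : ∑ i : Fin k, x (tS t k (e, i.castSucc)) = ∑ i : Fin k, x (sS s k (e, i.succ)) := by
    refine Finset.sum_congr rfl fun i _ => ?_
    rw [tS_castSucc, sS_succ]
  rw [h]
  ring

/-- transfer of the flow hypothesis to the subdivided graph -/
theorem flow_sub {s t : E → V} {om op : V} {B : Finset V} {g : V → ℝ} {J : E → ℝ} {v : ℝ}
    (k : ℕ) (h : FlowHyp s t om op B g J v) :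
    FlowHyp (sS s k) (tS t k) (Sum.inl om) (Sum.inl op) (BI E k B)
      (Sum.elim g fun _ => 0) (fun p => 2 * (J p.1 / (2 * ((k + 1 : ℕ) : ℝ)))) v := by
  classical
  intro C hom hop hC ⟨z, hzC, hzB⟩
  set C0 : Finset V := Finset.univ.filter fun y => (Sum.inl y : V ⊕ (E × Fin k)) ∈ C with hC0
  have hmem : ∀ y, y ∈ C0 ↔ (Sum.inl y : V ⊕ (E × Fin k)) ∈ C := by
    intro y
    rw [hC0, Finset.mem_filter]
    simp
  have hproj : ∀ a y : V, a ∈ C0 → Relation.ReflTransGen (inC (sS s k) (tS t k) C)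
      (Sum.inl a) (Sum.inl y) → Relation.ReflTransGen (inC s t C0) a y := by
    intro a y ha hp
    have hin : ∀ y, Relation.ReflTransGen (inC s t C0) a y → y ∈ C0 := by
      intro y hy
      rcases Relation.ReflTransGen.cases_tail hy with h1 | ⟨b, _, h2⟩
      · rw [h1]; exact ha
      · exact h2.2.1
    exact project (fun z => z ∈ C) (fun y => Relation.ReflTransGen (inC s t C0) a y)
      (fun e => ⟨fun h1 h2 => h1.tail ⟨hin _ h1, (hmem _).2 h2, e, Or.inl ⟨rfl, rfl⟩⟩,
        fun h1 h2 => h1.tail ⟨hin _ h1, (hmem _).2 h2, e, Or.inr ⟨rfl, rfl⟩⟩⟩)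
      Relation.ReflTransGen.refl hp
  obtain ⟨η, h1, h2⟩ := h C0 ((hmem _).2 hom) ((hmem _).2 hop) (fun y hy =>
    (hC _ ((hmem y).1 hy)).imp (hproj om y ((hmem _).2 hom)) (hproj op y ((hmem _).2 hop))) (by
      obtain ⟨b, hb, hbz⟩ := Finset.mem_map.1 hzB
      refine ⟨b, (hmem b).2 ?_, hb⟩
      rw [show (Sum.inl b : V ⊕ (E × Fin k)) = z from hbz]
      exact hzC)
  refine ⟨fun p => η p.1, fun x hx => ?_, ?_⟩
  · rw [Fintype.sum_prod_type]
    have e1 : ∀ e, ∑ i : Fin (k + 1), η e * (x (tS t k (e, i)) - x (sS s k (e, i))) =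
        η e * (x (Sum.inl (t e)) - x (Sum.inl (s e))) := by
      intro e
      rw [← Finset.mul_sum, tele]
    rw [Finset.sum_congr rfl fun e _ => e1 e, h1 (fun y => x (Sum.inl y))
      (fun y hy => hx _ ((hmem y).1 hy)), Fintype.sum_sum_type]
    simp
  · refine le_trans (le_of_eq ?_) h2
    rw [Fintype.sum_prod_type]
    refine Finset.sum_congr rfl fun e _ => ?_
    simp only
    rw [Finset.sum_const, Finset.card_univ, Fintype.card_fin, nsmul_eq_mul]
    have hk : ((k + 1 : ℕ) : ℝ) ≠ 0 := by exact_mod_cast Nat.succ_ne_zero k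
    field_simp

end

end Vale.Agent.P159.T1.H565
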