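import Vale.Agent.P159.T1.H857.UWE
import Vale.Agent.P159.T1.H565.Cheb2

/-!
The product form of the unwiring inequality without hypothesis.
-/

namespace Vale.Agent.P159.T1.H565

open Vale.Agent.P159.T1.H254 Vale.Agent.P159.T1.H857

theorem limW : StmtLimW := fun _ _ _ _ _ _ _ _ _ _ _ hJ hj =>
  ⟨fun _ hS k => lim_ZS hJ hS k, fun Q hQ => lim_ZW hJ hj 0 Q hQ⟩

/-- **the product form of the unwiring inequality** -/
theorem uwE : StmtUWE := uwE_of cheb limW

end Vale.Agent.P159.T1.H565
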