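import Vale.Agent.P159.T1.H565.Up1

/-!
Row D.UP, second part: the divergence of the tilt field, the reflected field.
-/

namespace Vale.Agent.P159.T1.H565

open Vale.Agent.P159.T1.D

theorem dv_add (B B' : Bnd → ℝ) (f : Z2) : dv (fun e => B e + B' e) f = dv B f + dv B' f := by
  unfold dv; ring

theorem dv_mul (c : ℝ) (B : Bnd → ℝ) (f : Z2) : dv (fun e => c * B e) f = c * dv B f := by
  unfold dv; ring

/-- the gradient of a function on the sites is divergence free -/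
theorem dv_gs (ψ : Z2 → ℝ) (f : Z2) : dv (gs ψ) f = 0 := by
  unfold dv gs bs bt
  simp only [if_true, Bool.false_eq_true, if_false]
  ring

theorem kf_add (q : ℕ) (c₂ c₁ a : ℝ) (e : Bnd) : kf q (c₂ + a) (c₁ + a) e = kf q c₂ c₁ e + a := by
  unfold kf
  split_ifs <;> rfl

theorem Kf_add (q : ℕ) (c₂ c₁ a : ℝ) (Γ : ℝ → ℝ) (e : Bnd) :
    Kf q (c₂ + a) (c₁ + a) Γ e = Kf q c₂ c₁ Γ e + a * gs (fun P => Γ (tau P)) e := by
  unfold Kf
  rw [kf_add]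
  ring

theorem dv_Kf_add (q : ℕ) (c₂ c₁ a : ℝ) (Γ : ℝ → ℝ) (f : Z2) :
    dv (Kf q (c₂ + a) (c₁ + a) Γ) f = dv (Kf q c₂ c₁ Γ) f := by
  have e : Kf q (c₂ + a) (c₁ + a) Γ =
      fun e => Kf q c₂ c₁ Γ e + a * gs (fun P => Γ (tau P)) e := funext fun e => Kf_add _ _ _ _ _ e
  rw [e, dv_add, dv_mul, dv_gs]
  ring

theorem mem_SB (R r : ℕ) (f : Z2) : f ∈ SB R r ↔
    (-(R : ℤ) ≤ f.1 ∧ f.1 < r + R ∧ -(R : ℤ) ≤ f.2 ∧ f.2 < R) ∧
      ¬ (f.2 = -1 ∧ (f.1 < 0 ∨ (r : ℤ) ≤ f.1)) := by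
  unfold SB
  rw [Finset.mem_filter, Finset.mem_product, Finset.mem_Ico, Finset.mem_Ico]
  constructor
  · rintro ⟨⟨⟨a, b⟩, c, d⟩, e⟩; exact ⟨⟨a, b, c, d⟩, e⟩
  · rintro ⟨⟨a, b, c, d⟩, e⟩; exact ⟨⟨⟨a, b⟩, c, d⟩, e⟩

theorem kf_out {q : ℕ} {c₂ c₁ : ℝ} {e : Bnd}
    (h : ¬ ((rt e ∈ cone q ∧ lf e ∈ cone q) ∨ (rt e ∈ cone q ∧ e.2 = false ∧ e.1.2 = -1))) :
    kf q c₂ c₁ e = c₁ := if_neg h

theorem dv_Kf_out {q : ℕ} (hq : 1 ≤ q) (c₂ c₁ : ℝ) (Γ : ℝ → ℝ) {f : Z2} (hf : f ∉ cone q)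
    (hf1 : ¬ (f.2 = -1 ∧ f.1 < 0)) : dv (Kf q c₂ c₁ Γ) f = 0 := by
  have hq' : (1 : ℤ) ≤ q := by exact_mod_cast hq
  have e1 : kf q c₂ c₁ (f, false) = c₁ := by
    refine kf_out ?_
    rintro (h | h)
    · exact hf h.2
    · obtain ⟨h1, _, h3⟩ := h
      have h4 : f.1 < 0 := by
        obtain ⟨_, h5⟩ := h1
        simp only [rt, Bool.false_eq_true, if_false] at h5
        have h3' : f.2 = -1 := h3
        nlinarith
      exact hf1 ⟨h3, h4⟩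
  have e2 : kf q c₂ c₁ ((f.1, f.2 + 1), false) = c₁ := by
    refine kf_out ?_
    have h0 : rt (((f.1, f.2 + 1), false) : Bnd) = f := (rt_eq _ f).2 (Or.inl rfl)
    rw [h0]
    rintro (h | h)
    · exact hf h.1
    · exact hf h.1
  have e3 : kf q c₂ c₁ ((f.1 + 1, f.2), true) = c₁ := by
    refine kf_out ?_
    have h0 : lf (((f.1 + 1, f.2), true) : Bnd) = f := (lf_eq _ f).2 (Or.inr rfl)
    rw [h0]
    rintro (h | h)
    · exact hf h.2
    · exact absurd h.2.1 (by simp)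
  have e4 : kf q c₂ c₁ (f, true) = c₁ := by
    refine kf_out ?_
    have h0 : rt ((f, true) : Bnd) = f := (rt_eq _ f).2 (Or.inr rfl)
    rw [h0]
    rintro (h | h)
    · exact hf h.1
    · exact hf h.1
  have h1 := dv_gs (fun P => Γ (tau P)) f
  unfold dv at h1 ⊢
  unfold Kf
  rw [e1, e2, e3, e4]
  linear_combination c₁ * h1

/-- the charges of the tilt field -/
theorem isDiv_Kf {Y V : ℝ} {q R r : ℕ} (hq : 1 ≤ q) (Γ : ℝ → ℝ) (a : ℝ) :
    IsDiv (SB R r) (Kf q (V / (Y * ang q) + a) (-(V / (Y * (2 * Real.pi - ang q))) + a) Γ)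
      (ro Y V q Γ) := by
  rw [isDiv_iff]
  intro f hf
  rw [dv_Kf_add]
  unfold ro
  by_cases h : f ∈ cone q
  · rw [if_pos h]
    rfl
  · rw [if_neg h]
    rw [mem_SB] at hf
    exact dv_Kf_out hq _ _ Γ h (fun h1 => hf.2 ⟨h1.1, Or.inl h1.2⟩)

/-- reflection of the bonds -/
def mb (r : ℕ) (e : Bnd) : Bnd :=
  if e.2 then (((r : ℤ) - e.1.1, e.1.2), true) else (((r : ℤ) - 1 - e.1.1, e.1.2), false)

/-- the reflected field -/
def mB (r : ℕ) (B : Bnd → ℝ) (e : Bnd) : ℝ := if e.2 then -B (mb r e) else B (mb r e)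

theorem mb_mb (r : ℕ) (e : Bnd) : mb r (mb r e) = e := by
  obtain ⟨⟨i, j⟩, c⟩ := e
  unfold mb
  cases c <;> simp

theorem mir_mir (r : ℕ) (f : Z2) : mir r (mir r f) = f := by
  obtain ⟨i, j⟩ := f
  unfold mir
  simp

theorem lf_mb (r : ℕ) (e : Bnd) : lf (mb r e) = if e.2 then mir r (rt e) else mir r (lf e) := by
  obtain ⟨⟨i, j⟩, c⟩ := e
  unfold mb lf rt mir
  cases c
  · simp
  · simp only [if_true, Prod.mk.injEq, and_true]
    ring

theorem rt_mb (r : ℕ) (e : Bnd) : rt (mb r e) = if e.2 then mir r (lf e) else mir r (rt e) := by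
  obtain ⟨⟨i, j⟩, c⟩ := e
  unfold mb lf rt mir
  cases c
  · simp
  · simp only [if_true, Prod.mk.injEq, and_true]
    ring

theorem dv_mB (r : ℕ) (B : Bnd → ℝ) (f : Z2) : dv (mB r B) f = dv B (mir r f) := by
  obtain ⟨i, j⟩ := f
  unfold dv mB mb mir
  simp only [if_true, Bool.false_eq_true, if_false]
  have e1 : (r : ℤ) - (i + 1) = r - 1 - i := by ring
  have e2 : (r : ℤ) - 1 - i + 1 = r - i := by ring
  rw [e1, e2]
  ring

theorem mir_mem_SB {R r : ℕ} {f : Z2} : mir r f ∈ SB R r ↔ f ∈ SB R r := by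
  rw [mem_SB, mem_SB]
  unfold mir
  simp only
  constructor <;> rintro ⟨⟨h1, h2, h3, h4⟩, h5⟩ <;>
    refine ⟨⟨by omega, by omega, by omega, by omega⟩, ?_⟩ <;> intro h6 <;> apply h5 <;>
    refine ⟨h6.1, ?_⟩ <;> omega

theorem isDiv_mB {R r : ℕ} {B : Bnd → ℝ} {ρ : Z2 → ℝ} (h : IsDiv (SB R r) B ρ) :
    IsDiv (SB R r) (mB r B) (fun f => ρ (mir r f)) := by
  rw [isDiv_iff] at h ⊢
  intro f hf
  rw [dv_mB]
  exact h _ (mir_mem_SB.2 hf)

theorem mb_mem_bd {R r : ℕ} {e : Bnd} : mb r e ∈ bd (SB R r) ↔ e ∈ bd (SB R r) := by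
  rw [mem_bd, mem_bd, lf_mb, rt_mb]
  by_cases h : e.2 = true
  · rw [if_pos h, if_pos h, mir_mem_SB, mir_mem_SB]
    exact or_comm
  · rw [if_neg h, if_neg h, mir_mem_SB, mir_mem_SB]

theorem sec_mb (R r : ℕ) (k : ℤ) (e : Bnd) :
    sec (SB R r) k (mb r e) = if e.2 then -sec (SB R r) k e else sec (SB R r) k e := by
  have h0 : (mb r e).1.2 = e.1.2 := by
    unfold mb
    split_ifs <;> rfl
  unfold sec
  rw [h0, lf_mb, rt_mb]
  by_cases h : e.2 = true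
  · simp only [if_pos h, mir_mem_SB]
    split_ifs <;> ring
  · simp only [if_neg h, mir_mem_SB]

/-- the flux of the reflected field -/
theorem Fl_mB (R r : ℕ) (B : Bnd → ℝ) (k : ℤ) :
    Fl (SB R r) (mB r B) (sec (SB R r) k) = Fl (SB R r) B (sec (SB R r) k) := by
  unfold Fl
  refine Finset.sum_nbij' (mb r) (mb r) (fun e he => mb_mem_bd.2 he) (fun e he => mb_mem_bd.2 he)
    (fun e _ => mb_mb r e) (fun e _ => mb_mb r e) (fun e _ => ?_)
  rw [sec_mb]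
  unfold mB
  by_cases h : e.2 = true
  · rw [if_pos h, if_pos h]
    push_cast
    ring
  · rw [if_neg h, if_neg h]

end Vale.Agent.P159.T1.H565
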