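import Vale.Agent.P159.T1.H565.Up2

/-!
Row D.UP, third part: the support of the tilt field and its flux through the upper lip.
-/

namespace Vale.Agent.P159.T1.H565

open Vale.Agent.P159.T1.D

/-- distance of a site from the left tip -/
noncomputable def nrm (P : Z2) : ℝ := Real.sqrt ((P.1 : ℝ) ^ 2 + (P.2 : ℝ) ^ 2)

theorem tau_eq (P : Z2) : tau P = Real.log (nrm P) := rfl

theorem abs_le_nrm (P : Z2) : |(P.1 : ℝ)| ≤ nrm P := by
  unfold nrm
  refine Real.abs_le_sqrt ?_
  nlinarith [sq_nonneg (P.2 : ℝ)]

theorem abs_le_nrm' (P : Z2) : |(P.2 : ℝ)| ≤ nrm P := by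
  unfold nrm
  refine Real.abs_le_sqrt ?_
  nlinarith [sq_nonneg (P.1 : ℝ)]

/-- the profile is constant far out -/
theorem clp_far {a A : ℝ} (hA : 0 < A) {P : Z2} (hP : A ≤ nrm P) :
    clp a A (tau P) = max (Real.log a) (Real.log A) := by
  unfold clp
  rw [tau_eq, min_eq_right (Real.log_le_log hA hP)]

/-- the profile is constant near the tip -/
theorem clp_near {a A : ℝ} (ha : 1 ≤ a) {P : Z2} (hP : nrm P ≤ a) :
    clp a A (tau P) = Real.log a := by
  unfold clp
  rw [tau_eq]
  refine max_eq_left ((min_le_left _ _).trans ?_)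
  have h0 : 0 ≤ nrm P := Real.sqrt_nonneg _
  rcases h0.eq_or_lt with h | h
  · rw [← h, Real.log_zero]
    exact Real.log_nonneg ha
  · exact Real.log_le_log h hP

/-- the tilt field vanishes far out -/
theorem Kf_far {q : ℕ} {c₂ c₁ a A : ℝ} (hA : 0 < A) {e : Bnd} (h1 : A ≤ nrm (bs e))
    (h2 : A ≤ nrm (bt e)) : Kf q c₂ c₁ (clp a A) e = 0 := by
  unfold Kf gs
  beta_reduce
  rw [clp_far hA h1, clp_far hA h2, sub_self, mul_zero]

/-- the increment of the profile -/
noncomputable def Lam (a A : ℝ) : ℝ := max (Real.log a) (Real.log A) - Real.log a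

theorem Lam_bd {n0 r : ℕ} (hn : 1 ≤ n0) (hr : 1 ≤ r) :
    |Lam n0 ((r : ℝ) / 4) - Real.log r| ≤ Real.log 4 + Real.log n0 := by
  have hn' : (1 : ℝ) ≤ n0 := by exact_mod_cast hn
  have hr' : (1 : ℝ) ≤ r := by exact_mod_cast hr
  have h0 : 0 ≤ Real.log n0 := Real.log_nonneg hn'
  have h1 : 0 ≤ Real.log r := Real.log_nonneg hr'
  have h4 : 0 ≤ Real.log 4 := Real.log_nonneg (by norm_num)
  have h2 : Real.log ((r : ℝ) / 4) = Real.log r - Real.log 4 :=
    Real.log_div (by positivity) (by norm_num)
  unfold Lam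
  rw [h2, abs_le]
  rcases le_total (Real.log n0) (Real.log r - Real.log 4) with h | h
  · rw [max_eq_right h]
    constructor <;> linarith
  · rw [max_eq_left h]
    constructor <;> linarith

theorem sum_tele (f : ℤ → ℝ) (R : ℕ) :
    ∑ t ∈ Finset.range R, (f ((t : ℤ) - R + 1) - f ((t : ℤ) - R)) = f 0 - f (-(R : ℤ)) := by
  have h := Finset.sum_range_sub (fun t : ℕ => f ((t : ℤ) - R)) R
  have e : ∀ t : ℕ, f (((t + 1 : ℕ) : ℤ) - R) = f ((t : ℤ) - R + 1) := by
    intro t
    congr 1
    push_cast
    ring
  simp only [e] at h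
  rw [h]
  congr 2
  · ring
  · push_cast
    ring

/-- the flux of the tilt field through the upper lip -/
theorem Fl_Kf {q : ℕ} {c₂ c₁ : ℝ} {n0 R r : ℕ} (hn : 1 ≤ n0) (hr : 1 ≤ r) (hR : r ≤ R) :
    Fl (SB R r) (Kf q c₂ c₁ (clp n0 ((r : ℝ) / 4))) (sec (SB R r) 1) =
      c₁ * Lam n0 ((r : ℝ) / 4) := by
  have hr0 : (0 : ℝ) < (r : ℝ) / 4 := by
    have : (1 : ℝ) ≤ r := by exact_mod_cast hr
    linarith
  have hn' : (1 : ℝ) ≤ n0 := by exact_mod_cast hn
  have hrR : (r : ℝ) ≤ R := by exact_mod_cast hR
  set Γ := clp n0 ((r : ℝ) / 4) with hΓ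
  set g : ℕ → Bnd := fun t => (((t : ℤ) - R, 0), false) with hg
  have hginj : Set.InjOn g (Finset.range R) := by
    intro t _ t' _ h
    simp only [hg, Prod.mk.injEq] at h
    have := h.1.1
    omega
  have far : ∀ P : Z2, (R : ℤ) ≤ |P.1| ∨ (R : ℤ) ≤ |P.2| ∨ (r : ℤ) ≤ |P.1| →
      (r : ℝ) / 4 ≤ nrm P := by
    intro P hP
    have h4 : (r : ℝ) / 4 ≤ r := by linarith
    rcases hP with h | h | h
    · have h1 : (R : ℝ) ≤ |(P.1 : ℝ)| := by exact_mod_cast h
      linarith [abs_le_nrm P]
    · have h1 : (R : ℝ) ≤ |(P.2 : ℝ)| := by exact_mod_cast h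
      linarith [abs_le_nrm' P]
    · have h1 : (r : ℝ) ≤ |(P.1 : ℝ)| := by exact_mod_cast h
      linarith [abs_le_nrm P]
  have hsub : (Finset.range R).image g ⊆ bd (SB R r) := by
    intro e he
    obtain ⟨t, ht, rfl⟩ := Finset.mem_image.1 he
    have ht' := Finset.mem_range.1 ht
    rw [mem_bd]
    left
    rw [mem_SB]
    simp only [hg, lf, Bool.false_eq_true, if_false]
    refine ⟨⟨by omega, by omega, by omega, by omega⟩, by omega⟩
  have hzero : ∀ e ∈ bd (SB R r), e ∉ (Finset.range R).image g →
      Kf q c₂ c₁ Γ e * ((sec (SB R r) 1 e : ℤ) : ℝ) = 0 := by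
    intro e _ hne
    by_cases hs : sec (SB R r) 1 e = 0
    · rw [hs]; simp
    · have hK : Kf q c₂ c₁ Γ e = 0 := by
        obtain ⟨⟨i, j⟩, c⟩ := e
        unfold sec at hs
        simp only at hs
        by_cases hj : 0 ≤ j
        · rw [if_pos hj] at hs
          have hxor : ¬ (lf ((i, j), c) ∈ SB R r ↔ rt ((i, j), c) ∈ SB R r) := by
            intro h
            apply hs
            by_cases h1 : lf ((i, j), c) ∈ SB R r
            · rw [if_pos h1, if_pos (h.1 h1)]; rfl
            · rw [if_neg h1, if_neg (fun h2 => h1 (h.2 h2))]; rfl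
          rw [mem_SB, mem_SB] at hxor
          cases c
          · simp only [lf, rt, Bool.false_eq_true, if_false] at hxor
            have hcase : j = R ∨ (j = 0 ∧ -(R : ℤ) ≤ i ∧ i < 0) ∨ (j = 0 ∧ (r : ℤ) ≤ i) := by
              by_contra hcon
              apply hxor
              constructor <;> rintro ⟨⟨h1, h2, h3, h4⟩, h5⟩ <;>
                refine ⟨⟨by omega, by omega, by omega, by omega⟩, by omega⟩
            rcases hcase with h | h | h
            · refine Kf_far hr0 (far _ (Or.inr (Or.inl ?_))) (far _ (Or.inr (Or.inl ?_)))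
              · simp only [bs]
                rw [h, abs_of_nonneg (by omega)]
              · simp only [bt, Bool.false_eq_true, if_false]
                rw [h, abs_of_nonneg (by omega)]
            · exfalso
              apply hne
              rw [Finset.mem_image]
              refine ⟨(i + R).toNat, Finset.mem_range.2 (by omega), ?_⟩
              simp only [hg, Prod.mk.injEq, and_true]
              exact ⟨by omega, h.1.symm⟩
            · refine Kf_far hr0 (far _ (Or.inr (Or.inr ?_))) (far _ (Or.inr (Or.inr ?_)))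
              · simp only [bs]
                rw [abs_of_nonneg (by omega)]
                exact h.2
              · simp only [bt, Bool.false_eq_true, if_false]
                rw [abs_of_nonneg (by omega)]
                omega
          · simp only [lf, rt, if_true] at hxor
            have hcase : i = -(R : ℤ) ∨ i = r + R := by
              by_contra hcon
              apply hxor
              constructor <;> rintro ⟨⟨h1, h2, h3, h4⟩, h5⟩ <;>
                refine ⟨⟨by omega, by omega, by omega, by omega⟩, by omega⟩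
            have hi : (R : ℤ) ≤ |i| := by
              rcases hcase with h | h
              · rw [h, abs_neg, abs_of_nonneg (by omega)]
              · rw [h, abs_of_nonneg (by omega)]; omega
            refine Kf_far hr0 (far _ (Or.inl ?_)) (far _ (Or.inl ?_))
            · exact hi
            · simp only [bt, if_true]; exact hi
        · rw [if_neg hj] at hs
          exact absurd rfl hs
      rw [hK, zero_mul]
  unfold Fl
  rw [← Finset.sum_subset hsub hzero, Finset.sum_image hginj]
  have hterm : ∀ t ∈ Finset.range R, Kf q c₂ c₁ Γ (g t) * ((sec (SB R r) 1 (g t) : ℤ) : ℝ) =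
      -c₁ * ((fun i : ℤ => Γ (tau (i, 0))) ((t : ℤ) - R + 1) -
        (fun i : ℤ => Γ (tau (i, 0))) ((t : ℤ) - R)) := by
    intro t ht
    have ht' := Finset.mem_range.1 ht
    have hk : kf q c₂ c₁ (g t) = c₁ := by
      refine kf_out ?_
      have h0 : ¬ rt (g t) ∈ cone q := by
        rintro ⟨h1, _⟩
        simp only [hg, rt, Bool.false_eq_true, if_false] at h1
        omega
      rintro (h | h)
      · exact h0 h.1
      · exact h0 h.1
    have hs : sec (SB R r) 1 (g t) = -1 := by
      unfold sec
      have h1 : lf (g t) ∈ SB R r := by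
        rw [mem_SB]
        simp only [hg, lf, Bool.false_eq_true, if_false]
        refine ⟨⟨by omega, by omega, by omega, by omega⟩, by omega⟩
      have h2 : rt (g t) ∉ SB R r := by
        rw [mem_SB]
        simp only [hg, rt, Bool.false_eq_true, if_false]
        intro h
        apply h.2
        refine ⟨by omega, Or.inl (by omega)⟩
      rw [if_pos h1, if_neg h2]
      simp [hg]
    rw [hs]
    unfold Kf gs
    rw [hk]
    simp only [hg, bs, bt, Bool.false_eq_true, if_false]
    push_cast
    ring
  rw [Finset.sum_congr rfl hterm, ← Finset.mul_sum,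
    sum_tele (fun i : ℤ => Γ (tau (i, 0))) R]
  have e1 : Γ (tau (0, 0)) = Real.log n0 := by
    refine clp_near hn' ?_
    unfold nrm
    simp
  have e2 : Γ (tau (-(R : ℤ), 0)) = max (Real.log n0) (Real.log ((r : ℝ) / 4)) := by
    refine clp_far hr0 (far _ (Or.inl ?_))
    simp
  simp only [e1, e2]
  unfold Lam
  ring

end Vale.Agent.P159.T1.H565
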