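import Vale.Agent.P159.T1.H565.Up3

/-!
Row D.UP, fourth part: the vertical field of the bumps.
-/

namespace Vale.Agent.P159.T1.H565

open Vale.Agent.P159.T1.D

section bump

variable {r : ℕ} {κ x y s : ℝ}

/-- the field which carries the charge of the bump vertically to the lower lip -/
noncomputable def Bb (r : ℕ) (κ x y s : ℝ) (e : Bnd) : ℝ :=
  if e.2 = false ∧ e.1.2 ≤ -1 then -∑ j ∈ Finset.Ico (-(r : ℤ)) e.1.2, bump r κ x y s (e.1.1, j)
  else 0

theorem bump_nonneg (hκ : 0 ≤ κ) (f : Z2) : 0 ≤ bump r κ x y s f := by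
  unfold bump
  positivity

theorem bump_zero {f : Z2} (h : s ^ 2 ≤ ((f.1 : ℝ) / r + x) ^ 2 + ((f.2 : ℝ) / r + y) ^ 2) :
    bump r κ x y s f = 0 := by
  unfold bump
  rw [max_eq_left (by linarith)]
  simp

theorem bump_le (hκ : 0 ≤ κ) (f : Z2) : bump r κ x y s f ≤ κ * s ^ 8 / (r : ℝ) ^ 2 := by
  unfold bump
  have h1 : max 0 (s ^ 2 - ((f.1 : ℝ) / r + x) ^ 2 - ((f.2 : ℝ) / r + y) ^ 2) ≤ s ^ 2 := by
    refine max_le (sq_nonneg s) ?_
    nlinarith [sq_nonneg ((f.1 : ℝ) / r + x), sq_nonneg ((f.2 : ℝ) / r + y)]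
  have h2 : max 0 (s ^ 2 - ((f.1 : ℝ) / r + x) ^ 2 - ((f.2 : ℝ) / r + y) ^ 2) ^ 4 ≤ s ^ 8 := by
    have := pow_le_pow_left₀ (le_max_left _ _) h1 4
    calc _ ≤ (s ^ 2) ^ 4 := this
      _ = s ^ 8 := by ring
  calc κ / (r : ℝ) ^ 2 * max 0 (s ^ 2 - ((f.1 : ℝ) / r + x) ^ 2 - ((f.2 : ℝ) / r + y) ^ 2) ^ 4
      ≤ κ / (r : ℝ) ^ 2 * s ^ 8 := mul_le_mul_of_nonneg_left h2 (by positivity)
    _ = κ * s ^ 8 / (r : ℝ) ^ 2 := by ring

/-- a column without charge -/
theorem bump_col (hs : 0 < s) {f : Z2}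
    (h : (f.1 : ℝ) / r + x ≤ -s ∨ s ≤ (f.1 : ℝ) / r + x) : bump r κ x y s f = 0 := by
  refine bump_zero ?_
  have h1 : s ^ 2 ≤ ((f.1 : ℝ) / r + x) ^ 2 := by
    rcases h with h | h
    · nlinarith
    · nlinarith
  nlinarith [sq_nonneg ((f.2 : ℝ) / r + y)]

theorem bump_row (hs : 0 < s) {f : Z2}
    (h : (f.2 : ℝ) / r + y ≤ -s ∨ s ≤ (f.2 : ℝ) / r + y) : bump r κ x y s f = 0 := by
  refine bump_zero ?_
  have h1 : s ^ 2 ≤ ((f.2 : ℝ) / r + y) ^ 2 := by
    rcases h with h | h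
    · nlinarith
    · nlinarith
  nlinarith [sq_nonneg ((f.1 : ℝ) / r + x)]

/-- the column is empty unless it is below the left slit -/
theorem bump_col' (hs : 0 < s) (hr : 1 ≤ r) (hx : s < x) (hx1 : s + x < 1) {f : Z2}
    (h : f.1 < -(r : ℤ) ∨ 0 ≤ f.1) : bump r κ x y s f = 0 := by
  have hr' : (0 : ℝ) < r := by exact_mod_cast hr
  refine bump_col hs ?_
  rcases h with h | h
  · left
    have h1 : (f.1 : ℝ) ≤ -(r : ℝ) := by exact_mod_cast h.le
    have h2 : (f.1 : ℝ) / r ≤ -1 := by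
      rw [div_le_iff₀ hr']
      linarith
    linarith
  · right
    have h1 : (0 : ℝ) ≤ (f.1 : ℝ) / r := div_nonneg (by exact_mod_cast h) hr'.le
    linarith

theorem bump_row' (hs : 0 < s) (hr : 1 ≤ r) (hy : s < y) (hy1 : s + y < 1) {f : Z2}
    (h : f.2 < -(r : ℤ) ∨ 0 ≤ f.2) : bump r κ x y s f = 0 := by
  have hr' : (0 : ℝ) < r := by exact_mod_cast hr
  refine bump_row hs ?_
  rcases h with h | h
  · left
    have h1 : (f.2 : ℝ) ≤ -(r : ℝ) := by exact_mod_cast h.le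
    have h2 : (f.2 : ℝ) / r ≤ -1 := by
      rw [div_le_iff₀ hr']
      linarith
    linarith
  · right
    have h1 : (0 : ℝ) ≤ (f.2 : ℝ) / r := div_nonneg (by exact_mod_cast h) hr'.le
    linarith

/-- the divergence of the field of the bump -/
theorem dv_Bb (hs : 0 < s) (hr : 1 ≤ r) (hx : s < x) (hx1 : s + x < 1) (hy : s < y)
    (hy1 : s + y < 1) {f : Z2} (hf : ¬ (f.2 = -1 ∧ f.1 < 0)) :
    dv (Bb r κ x y s) f = bump r κ x y s f := by
  unfold dv Bb
  simp only [true_and, Bool.true_eq_false, false_and, if_false, add_zero, sub_zero]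
  by_cases h1 : f.2 ≤ -2
  · rw [if_pos (show f.2 ≤ -1 by omega), if_pos (show f.2 + 1 ≤ -1 by omega)]
    by_cases h2 : f.2 < -(r : ℤ)
    · rw [Finset.Ico_eq_empty (by omega), Finset.Ico_eq_empty (by omega),
        bump_row' hs hr hy hy1 (Or.inl h2)]
      simp
    · have e1 : Finset.Ico (-(r : ℤ)) (f.2 + 1) = insert f.2 (Finset.Ico (-(r : ℤ)) f.2) := by
        ext j
        simp only [Finset.mem_Ico, Finset.mem_insert]
        omega
      rw [e1, Finset.sum_insert (by simp)]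
      ring
  · rw [if_neg (show ¬ f.2 + 1 ≤ -1 by omega)]
    by_cases h3 : f.2 = -1
    · have h4 : 0 ≤ f.1 := by
        by_contra h5
        exact hf ⟨h3, by omega⟩
      rw [if_pos (by omega), bump_col' hs hr hx hx1 (Or.inr h4)]
      rw [Finset.sum_eq_zero fun j _ => bump_col' (f := (f.1, j)) hs hr hx hx1 (Or.inr h4)]
      simp
    · rw [if_neg (by omega), bump_row' hs hr hy hy1 (Or.inr (by omega))]
      simp

theorem isDiv_Bb (hs : 0 < s) (hr : 1 ≤ r) (hx : s < x) (hx1 : s + x < 1) (hy : s < y)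
    (hy1 : s + y < 1) (R : ℕ) : IsDiv (SB R r) (Bb r κ x y s) (bump r κ x y s) := by
  rw [isDiv_iff]
  intro f hf
  rw [mem_SB] at hf
  exact dv_Bb hs hr hx hx1 hy hy1 fun h => hf.2 ⟨h.1, Or.inl h.2⟩

theorem Fl_Bb (U : Finset Z2) (k : ℤ) : Fl U (Bb r κ x y s) (sec U k) = 0 := by
  unfold Fl
  refine Finset.sum_eq_zero fun e _ => ?_
  unfold Bb sec
  by_cases h : e.2 = false ∧ e.1.2 ≤ -1
  · rw [if_neg (show ¬ 0 ≤ e.1.2 by have := h.2; omega)]
    simp
  · rw [if_neg h, zero_mul]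

theorem abs_Bb_le (hκ : 0 ≤ κ) (hr : 1 ≤ r) (e : Bnd) :
    |Bb r κ x y s e| ≤ κ * s ^ 8 / r := by
  have hr' : (0 : ℝ) < r := by exact_mod_cast hr
  have hM : 0 ≤ κ * s ^ 8 / r := by positivity
  unfold Bb
  by_cases h : e.2 = false ∧ e.1.2 ≤ -1
  · rw [if_pos h, abs_neg, abs_of_nonneg (Finset.sum_nonneg fun j _ => bump_nonneg hκ _)]
    calc ∑ j ∈ Finset.Ico (-(r : ℤ)) e.1.2, bump r κ x y s (e.1.1, j)
        ≤ ∑ _j ∈ Finset.Ico (-(r : ℤ)) e.1.2, κ * s ^ 8 / (r : ℝ) ^ 2 :=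
          Finset.sum_le_sum fun j _ => bump_le hκ _
      _ = ((Finset.Ico (-(r : ℤ)) e.1.2).card : ℝ) * (κ * s ^ 8 / (r : ℝ) ^ 2) := by
          rw [Finset.sum_const, nsmul_eq_mul]
      _ ≤ (r : ℝ) * (κ * s ^ 8 / (r : ℝ) ^ 2) := by
          refine mul_le_mul_of_nonneg_right ?_ (by positivity)
          have : (Finset.Ico (-(r : ℤ)) e.1.2).card ≤ r := by
            rw [Int.card_Ico]
            have := h.2
            omega
          exact_mod_cast this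
      _ = κ * s ^ 8 / r := by
          field_simp
  · rw [if_neg h, abs_zero]
    exact hM

/-- the support of the field of the bump -/
noncomputable def Sb (r : ℕ) : Finset Bnd :=
  (Finset.Ico (-(r : ℤ)) 0 ×ˢ Finset.Ico (-(r : ℤ)) 0) ×ˢ {false}

theorem Bb_supp (hs : 0 < s) (hr : 1 ≤ r) (hx : s < x) (hx1 : s + x < 1) {e : Bnd}
    (he : e ∉ Sb r) : Bb r κ x y s e = 0 := by
  obtain ⟨⟨i, j⟩, c⟩ := e
  unfold Bb
  by_cases h : c = false ∧ j ≤ -1
  · simp only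
    rw [if_pos h]
    unfold Sb at he
    rw [Finset.mem_product, Finset.mem_product, Finset.mem_Ico, Finset.mem_Ico,
      Finset.mem_singleton] at he
    simp only [h.1, and_true] at he
    by_cases hi : i < -(r : ℤ) ∨ 0 ≤ i
    · rw [Finset.sum_eq_zero fun j _ => bump_col' (f := (i, j)) hs hr hx hx1 hi]
      simp
    · have hj : j < -(r : ℤ) := by
        have := h.2
        omega
      rw [Finset.Ico_eq_empty (by omega)]
      simp
  · simp only
    rw [if_neg h]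

theorem sum_Bb_sq (hκ : 0 ≤ κ) (hs : 0 < s) (hr : 1 ≤ r) (hx : s < x) (hx1 : s + x < 1)
    (S : Finset Bnd) : ∑ e ∈ S, Bb r κ x y s e ^ 2 ≤ (κ * s ^ 8) ^ 2 := by
  have hr' : (0 : ℝ) < r := by exact_mod_cast hr
  have h1 : ∑ e ∈ S, Bb r κ x y s e ^ 2 ≤ ∑ e ∈ S ∪ Sb r, Bb r κ x y s e ^ 2 :=
    Finset.sum_le_sum_of_subset_of_nonneg Finset.subset_union_left fun _ _ _ => sq_nonneg _
  have h2 : ∑ e ∈ S ∪ Sb r, Bb r κ x y s e ^ 2 = ∑ e ∈ Sb r, Bb r κ x y s e ^ 2 := by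
    refine (Finset.sum_subset Finset.subset_union_right fun e _ he => ?_).symm
    rw [Bb_supp hs hr hx hx1 he]
    simp
  refine h1.trans (h2.le.trans ?_)
  calc ∑ e ∈ Sb r, Bb r κ x y s e ^ 2 ≤ ∑ _e ∈ Sb r, (κ * s ^ 8 / r) ^ 2 := by
        refine Finset.sum_le_sum fun e _ => ?_
        rw [← sq_abs]
        exact pow_le_pow_left₀ (abs_nonneg _) (abs_Bb_le hκ hr e) 2
    _ = ((Sb r).card : ℝ) * (κ * s ^ 8 / r) ^ 2 := by rw [Finset.sum_const, nsmul_eq_mul]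
    _ = (κ * s ^ 8) ^ 2 := by
        have : (Sb r).card = r * r := by
          unfold Sb
          rw [Finset.card_product, Finset.card_product, Int.card_Ico, Finset.card_singleton]
          simp
        rw [this]
        push_cast
        field_simp

end bump

/-! ### oscillations -/

theorem sh_inj (u : Z2) : Function.Injective (sh u) := by
  intro e e' h
  unfold sh at h
  have h1 := congrArg Prod.fst h
  have h2 := congrArg Prod.snd h
  simp only at h1 h2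
  exact Prod.ext (add_right_cancel h1) h2

theorem osc_nonneg (l : ℕ) (S : Finset Bnd) (B : Bnd → ℝ) : 0 ≤ osc l S B :=
  Finset.sum_nonneg fun _ _ => Finset.sum_nonneg fun _ _ => sq_nonneg _

/-- the oscillation is at most the energy -/
theorem osc_le_energy {l : ℕ} {S : Finset Bnd} {B : Bnd → ℝ} {M : ℝ}
    (h : ∀ S : Finset Bnd, ∑ e ∈ S, B e ^ 2 ≤ M) :
    osc l S B ≤ ((2 * l + 1) ^ 2 : ℕ) * (4 * M) := by
  unfold osc
  rw [Finset.sum_comm]
  have hc : (Finset.Icc (-(l : ℤ), -(l : ℤ)) ((l : ℤ), (l : ℤ))).card = (2 * l + 1) ^ 2 := by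
    rw [← Finset.Icc_product_Icc, Finset.card_product, Int.card_Icc]
    have : ((l : ℤ) + 1 - -(l : ℤ)).toNat = 2 * l + 1 := by omega
    rw [this, sq]
  rw [← hc, ← nsmul_eq_mul]
  refine Finset.sum_le_card_nsmul _ _ _ fun u _ => ?_
  have h1 : ∑ e ∈ S, (B (sh u e) - B e) ^ 2 ≤ ∑ e ∈ S, (2 * B (sh u e) ^ 2 + 2 * B e ^ 2) := by
    refine Finset.sum_le_sum fun e _ => ?_
    nlinarith [sq_nonneg (B (sh u e) + B e)]
  refine h1.trans ?_
  rw [Finset.sum_add_distrib, ← Finset.mul_sum, ← Finset.mul_sum]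
  have h2 : ∑ e ∈ S, B (sh u e) ^ 2 ≤ M := by
    have := h (S.image (sh u))
    rwa [Finset.sum_image fun _ _ _ _ h => sh_inj u h] at this
  linarith [h S]

theorem osc_add4 (l : ℕ) (S : Finset Bnd) (B1 B2 B3 B4 : Bnd → ℝ) :
    osc l S (fun e => B1 e + B2 e + B3 e + B4 e) ≤
      4 * (osc l S B1 + osc l S B2 + osc l S B3 + osc l S B4) := by
  unfold osc
  rw [← Finset.sum_add_distrib, ← Finset.sum_add_distrib, ← Finset.sum_add_distrib,
    Finset.mul_sum]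
  refine Finset.sum_le_sum fun e _ => ?_
  rw [← Finset.sum_add_distrib, ← Finset.sum_add_distrib, ← Finset.sum_add_distrib,
    Finset.mul_sum]
  refine Finset.sum_le_sum fun u _ => ?_
  set a := B1 (sh u e) - B1 e
  set b := B2 (sh u e) - B2 e
  set c := B3 (sh u e) - B3 e
  set d := B4 (sh u e) - B4 e
  have e1 : B1 (sh u e) + B2 (sh u e) + B3 (sh u e) + B4 (sh u e) -
      (B1 e + B2 e + B3 e + B4 e) = a + b + c + d := by ring
  rw [e1]
  nlinarith [sq_nonneg (a - b), sq_nonneg (a - c), sq_nonneg (a - d), sq_nonneg (b - c),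
    sq_nonneg (b - d), sq_nonneg (c - d)]

theorem mb_inj (r : ℕ) : Function.Injective (mb r) := fun e e' h => by
  rw [← mb_mb r e, h, mb_mb]

theorem mb_sh (r : ℕ) (u : Z2) (e : Bnd) : mb r (sh u e) = sh (-u.1, u.2) (mb r e) := by
  obtain ⟨⟨i, j⟩, c⟩ := e
  unfold mb sh
  cases c
  · simp only [Bool.false_eq_true, if_false, Prod.mk.injEq, and_true, Prod.mk_add_mk, Prod.fst_add,
      Prod.snd_add]
    ring
  · simp only [if_true, Prod.mk.injEq, and_true, Prod.mk_add_mk, Prod.fst_add,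
      Prod.snd_add]
    ring

theorem mB_sq (r : ℕ) (B : Bnd → ℝ) (u : Z2) (e : Bnd) :
    (mB r B (sh u e) - mB r B e) ^ 2 = (B (sh (-u.1, u.2) (mb r e)) - B (mb r e)) ^ 2 := by
  have h : (sh u e).2 = e.2 := rfl
  unfold mB
  rw [h, mb_sh]
  split_ifs <;> ring

theorem osc_mB (r l : ℕ) (S : Finset Bnd) (B : Bnd → ℝ) :
    osc l S (mB r B) = osc l (S.image (mb r)) B := by
  unfold osc
  rw [Finset.sum_image fun _ _ _ _ h => mb_inj r h]
  refine Finset.sum_congr rfl fun e _ => ?_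
  refine Finset.sum_nbij' (fun u => (-u.1, u.2)) (fun u => (-u.1, u.2)) (fun u hu => ?_)
    (fun u hu => ?_) (fun u _ => by simp) (fun u _ => by simp) (fun u _ => mB_sq r B u e)
  · rw [Finset.mem_Icc] at hu ⊢
    obtain ⟨⟨h1, h2⟩, h3, h4⟩ := hu
    simp only at h1 h2 h3 h4
    exact ⟨⟨by simp only; omega, h2⟩, ⟨by simp only; omega, h4⟩⟩
  · rw [Finset.mem_Icc] at hu ⊢
    obtain ⟨⟨h1, h2⟩, h3, h4⟩ := hu
    simp only at h1 h2 h3 h4
    exact ⟨⟨by simp only; omega, h2⟩, ⟨by simp only; omega, h4⟩⟩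

theorem sum_mB_sq (r : ℕ) (S : Finset Bnd) (B : Bnd → ℝ) :
    ∑ e ∈ S, mB r B e ^ 2 = ∑ e ∈ S.image (mb r), B e ^ 2 := by
  rw [Finset.sum_image fun _ _ _ _ h => mb_inj r h]
  refine Finset.sum_congr rfl fun e _ => ?_
  unfold mB
  split_ifs <;> ring

theorem abs_mB (r : ℕ) (B : Bnd → ℝ) (e : Bnd) : |mB r B e| = |B (mb r e)| := by
  unfold mB
  split_ifs
  · rw [abs_neg]
  · rfl

end Vale.Agent.P159.T1.H565
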