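import Vale.Agent.P159.T1.H565.Up5

/-!
Row D.UP, conclusion.
-/

namespace Vale.Agent.P159.T1.H565

open Vale.Agent.P159.T1.D

theorem ang_pos {q : ℕ} (hq : 1 ≤ q) : 0 < ang q := by
  unfold ang
  have : (0 : ℝ) < 1 / (q : ℝ) := by
    have : (0 : ℝ) < q := by exact_mod_cast hq
    positivity
  have h := Real.arctan_strictMono this
  rwa [Real.arctan_zero] at h

theorem ang_lt (q : ℕ) : ang q < 2 * Real.pi := by
  have h := Real.arctan_lt_pi_div_two (1 / (q : ℝ))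
  have := Real.pi_pos
  unfold ang
  linarith

/-- the algebra of the exponents -/
theorem coef_alg {Y V d : ℝ} (hY : Y ≠ 0) (hd : d ≠ 0) (hd' : 2 * Real.pi - d ≠ 0) :
    Y * ((V / (Y * d) + 1 / (2 * Real.pi * Y)) ^ 2 * d +
      (-(V / (Y * (2 * Real.pi - d))) + 1 / (2 * Real.pi * Y)) ^ 2 * (2 * Real.pi - d)) -
      2 * (-(V / (Y * (2 * Real.pi - d))) + 1 / (2 * Real.pi * Y)) =
    2 / Y * (V ^ 2 / 2 * (1 / d + 1 / (2 * Real.pi - d)) + V / (2 * Real.pi - d) -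
      1 / (4 * Real.pi)) := by
  have hpi := Real.pi_ne_zero
  field_simp
  ring

/-- the choice of the parameters -/
theorem params {Y K ε : ℝ} (hY : 0 < Y) (hK : 0 ≤ K) (hε : 0 < ε) :
    ∃ δ ε' : ℝ, 0 < δ ∧ 0 < ε' ∧ (Y + ε') * (1 + δ) * K ≤ Y * K + ε := by
  refine ⟨ε / (2 * (Y + ε) * (K + 1)), min ε (ε / (2 * (K + 1))), by positivity,
    lt_min hε (by positivity), ?_⟩
  set ε' : ℝ := min ε (ε / (2 * (K + 1))) with hε'
  have hε0 : 0 < ε' := lt_min hε (by positivity)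
  have hεε : ε' ≤ ε := min_le_left _ _
  have hεK : ε' * (K + 1) ≤ ε / 2 := by
    calc ε' * (K + 1) ≤ ε / (2 * (K + 1)) * (K + 1) :=
          mul_le_mul_of_nonneg_right (min_le_right _ _) (by positivity)
      _ = ε / 2 := by field_simp
  have h11 : (Y + ε') * (ε / (2 * (Y + ε) * (K + 1))) * K ≤ ε / 2 := by
    have e0 : 0 ≤ ε / (2 * (Y + ε) * (K + 1)) := by positivity
    have e1 : (Y + ε') * (ε / (2 * (Y + ε) * (K + 1))) ≤
        (Y + ε) * (ε / (2 * (Y + ε) * (K + 1))) :=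
      mul_le_mul_of_nonneg_right (by linarith) e0
    have e2 : (Y + ε') * (ε / (2 * (Y + ε) * (K + 1))) * K ≤
        (Y + ε) * (ε / (2 * (Y + ε) * (K + 1))) * (K + 1) :=
      mul_le_mul e1 (by linarith) hK (by positivity)
    refine e2.trans (le_of_eq ?_)
    field_simp
  have h12 : ε' * K ≤ ε / 2 := by
    have : ε' * K ≤ ε' * (K + 1) := mul_le_mul_of_nonneg_left (by linarith) hε0.le
    linarith
  nlinarith

/-- the sum of the exponents -/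
theorem exp_alg {Y K ε δ ε' c₁ lr C1 C2 C0 M2 P Λ S O q4 : ℝ} (hY : 0 < Y) (hlr : 0 ≤ lr)
    (hδ : 0 < δ) (hε' : 0 < ε') (hC0 : 0 < C0)
    (hpar : (Y + ε') * (1 + δ) * K ≤ Y * K + ε) (hL : |Λ - lr| ≤ P)
    (hS : S ≤ (1 + δ) * (2 * (K * lr + C1)) + (1 + 1 / δ) * (4 * M2))
    (hO : O ≤ 8 * C2 + 8 * (q4 * (4 * M2))) :
    -(2 * (c₁ * Λ)) + ((Y + ε') / 2 * S + C0 * O) ≤
      (Y * K - 2 * c₁) * lr + ε * lr + (2 * |c₁| * P + (Y + ε') * (1 + δ) * |C1| +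
        (Y + ε') / 2 * ((1 + 1 / δ) * (4 * M2)) + C0 * (8 * C2 + 8 * (q4 * (4 * M2)))) := by
  have h1 : -(2 * (c₁ * Λ)) ≤ -2 * c₁ * lr + 2 * |c₁| * P := by
    have h2 : -(c₁ * (Λ - lr)) ≤ |c₁| * P := by
      refine (neg_le_abs _).trans ?_
      rw [abs_mul]
      exact mul_le_mul_of_nonneg_left hL (abs_nonneg _)
    linarith
  have h3 : (Y + ε') / 2 * S ≤ (Y + ε') * (1 + δ) * (K * lr) + (Y + ε') * (1 + δ) * |C1| +
      (Y + ε') / 2 * ((1 + 1 / δ) * (4 * M2)) := by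
    have h4 : (0 : ℝ) ≤ (Y + ε') / 2 := by positivity
    have h5 := mul_le_mul_of_nonneg_left hS h4
    have h6 : 0 ≤ (Y + ε') * (1 + δ) := by positivity
    have h7 := mul_le_mul_of_nonneg_left (le_abs_self C1) h6
    have h8 : (Y + ε') / 2 * ((1 + δ) * (2 * (K * lr + C1)) + (1 + 1 / δ) * (4 * M2)) =
        (Y + ε') * (1 + δ) * (K * lr) + (Y + ε') * (1 + δ) * C1 +
        (Y + ε') / 2 * ((1 + 1 / δ) * (4 * M2)) := by ring
    linarith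
  have h8 := mul_le_mul_of_nonneg_left hO hC0.le
  have h9 := mul_le_mul_of_nonneg_right hpar hlr
  have h10 : (Y + ε') * (1 + δ) * K * lr = (Y + ε') * (1 + δ) * (K * lr) := by ring
  linarith

theorem hel_pos' {b : ℝ} (hb : bCrit ≤ b) : 0 < helicity b := by
  obtain ⟨h1, h2⟩ := H873.hel_lower H170.bCrit_pos hb
  exact lt_of_lt_of_le (one_div_pos.2 h1) h2

theorem Z_nonneg' {b : ℝ} (hb : 0 ≤ b) (U : Finset Z2) : 0 ≤ Z b U := by
  unfold Z wt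
  exact tsum_nonneg fun h => Finset.prod_nonneg fun e _ => H353.wI_nonneg hb _

/-- smallness of the field -/
theorem BB_small {q : ℕ} {c₂ c₁ η : ℝ} {n0 r n2 : ℕ} {κ x y s : ℝ} (hκ : 0 < κ) (hη : 0 < η)
    (hr : 1 ≤ r) (hn2 : 4 * (κ * s ^ 8) / η ≤ n2) (hr2 : n2 ≤ r)
    (hK : ∀ e, |Kf q c₂ c₁ (clp n0 ((r : ℝ) / 4)) e| ≤ η / 4) (e : Bnd) :
    |BB q c₂ c₁ n0 r κ x y s e| ≤ η := by
  have hr' : (0 : ℝ) < r := by exact_mod_cast hr
  have h1 := hK e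
  have h2 := hK (mb r e)
  have hb1 : κ * s ^ 8 / r ≤ η / 4 := by
    rw [div_le_div_iff₀ hr' (by norm_num)]
    have h3 : 4 * (κ * s ^ 8) ≤ (n2 : ℝ) * η := by
      rw [div_le_iff₀ hη] at hn2
      exact hn2
    have h4 : (n2 : ℝ) ≤ r := by exact_mod_cast hr2
    have h5 := mul_le_mul_of_nonneg_right h4 hη.le
    linarith
  have h3 := (abs_Bb_le (r := r) (κ := κ) (x := x) (y := y) (s := s) hκ.le hr e).trans hb1
  have h4 := (abs_Bb_le (r := r) (κ := κ) (x := x) (y := y) (s := s) hκ.le hr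
    (mb r e)).trans hb1
  rw [← abs_mB] at h2 h4
  have e1 : BB q c₂ c₁ n0 r κ x y s e = Kf q c₂ c₁ (clp n0 ((r : ℝ) / 4)) e +
    mB r (Kf q c₂ c₁ (clp n0 ((r : ℝ) / 4))) e + Bb r κ x y s e + mB r (Bb r κ x y s) e := rfl
  rw [e1]
  rw [abs_le] at h1 h2 h3 h4 ⊢
  constructor <;> linarith [h1.1, h1.2, h2.1, h2.2, h3.1, h3.2, h4.1, h4.2]

/-- **row D.UP** -/
theorem up_of (hU : StmtU) (hEN : StmtEN) (hOSC : StmtOSC) (hSUP : StmtSUP) : StmtUp := by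
  intro b V q κ x y s ε hb hV hq hε hκ hs hsy hsx hqy
  have hb0 : 0 < b := lt_of_lt_of_le H170.bCrit_pos hb
  have hY : 0 < helicity b := hel_pos' hb
  have hd0 : 0 < ang q := ang_pos hq
  have hd1 : 0 < 2 * Real.pi - ang q := by have := ang_lt q; linarith
  obtain ⟨c₂, hc₂⟩ : ∃ c₂, c₂ = V / (helicity b * ang q) + 1 / (2 * Real.pi * helicity b) :=
    ⟨_, rfl⟩
  obtain ⟨c₁, hc₁⟩ : ∃ c₁, c₁ = -(V / (helicity b * (2 * Real.pi - ang q))) +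
    1 / (2 * Real.pi * helicity b) := ⟨_, rfl⟩
  obtain ⟨K, hK⟩ : ∃ K, K = c₂ ^ 2 * ang q + c₁ ^ 2 * (2 * Real.pi - ang q) := ⟨_, rfl⟩
  have hK0 : 0 ≤ K := by rw [hK]; positivity
  have hq' : (1 : ℝ) ≤ q := by exact_mod_cast hq
  have hyx : y + s < x - s := by nlinarith
  have hxs : s < x := by linarith
  have hsx1 : s + x < 1 := by linarith
  have hsy1 : s + y < 1 := by linarith
  obtain ⟨δ, ε', hδ0, hε0, hpar⟩ := params hY hK0 hε
  obtain ⟨l, η, C0, hη, hC0, hUU⟩ := hU b ε' hb0 hε0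
  obtain ⟨n1, hn1⟩ := hSUP c₂ c₁ (η / 4) (by positivity)
  obtain ⟨n2, hn2⟩ := exists_nat_ge (4 * (κ * s ^ 8) / η)
  refine ⟨n1 + n2 + 8, fun n0 hn0 => ?_⟩
  obtain ⟨C1, hC1⟩ := hEN q c₂ c₁ n0 hq (by omega)
  obtain ⟨C2, hC2⟩ := hOSC q c₂ c₁ n0 l hq (by omega)
  refine ⟨2 * |c₁| * (Real.log 4 + Real.log n0) + (helicity b + ε') * (1 + δ) * |C1| +
    (helicity b + ε') / 2 * ((1 + 1 / δ) * (4 * (κ * s ^ 8) ^ 2)) +
    C0 * (8 * C2 + 8 * (((2 * l + 1) ^ 2 : ℕ) * (4 * (κ * s ^ 8) ^ 2))), fun A r hA hr => ?_⟩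
  have hr8 : 8 ≤ r := by omega
  have hrA : r ≤ A * r := Nat.le_mul_of_pos_left r hA
  have hr' : (8 : ℝ) ≤ r := by exact_mod_cast hr8
  have hlog : 0 ≤ Real.log r := Real.log_nonneg (by linarith)
  have hdiv : IsDiv (SB (A * r) r) (BB q c₂ c₁ n0 r κ x y s)
      (D.rho (helicity b) V q n0 r κ x y s) := by
    rw [hc₂, hc₁]
    exact isDiv_BB (n0 := n0) hq _ (by omega) hs hxs hsx1 hsy hsy1
  have hsm : ∀ e, |BB q c₂ c₁ n0 r κ x y s e| ≤ η := fun e =>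
    BB_small hκ hη (by omega) hn2 (by omega) (fun e => hn1 n0 (by omega) q r hq (by omega) e) e
  have hsupp : ∀ e, e ∉ Sbig r → BB q c₂ c₁ n0 r κ x y s e = 0 := fun e he =>
    BB_supp (by omega) hs hxs hsx1 he
  have main := hUU (SB (A * r) r) (Sbig r) (sec (SB (A * r) r) 1) _ hsupp hsm
  have hen := energy_BB (n0 := n0) (y := y) (by omega : 3 ≤ r) hκ.le hs hxs hsx1 hδ0
    (hC1 r (by omega)) (Sbig r)
  rw [← hK] at hen
  have hos := osc_BB (l := l) (n0 := n0) (y := y) (by omega : 1 ≤ r) hκ.le hs hxs hsx1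
    (hC2 r (by omega)) (Sbig r)
  have hfl : Fl (SB (A * r) r) (BB q c₂ c₁ n0 r κ x y s) (sec (SB (A * r) r) 1) =
      2 * (c₁ * Lam n0 ((r : ℝ) / 4)) := Fl_BB (by omega) (by omega) hrA
  have hfin := exp_alg (c₁ := c₁) hY hlog hδ0 hε0 hC0 hpar
    (Lam_bd (n0 := n0) (r := r) (by omega) (by omega)) hen hos
  have e1 : (helicity b * K - 2 * c₁) = 2 / helicity b * (En V q + V / (2 * Real.pi - ang q) -
      1 / (4 * Real.pi)) := by
    rw [hK, hc₂, hc₁]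
    exact coef_alg hY.ne' hd0.ne' hd1.ne'
  rw [e1] at hfin
  rw [Zs_eq hdiv 1, hfl]
  calc Real.exp (-(2 * (c₁ * Lam n0 ((r : ℝ) / 4)))) *
        ZB b (SB (A * r) r) (sec (SB (A * r) r) 1) (BB q c₂ c₁ n0 r κ x y s)
      ≤ Real.exp (-(2 * (c₁ * Lam n0 ((r : ℝ) / 4)))) *
        (Real.exp ((helicity b + ε') / 2 * ∑ e ∈ Sbig r, BB q c₂ c₁ n0 r κ x y s e ^ 2 +
          C0 * osc l (Sbig r) (BB q c₂ c₁ n0 r κ x y s)) * Z b (SB (A * r) r)) :=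
        mul_le_mul_of_nonneg_left main (Real.exp_pos _).le
    _ = Real.exp (-(2 * (c₁ * Lam n0 ((r : ℝ) / 4))) +
        ((helicity b + ε') / 2 * ∑ e ∈ Sbig r, BB q c₂ c₁ n0 r κ x y s e ^ 2 +
          C0 * osc l (Sbig r) (BB q c₂ c₁ n0 r κ x y s))) * Z b (SB (A * r) r) := by
        rw [Real.exp_add (-(2 * (c₁ * Lam n0 ((r : ℝ) / 4)))), mul_assoc]
    _ ≤ _ := by
        refine mul_le_mul_of_nonneg_right (Real.exp_le_exp.2 ?_) (Z_nonneg' hb0.le _)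
        refine hfin.trans (le_of_eq ?_)
        ring

end Vale.Agent.P159.T1.H565
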