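import Vale.Agent.P159.T1.D.Stmts

/-!
Interface of the row D.UP (upper bound in the sector `(1|0)`): the lattice sums of the tilt field.
-/

namespace Vale.Agent.P159.T1.H565

open Vale.Agent.P159.T1.D

open Classical in
/-- the coefficient: `c₂` on the bonds inside the cone and between the cone and the lower lip,
`c₁` elsewhere -/
noncomputable def kf (q : ℕ) (c₂ c₁ : ℝ) (e : Bnd) : ℝ :=
  if (rt e ∈ cone q ∧ lf e ∈ cone q) ∨ (rt e ∈ cone q ∧ e.2 = false ∧ e.1.2 = -1) then c₂ else c₁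

/-- the field with stream function `Γ (tau P)` and coefficients `c₂`, `c₁` -/
noncomputable def Kf (q : ℕ) (c₂ c₁ : ℝ) (Γ : ℝ → ℝ) (e : Bnd) : ℝ :=
  kf q c₂ c₁ e * gs (fun P => Γ (tau P)) e

theorem cf_eq (Y V : ℝ) (q : ℕ) (e : Bnd) :
    cf Y V q e = kf q (V / (Y * ang q)) (-(V / (Y * (2 * Real.pi - ang q)))) e := rfl

theorem Bf_eq (Y V : ℝ) (q : ℕ) (Γ : ℝ → ℝ) (e : Bnd) :
    Bf Y V q Γ e = Kf q (V / (Y * ang q)) (-(V / (Y * (2 * Real.pi - ang q)))) Γ e := rfl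

/-- energy of the tilt field (helper775) -/
def StmtEN : Prop :=
  ∀ (q : ℕ) (c₂ c₁ : ℝ) (n0 : ℕ), 1 ≤ q → 8 ≤ n0 → ∃ C : ℝ, ∀ r : ℕ, 1 ≤ r → ∀ S : Finset Bnd,
    ∑ e ∈ S, Kf q c₂ c₁ (clp n0 ((r : ℝ) / 4)) e ^ 2 ≤
      (c₂ ^ 2 * ang q + c₁ ^ 2 * (2 * Real.pi - ang q)) * Real.log r + C

/-- oscillation of the tilt field (helper376) -/
def StmtOSC : Prop :=
  ∀ (q : ℕ) (c₂ c₁ : ℝ) (n0 l : ℕ), 1 ≤ q → 8 ≤ n0 → ∃ C : ℝ, ∀ r : ℕ, 1 ≤ r →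
    ∀ S : Finset Bnd, osc l S (Kf q c₂ c₁ (clp n0 ((r : ℝ) / 4))) ≤ C

/-- the tilt field is small for `n0` large -/
def StmtSUP : Prop :=
  ∀ (c₂ c₁ η : ℝ), 0 < η → ∃ n1 : ℕ, ∀ n0 ≥ n1, ∀ q r : ℕ, 1 ≤ q → 1 ≤ r → ∀ e : Bnd,
    |Kf q c₂ c₁ (clp n0 ((r : ℝ) / 4)) e| ≤ η

end Vale.Agent.P159.T1.H565
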