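import Vale.Agent.P159.T1.H565.Up7

/-!
Row S.UPM: the upper bound for all sectors `(k|0)`, with additional fields of bounded energy.
-/

namespace Vale.Agent.P159.T1.H565

open Vale.Agent.P159.T1.D

theorem sec_smul (U : Finset Z2) (k : ℤ) (e : Bnd) : sec U k e = k * sec U 1 e := by
  unfold sec
  split_ifs <;> ring

theorem Fl_sec (U : Finset Z2) (B : Bnd → ℝ) (k : ℤ) :
    Fl U B (sec U k) = (k : ℝ) * Fl U B (sec U 1) := by
  unfold Fl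
  rw [Finset.mul_sum]
  refine Finset.sum_congr rfl fun e _ => ?_
  rw [sec_smul]
  push_cast
  ring

theorem Fl_add (U : Finset Z2) (m : Bnd → ℤ) (B1 B2 : Bnd → ℝ) :
    Fl U (fun e => B1 e + B2 e) m = Fl U B1 m + Fl U B2 m := by
  unfold Fl
  rw [← Finset.sum_add_distrib]
  exact Finset.sum_congr rfl fun e _ => by ring

theorem osc_add3 (l : ℕ) (S : Finset Bnd) (B1 B2 B3 : Bnd → ℝ) :
    osc l S (fun e => B1 e + B2 e + B3 e) ≤ 4 * (osc l S B1 + osc l S B2 + osc l S B3) := by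
  have h := osc_add4 l S B1 B2 B3 (fun _ => 0)
  have e1 : osc l S (fun _ => 0) = 0 := by
    unfold osc
    simp
  rw [e1, add_zero] at h
  have e2 : (fun e => B1 e + B2 e + B3 e + (fun _ : Bnd => (0 : ℝ)) e) =
      fun e => B1 e + B2 e + B3 e := by
    funext e
    simp
  rwa [e2] at h

/-- the two tilt fields with an additional field -/
noncomputable def BX (q : ℕ) (c₂ c₁ : ℝ) (n0 r : ℕ) (X : Bnd → ℝ) (e : Bnd) : ℝ :=
  Kf q c₂ c₁ (clp n0 ((r : ℝ) / 4)) e + mB r (Kf q c₂ c₁ (clp n0 ((r : ℝ) / 4))) e + X e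

theorem isDiv_BX {Y V : ℝ} {q R r n0 : ℕ} {X : Bnd → ℝ} {ρX : Z2 → ℝ} (hq : 1 ≤ q) (a : ℝ)
    (hX : IsDiv (SB R r) X ρX) :
    IsDiv (SB R r) (BX q (V / (Y * ang q) + a) (-(V / (Y * (2 * Real.pi - ang q))) + a) n0 r X)
      (fun f => ro Y V q (clp n0 ((r : ℝ) / 4)) f + ro Y V q (clp n0 ((r : ℝ) / 4)) (mir r f) +
        ρX f) := by
  rw [isDiv_iff] at hX ⊢
  intro f hf
  have h1 := isDiv_Kf (Y := Y) (V := V) (R := R) (r := r) hq (clp n0 ((r : ℝ) / 4)) a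
  have h2 := isDiv_mB h1
  rw [isDiv_iff] at h1 h2
  unfold BX
  rw [dv_add (fun e => Kf q (V / (Y * ang q) + a) (-(V / (Y * (2 * Real.pi - ang q))) + a)
    (clp n0 ((r : ℝ) / 4)) e + mB r (Kf q (V / (Y * ang q) + a)
    (-(V / (Y * (2 * Real.pi - ang q))) + a) (clp n0 ((r : ℝ) / 4))) e) X, dv_add, h1 f hf,
    h2 f hf, hX f hf]

theorem Fl_BX {q : ℕ} {c₂ c₁ : ℝ} {n0 R r : ℕ} {X : Bnd → ℝ} (hn : 1 ≤ n0) (hr : 1 ≤ r)
    (hR : r ≤ R) (k : ℤ) : Fl (SB R r) (BX q c₂ c₁ n0 r X) (sec (SB R r) k) =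
      k * (2 * (c₁ * Lam n0 ((r : ℝ) / 4)) + Fl (SB R r) X (sec (SB R r) 1)) := by
  have e : BX q c₂ c₁ n0 r X = fun e => (Kf q c₂ c₁ (clp n0 ((r : ℝ) / 4)) e +
      mB r (Kf q c₂ c₁ (clp n0 ((r : ℝ) / 4))) e) + X e := rfl
  rw [Fl_sec, e, Fl_add, Fl_add, Fl_mB, Fl_Kf hn hr hR]
  ring

/-- energy of the whole field -/
theorem energy_BX {q : ℕ} {c₂ c₁ : ℝ} {n0 r : ℕ} {X : Bnd → ℝ} (hr : 3 ≤ r) {M MX δ : ℝ}
    (hδ : 0 < δ)
    (hM : ∀ S : Finset Bnd, ∑ e ∈ S, Kf q c₂ c₁ (clp n0 ((r : ℝ) / 4)) e ^ 2 ≤ M)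
    (hX : ∀ S : Finset Bnd, ∑ e ∈ S, X e ^ 2 ≤ MX)
    (S : Finset Bnd) : ∑ e ∈ S, BX q c₂ c₁ n0 r X e ^ 2 ≤
      (1 + δ) * (2 * M) + (1 + 1 / δ) * MX := by
  set K := Kf q c₂ c₁ (clp n0 ((r : ℝ) / 4)) with hK
  have hpt : ∀ e, BX q c₂ c₁ n0 r X e ^ 2 ≤ (1 + δ) * (K e ^ 2 + mB r K e ^ 2) +
      (1 + 1 / δ) * X e ^ 2 := by
    intro e
    have h0 : K e * mB r K e = 0 := Kf_mul_mB hr e
    have e1 : BX q c₂ c₁ n0 r X e = K e + mB r K e + X e := rfl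
    rw [e1]
    set A := K e + mB r K e with hA
    have e2 : A ^ 2 = K e ^ 2 + mB r K e ^ 2 := by rw [hA]; linear_combination 2 * h0
    have h5 : 0 ≤ (1 / δ) * (δ * A - X e) ^ 2 := by positivity
    have h6 : (1 / δ) * (δ * A - X e) ^ 2 = δ * A ^ 2 - 2 * A * X e + (1 / δ) * X e ^ 2 := by
      field_simp
      ring
    rw [← e2]
    nlinarith
  refine (Finset.sum_le_sum fun e _ => hpt e).trans ?_
  rw [Finset.sum_add_distrib, ← Finset.mul_sum, ← Finset.mul_sum, Finset.sum_add_distrib,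
    sum_mB_sq]
  have h1 := hM S
  have h2 := hM (S.image (mb r))
  have h3 := hX S
  have h5 : 0 ≤ 1 + δ := by positivity
  have h6 : 0 ≤ 1 + 1 / δ := by positivity
  exact add_le_add (mul_le_mul_of_nonneg_left (by linarith) h5)
    (mul_le_mul_of_nonneg_left h3 h6)

/-- oscillation of the whole field -/
theorem osc_BX {q : ℕ} {c₂ c₁ : ℝ} {n0 r l : ℕ} {X : Bnd → ℝ} {M MX : ℝ}
    (hM : ∀ S : Finset Bnd, osc l S (Kf q c₂ c₁ (clp n0 ((r : ℝ) / 4))) ≤ M)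
    (hX : ∀ S : Finset Bnd, ∑ e ∈ S, X e ^ 2 ≤ MX)
    (S : Finset Bnd) : osc l S (BX q c₂ c₁ n0 r X) ≤
      8 * M + 4 * (((2 * l + 1) ^ 2 : ℕ) * (4 * MX)) := by
  have h0 := osc_add3 l S (Kf q c₂ c₁ (clp n0 ((r : ℝ) / 4)))
    (mB r (Kf q c₂ c₁ (clp n0 ((r : ℝ) / 4)))) X
  rw [osc_mB] at h0
  have h1 := hM S
  have h2 := hM (S.image (mb r))
  have h3 := osc_le_energy (l := l) (S := S) hX
  refine h0.trans ?_
  linarith

theorem coef_alg_k {Y V d k : ℝ} (hY : Y ≠ 0) (hd : d ≠ 0) (hd' : 2 * Real.pi - d ≠ 0) :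
    Y * ((V / (Y * d) + k / (2 * Real.pi * Y)) ^ 2 * d +
      (-(V / (Y * (2 * Real.pi - d))) + k / (2 * Real.pi * Y)) ^ 2 * (2 * Real.pi - d)) -
      2 * (k * (-(V / (Y * (2 * Real.pi - d))) + k / (2 * Real.pi * Y))) =
    2 / Y * (V ^ 2 / 2 * (1 / d + 1 / (2 * Real.pi - d)) + k * V / (2 * Real.pi - d) -
      k ^ 2 / (4 * Real.pi)) := by
  have hpi := Real.pi_ne_zero
  field_simp
  ring

/-- the sum of the exponents -/
theorem exp_alg_k {Y K ε δ ε' c₁ lr C1 C2 C0 MX F P Λ S O q4 k : ℝ} (hY : 0 < Y) (hlr : 0 ≤ lr)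
    (hδ : 0 < δ) (hε' : 0 < ε') (hC0 : 0 < C0)
    (hpar : (Y + ε') * (1 + δ) * K ≤ Y * K + ε) (hL : |Λ - lr| ≤ P) (hF : |F| ≤ MX)
    (hS : S ≤ (1 + δ) * (2 * (K * lr + C1)) + (1 + 1 / δ) * MX)
    (hO : O ≤ 8 * C2 + 4 * (q4 * (4 * MX))) :
    -(k * (2 * (c₁ * Λ) + F)) + ((Y + ε') / 2 * S + C0 * O) ≤
      (Y * K - 2 * (k * c₁)) * lr + ε * lr + (2 * |k * c₁| * P + |k| * MX +
        (Y + ε') * (1 + δ) * |C1| +
        (Y + ε') / 2 * ((1 + 1 / δ) * MX) + C0 * (8 * C2 + 4 * (q4 * (4 * MX)))) := by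
  have h1 : -(k * (2 * (c₁ * Λ))) ≤ -2 * (k * c₁) * lr + 2 * |k * c₁| * P := by
    have h2 : -(k * c₁ * (Λ - lr)) ≤ |k * c₁| * P := by
      refine (neg_le_abs _).trans ?_
      rw [abs_mul (k * c₁)]
      exact mul_le_mul_of_nonneg_left hL (abs_nonneg _)
    linarith
  have h1' : -(k * F) ≤ |k| * MX := by
    refine (neg_le_abs _).trans ?_
    rw [abs_mul]
    exact mul_le_mul_of_nonneg_left hF (abs_nonneg _)
  have h3 : (Y + ε') / 2 * S ≤ (Y + ε') * (1 + δ) * (K * lr) + (Y + ε') * (1 + δ) * |C1| +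
      (Y + ε') / 2 * ((1 + 1 / δ) * MX) := by
    have h4 : (0 : ℝ) ≤ (Y + ε') / 2 := by positivity
    have h5 := mul_le_mul_of_nonneg_left hS h4
    have h6 : 0 ≤ (Y + ε') * (1 + δ) := by positivity
    have h7 := mul_le_mul_of_nonneg_left (le_abs_self C1) h6
    have h8 : (Y + ε') / 2 * ((1 + δ) * (2 * (K * lr + C1)) + (1 + 1 / δ) * MX) =
        (Y + ε') * (1 + δ) * (K * lr) + (Y + ε') * (1 + δ) * C1 +
        (Y + ε') / 2 * ((1 + 1 / δ) * MX) := by ring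
    linarith
  have h8 := mul_le_mul_of_nonneg_left hO hC0.le
  have h9 := mul_le_mul_of_nonneg_right hpar hlr
  have h10 : (Y + ε') * (1 + δ) * K * lr = (Y + ε') * (1 + δ) * (K * lr) := by ring
  linarith

/-- **row D.UP for all sectors**, with additional fields of bounded energy -/
theorem up_gen (hU : StmtU) (b V : ℝ) (q : ℕ) (ε : ℝ) (k : ℤ) (hb : bCrit ≤ b) (hq : 1 ≤ q)
    (hε : 0 < ε) : ∃ (η : ℝ) (n1 : ℕ), 0 < η ∧ ∀ n0 ≥ n1, ∀ MX : ℝ, ∃ C : ℝ, ∀ (A r : ℕ),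
      1 ≤ A → n1 ≤ r → ∀ (X : Bnd → ℝ) (ρX : Z2 → ℝ) (SX : Finset Bnd),
      IsDiv (SB (A * r) r) X ρX → (∀ e, e ∉ SX → X e = 0) → (∀ e, |X e| ≤ η) →
      (∀ S : Finset Bnd, ∑ e ∈ S, X e ^ 2 ≤ MX) →
      |Fl (SB (A * r) r) X (sec (SB (A * r) r) 1)| ≤ MX →
      Zs b (SB (A * r) r) k (fun f => ro (helicity b) V q (clp n0 ((r : ℝ) / 4)) f +
          ro (helicity b) V q (clp n0 ((r : ℝ) / 4)) (mir r f) + ρX f) ≤
        Real.exp (2 * Real.log r / helicity b *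
          (En V q + k * V / (2 * Real.pi - ang q) - k ^ 2 / (4 * Real.pi)) + ε * Real.log r + C) *
          Z b (SB (A * r) r) := by
  have hb0 : 0 < b := lt_of_lt_of_le H170.bCrit_pos hb
  have hY : 0 < helicity b := hel_pos' hb
  have hd0 : 0 < ang q := ang_pos hq
  have hd1 : 0 < 2 * Real.pi - ang q := by have := ang_lt q; linarith
  obtain ⟨c₂, hc₂⟩ : ∃ c₂, c₂ = V / (helicity b * ang q) +
    (k : ℝ) / (2 * Real.pi * helicity b) := ⟨_, rfl⟩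
  obtain ⟨c₁, hc₁⟩ : ∃ c₁, c₁ = -(V / (helicity b * (2 * Real.pi - ang q))) +
    (k : ℝ) / (2 * Real.pi * helicity b) := ⟨_, rfl⟩
  obtain ⟨K, hK⟩ : ∃ K, K = c₂ ^ 2 * ang q + c₁ ^ 2 * (2 * Real.pi - ang q) := ⟨_, rfl⟩
  have hK0 : 0 ≤ K := by rw [hK]; positivity
  obtain ⟨δ, ε', hδ0, hε0, hpar⟩ := params hY hK0 hε
  obtain ⟨l, η, C0, hη, hC0, hUU⟩ := hU b ε' hb0 hε0
  obtain ⟨n1, hn1⟩ := H376.stmtSUP c₂ c₁ (η / 4) (by positivity)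
  refine ⟨η / 4, n1 + 8, by positivity, fun n0 hn0 MX => ?_⟩
  obtain ⟨C1, hC1⟩ := H775.stmtEN q c₂ c₁ n0 hq (by omega)
  obtain ⟨C2, hC2⟩ := H376.stmtOSC q c₂ c₁ n0 l hq (by omega)
  refine ⟨2 * |(k : ℝ) * c₁| * (Real.log 4 + Real.log n0) + |(k : ℝ)| * MX +
    (helicity b + ε') * (1 + δ) * |C1| +
    (helicity b + ε') / 2 * ((1 + 1 / δ) * MX) +
    C0 * (8 * C2 + 4 * (((2 * l + 1) ^ 2 : ℕ) * (4 * MX))),
    fun A r hA hr X ρX SX hdivX hsX hX hEX hFX => ?_⟩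
  have hr8 : 8 ≤ r := by omega
  have hrA : r ≤ A * r := Nat.le_mul_of_pos_left r hA
  have hr' : (8 : ℝ) ≤ r := by exact_mod_cast hr8
  have hlog : 0 ≤ Real.log r := Real.log_nonneg (by linarith)
  have hdiv : IsDiv (SB (A * r) r) (BX q c₂ c₁ n0 r X)
      (fun f => ro (helicity b) V q (clp n0 ((r : ℝ) / 4)) f +
          ro (helicity b) V q (clp n0 ((r : ℝ) / 4)) (mir r f) + ρX f) := by
    rw [hc₂, hc₁]
    exact isDiv_BX (n0 := n0) hq _ hdivX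
  have hK4 : ∀ e, |Kf q c₂ c₁ (clp n0 ((r : ℝ) / 4)) e| ≤ η / 4 :=
    hn1 n0 (by omega) q r hq (by omega)
  have hsm : ∀ e, |BX q c₂ c₁ n0 r X e| ≤ η := by
    intro e
    have h1 := hK4 e
    have h2 := hK4 (mb r e)
    have h3 := hX e
    rw [← abs_mB] at h2
    have e1 : BX q c₂ c₁ n0 r X e = Kf q c₂ c₁ (clp n0 ((r : ℝ) / 4)) e +
      mB r (Kf q c₂ c₁ (clp n0 ((r : ℝ) / 4))) e + X e := rfl
    rw [e1]
    rw [abs_le] at h1 h2 h3 ⊢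
    constructor <;> linarith [h1.1, h1.2, h2.1, h2.2, h3.1, h3.2]
  have hKs : ∀ e, e ∉ Sbig r → Kf q c₂ c₁ (clp n0 ((r : ℝ) / 4)) e = 0 ∧
      mB r (Kf q c₂ c₁ (clp n0 ((r : ℝ) / 4))) e = 0 := by
    intro e he
    have hbig : ¬ ((-(4 * r : ℤ) ≤ e.1.1 ∧ e.1.1 ≤ 4 * r) ∧
        (-(4 * r : ℤ) ≤ e.1.2 ∧ e.1.2 ≤ 4 * r)) := by
      intro h
      apply he
      unfold Sbig
      rw [Finset.mem_product, Finset.mem_product, Finset.mem_Icc, Finset.mem_Icc]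
      exact ⟨h, Finset.mem_univ _⟩
    have h1 : ¬ (|e.1.1| ≤ (r : ℤ) ∧ |e.1.2| ≤ (r : ℤ)) := by
      rintro ⟨h1, h2⟩
      rw [abs_le] at h1 h2
      apply hbig
      omega
    have h2 : ¬ (|(mb r e).1.1| ≤ (r : ℤ) ∧ |(mb r e).1.2| ≤ (r : ℤ)) := by
      rintro ⟨h1, h2⟩
      rw [abs_le] at h1 h2
      apply hbig
      unfold mb at h1 h2
      split_ifs at h1 h2 <;> simp only at h1 h2 <;> omega
    refine ⟨Kf_small (by omega) h1, ?_⟩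
    have := abs_mB r (Kf q c₂ c₁ (clp n0 ((r : ℝ) / 4))) e
    rw [Kf_small (by omega) h2, abs_zero] at this
    exact abs_eq_zero.1 this
  have hsupp : ∀ e, e ∉ Sbig r ∪ SX → BX q c₂ c₁ n0 r X e = 0 := by
    intro e he
    rw [Finset.mem_union, not_or] at he
    unfold BX
    rw [(hKs e he.1).1, (hKs e he.1).2, hsX e he.2]
    ring
  have main := hUU (SB (A * r) r) (Sbig r ∪ SX) (sec (SB (A * r) r) k) _ hsupp hsm
  have hen := energy_BX (n0 := n0) (X := X) (by omega : 3 ≤ r) hδ0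
    (hC1 r (by omega)) hEX (Sbig r ∪ SX)
  rw [← hK] at hen
  have hos := osc_BX (l := l) (n0 := n0) (X := X) (hC2 r (by omega)) hEX (Sbig r ∪ SX)
  have hfl : Fl (SB (A * r) r) (BX q c₂ c₁ n0 r X) (sec (SB (A * r) r) k) =
      k * (2 * (c₁ * Lam n0 ((r : ℝ) / 4)) + Fl (SB (A * r) r) X (sec (SB (A * r) r) 1)) :=
    Fl_BX (by omega) (by omega) hrA k
  have hfin := exp_alg_k (c₁ := c₁) (k := (k : ℝ)) hY hlog hδ0 hε0 hC0 hpar
    (Lam_bd (n0 := n0) (r := r) (by omega) (by omega)) hFX hen hos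
  have e1 : (helicity b * K - 2 * ((k : ℝ) * c₁)) = 2 / helicity b * (En V q +
      k * V / (2 * Real.pi - ang q) - (k : ℝ) ^ 2 / (4 * Real.pi)) := by
    rw [hK, hc₂, hc₁]
    exact coef_alg_k hY.ne' hd0.ne' hd1.ne'
  rw [e1] at hfin
  rw [Zs_eq hdiv k, hfl]
  calc Real.exp (-(k * (2 * (c₁ * Lam n0 ((r : ℝ) / 4)) +
          Fl (SB (A * r) r) X (sec (SB (A * r) r) 1)))) *
        ZB b (SB (A * r) r) (sec (SB (A * r) r) k) (BX q c₂ c₁ n0 r X)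
      ≤ Real.exp (-(k * (2 * (c₁ * Lam n0 ((r : ℝ) / 4)) +
          Fl (SB (A * r) r) X (sec (SB (A * r) r) 1)))) *
        (Real.exp ((helicity b + ε') / 2 * ∑ e ∈ Sbig r ∪ SX, BX q c₂ c₁ n0 r X e ^ 2 +
          C0 * osc l (Sbig r ∪ SX) (BX q c₂ c₁ n0 r X)) * Z b (SB (A * r) r)) :=
        mul_le_mul_of_nonneg_left main (Real.exp_pos _).le
    _ = Real.exp (-(k * (2 * (c₁ * Lam n0 ((r : ℝ) / 4)) +
          Fl (SB (A * r) r) X (sec (SB (A * r) r) 1))) +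
        ((helicity b + ε') / 2 * ∑ e ∈ Sbig r ∪ SX, BX q c₂ c₁ n0 r X e ^ 2 +
          C0 * osc l (Sbig r ∪ SX) (BX q c₂ c₁ n0 r X))) * Z b (SB (A * r) r) := by
        rw [Real.exp_add (-(k * (2 * (c₁ * Lam n0 ((r : ℝ) / 4)) +
          Fl (SB (A * r) r) X (sec (SB (A * r) r) 1)))), mul_assoc]
    _ ≤ _ := by
        refine mul_le_mul_of_nonneg_right (Real.exp_le_exp.2 ?_) (Z_nonneg' hb0.le _)
        refine hfin.trans (le_of_eq ?_)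
        ring

end Vale.Agent.P159.T1.H565
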