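import Vale.Agent.P159.T1.H565.Upm1

/-!
Row S.UPM: the upper bound for all sectors `(k|0)` with the charges `rho`.
-/

namespace Vale.Agent.P159.T1.H565

open Vale.Agent.P159.T1.D

/-- the two bumps have bounded energy -/
theorem energy_Bb2 {r : ℕ} {κ x y s : ℝ} (hr : 1 ≤ r) (hκ : 0 ≤ κ)
    (hs : 0 < s) (hx : s < x) (hx1 : s + x < 1) (S : Finset Bnd) :
    ∑ e ∈ S, (Bb r κ x y s e + mB r (Bb r κ x y s) e) ^ 2 ≤ 4 * (κ * s ^ 8) ^ 2 := by
  have hpt : ∀ e, (Bb r κ x y s e + mB r (Bb r κ x y s) e) ^ 2 ≤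
      2 * Bb r κ x y s e ^ 2 + 2 * mB r (Bb r κ x y s) e ^ 2 := by
    intro e
    nlinarith [sq_nonneg (Bb r κ x y s e - mB r (Bb r κ x y s) e)]
  refine (Finset.sum_le_sum fun e _ => hpt e).trans ?_
  rw [Finset.sum_add_distrib, ← Finset.mul_sum, ← Finset.mul_sum, sum_mB_sq]
  have h3 := sum_Bb_sq (y := y) hκ hs hr hx hx1 S
  have h4 := sum_Bb_sq (y := y) hκ hs hr hx hx1 (S.image (mb r))
  linarith

/-- **row D.UP for all sectors** -/
theorem up_k (hU : StmtU) (k : ℤ) :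
    ∀ (b V : ℝ) (q : ℕ) (κ x y s ε : ℝ), bCrit ≤ b → 1 ≤ q → 0 < ε → 0 < κ → 0 < s →
    s < y → s + x < 1 / 4 → (q : ℝ) * (y + s) < x - s →
    ∃ n1 : ℕ, ∀ n0 ≥ n1, ∃ C : ℝ, ∀ (A r : ℕ), 1 ≤ A → n1 ≤ r →
      Zs b (SB (A * r) r) k (D.rho (helicity b) V q n0 r κ x y s) ≤
        Real.exp (2 * Real.log r / helicity b *
          (En V q + k * V / (2 * Real.pi - ang q) - k ^ 2 / (4 * Real.pi)) +
          ε * Real.log r + C) * Z b (SB (A * r) r) := by
  intro b V q κ x y s ε hb hq hε hκ hs hsy hsx hqy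
  have hq' : (1 : ℝ) ≤ q := by exact_mod_cast hq
  have hyx : y + s < x - s := by nlinarith
  have hxs : s < x := by linarith
  have hsx1 : s + x < 1 := by linarith
  have hsy1 : s + y < 1 := by linarith
  obtain ⟨η, n1, hη, hmain⟩ := up_gen hU b V q ε k hb hq hε
  obtain ⟨n2, hn2⟩ := exists_nat_ge (2 * (κ * s ^ 8) / η)
  refine ⟨n1 + n2 + 1, fun n0 hn0 => ?_⟩
  obtain ⟨C, hC⟩ := hmain n0 (by omega) (4 * (κ * s ^ 8) ^ 2)
  refine ⟨C, fun A r hA hr => ?_⟩
  have hr1 : 1 ≤ r := by omega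
  have hr' : (0 : ℝ) < r := by exact_mod_cast hr1
  have hdiv : IsDiv (SB (A * r) r) (fun e => Bb r κ x y s e + mB r (Bb r κ x y s) e)
      (fun f => bump r κ x y s f + bump r κ x y s (mir r f)) := by
    have h3 := isDiv_Bb (κ := κ) hs hr1 hxs hsx1 hsy hsy1 (A * r)
    have h4 := isDiv_mB h3
    rw [isDiv_iff] at h3 h4 ⊢
    intro f hf
    rw [dv_add, h3 f hf, h4 f hf]
  have hb1 : κ * s ^ 8 / r ≤ η / 2 := by
    rw [div_le_div_iff₀ hr' (by norm_num)]
    have h3 : 2 * (κ * s ^ 8) ≤ (n2 : ℝ) * η := by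
      rw [div_le_iff₀ hη] at hn2
      exact hn2
    have h4 : (n2 : ℝ) ≤ r := by exact_mod_cast (by omega : n2 ≤ r)
    have h5 := mul_le_mul_of_nonneg_right h4 hη.le
    linarith
  have hsm : ∀ e, |Bb r κ x y s e + mB r (Bb r κ x y s) e| ≤ η := by
    intro e
    have h3 := (abs_Bb_le (r := r) (κ := κ) (x := x) (y := y) (s := s) hκ.le hr1 e).trans hb1
    have h4 := (abs_Bb_le (r := r) (κ := κ) (x := x) (y := y) (s := s) hκ.le hr1
      (mb r e)).trans hb1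
    rw [← abs_mB] at h4
    rw [abs_le] at h3 h4 ⊢
    constructor <;> linarith [h3.1, h3.2, h4.1, h4.2]
  have hsupp : ∀ e, e ∉ Sbig r → Bb r κ x y s e + mB r (Bb r κ x y s) e = 0 := by
    intro e he
    have hbig : ¬ ((-(4 * r : ℤ) ≤ e.1.1 ∧ e.1.1 ≤ 4 * r) ∧
        (-(4 * r : ℤ) ≤ e.1.2 ∧ e.1.2 ≤ 4 * r)) := by
      intro h
      apply he
      unfold Sbig
      rw [Finset.mem_product, Finset.mem_product, Finset.mem_Icc, Finset.mem_Icc]
      exact ⟨h, Finset.mem_univ _⟩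
    have h3 : e ∉ Sb r := by
      unfold Sb
      rw [Finset.mem_product, Finset.mem_product, Finset.mem_Ico, Finset.mem_Ico]
      rintro ⟨⟨a, b⟩, _⟩
      apply hbig
      omega
    have h4 : mb r e ∉ Sb r := by
      unfold Sb
      rw [Finset.mem_product, Finset.mem_product, Finset.mem_Ico, Finset.mem_Ico]
      rintro ⟨⟨a, b⟩, _⟩
      apply hbig
      unfold mb at a b
      split_ifs at a b <;> simp only at a b <;> omega
    have e2 : mB r (Bb r κ x y s) e = 0 := by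
      have := abs_mB r (Bb r κ x y s) e
      rw [Bb_supp hs hr1 hxs hsx1 h4, abs_zero] at this
      exact abs_eq_zero.1 this
    rw [e2, Bb_supp hs hr1 hxs hsx1 h3]
    ring
  have hfl : |Fl (SB (A * r) r) (fun e => Bb r κ x y s e + mB r (Bb r κ x y s) e)
      (sec (SB (A * r) r) 1)| ≤ 4 * (κ * s ^ 8) ^ 2 := by
    rw [Fl_add, Fl_mB, Fl_Bb]
    simp only [add_zero, abs_zero]
    positivity
  have h := hC A r hA (by omega) _ _ (Sbig r) hdiv hsupp hsm
    (energy_Bb2 hr1 hκ.le hs hxs hsx1) hfl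
  have e0 : D.rho (helicity b) V q n0 r κ x y s =
      fun f => ro (helicity b) V q (clp n0 ((r : ℝ) / 4)) f +
          ro (helicity b) V q (clp n0 ((r : ℝ) / 4)) (mir r f) +
          (bump r κ x y s f + bump r κ x y s (mir r f)) := by
    funext f
    unfold D.rho
    ring
  rw [e0]
  exact h

end Vale.Agent.P159.T1.H565
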