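import Vale.Agent.P159.T1.H565.Upm4

/-!
Row S.UPM: charges with a second window.
-/

namespace Vale.Agent.P159.T1.H565

open Vale.Agent.P159.T1.D

/-- the flux through the upper lip, any profile which is constant far out -/
theorem Fl_KfG {q : ℕ} {c₂ c₁ : ℝ} {R r : ℕ} {Γ : ℝ → ℝ} {Gi : ℝ} (hr : 1 ≤ r) (hR : r ≤ R)
    (hΓ : ∀ P : Z2, (r : ℝ) / 4 ≤ nrm P → Γ (D.tau P) = Gi) :
    Fl (SB R r) (Kf q c₂ c₁ Γ) (sec (SB R r) 1) = c₁ * (Gi - Γ (D.tau (0, 0))) := by
  have hr0 : (0 : ℝ) < (r : ℝ) / 4 := by
    have : (1 : ℝ) ≤ r := by exact_mod_cast hr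
    linarith
  have hrR : (r : ℝ) ≤ R := by exact_mod_cast hR
  have Kz : ∀ e : Bnd, (r : ℝ) / 4 ≤ nrm (bs e) → (r : ℝ) / 4 ≤ nrm (bt e) →
      Kf q c₂ c₁ Γ e = 0 := by
    intro e h1 h2
    unfold Kf gs
    beta_reduce
    rw [hΓ _ h1, hΓ _ h2, sub_self, mul_zero]
  set g : ℕ → Bnd := fun t => (((t : ℤ) - R, 0), false) with hg
  have hginj : Set.InjOn g (Finset.range R) := by
    intro t _ t' _ h
    simp only [hg, Prod.mk.injEq] at h
    have := h.1.1
    omega
  have far : ∀ P : Z2, (R : ℤ) ≤ |P.1| ∨ (R : ℤ) ≤ |P.2| ∨ (r : ℤ) ≤ |P.1| →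
      (r : ℝ) / 4 ≤ nrm P := by
    intro P hP
    have h4 : (r : ℝ) / 4 ≤ r := by linarith
    rcases hP with h | h | h
    · have h1 : (R : ℝ) ≤ |(P.1 : ℝ)| := by exact_mod_cast h
      linarith [abs_le_nrm P]
    · have h1 : (R : ℝ) ≤ |(P.2 : ℝ)| := by exact_mod_cast h
      linarith [abs_le_nrm' P]
    · have h1 : (r : ℝ) ≤ |(P.1 : ℝ)| := by exact_mod_cast h
      linarith [abs_le_nrm P]
  have hsub : (Finset.range R).image g ⊆ bd (SB R r) := by
    intro e he
    obtain ⟨t, ht, rfl⟩ := Finset.mem_image.1 he
    have ht' := Finset.mem_range.1 ht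
    rw [mem_bd]
    left
    rw [mem_SB]
    simp only [hg, lf, Bool.false_eq_true, if_false]
    refine ⟨⟨by omega, by omega, by omega, by omega⟩, by omega⟩
  have hzero : ∀ e ∈ bd (SB R r), e ∉ (Finset.range R).image g →
      Kf q c₂ c₁ Γ e * ((sec (SB R r) 1 e : ℤ) : ℝ) = 0 := by
    intro e _ hne
    by_cases hs : sec (SB R r) 1 e = 0
    · rw [hs]; simp
    · have hK : Kf q c₂ c₁ Γ e = 0 := by
        obtain ⟨⟨i, j⟩, c⟩ := e
        unfold sec at hs
        simp only at hs
        by_cases hj : 0 ≤ j
        · rw [if_pos hj] at hs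
          have hxor : ¬ (lf ((i, j), c) ∈ SB R r ↔ rt ((i, j), c) ∈ SB R r) := by
            intro h
            apply hs
            by_cases h1 : lf ((i, j), c) ∈ SB R r
            · rw [if_pos h1, if_pos (h.1 h1)]; rfl
            · rw [if_neg h1, if_neg (fun h2 => h1 (h.2 h2))]; rfl
          rw [mem_SB, mem_SB] at hxor
          cases c
          · simp only [lf, rt, Bool.false_eq_true, if_false] at hxor
            have hcase : j = R ∨ (j = 0 ∧ -(R : ℤ) ≤ i ∧ i < 0) ∨ (j = 0 ∧ (r : ℤ) ≤ i) := by
              by_contra hcon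
              apply hxor
              constructor <;> rintro ⟨⟨h1, h2, h3, h4⟩, h5⟩ <;>
                refine ⟨⟨by omega, by omega, by omega, by omega⟩, by omega⟩
            rcases hcase with h | h | h
            · refine Kz _ (far _ (Or.inr (Or.inl ?_))) (far _ (Or.inr (Or.inl ?_)))
              · simp only [bs]
                rw [h, abs_of_nonneg (by omega)]
              · simp only [bt, Bool.false_eq_true, if_false]
                rw [h, abs_of_nonneg (by omega)]
            · exfalso
              apply hne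
              rw [Finset.mem_image]
              refine ⟨(i + R).toNat, Finset.mem_range.2 (by omega), ?_⟩
              simp only [hg, Prod.mk.injEq, and_true]
              exact ⟨by omega, h.1.symm⟩
            · refine Kz _ (far _ (Or.inr (Or.inr ?_))) (far _ (Or.inr (Or.inr ?_)))
              · simp only [bs]
                rw [abs_of_nonneg (by omega)]
                exact h.2
              · simp only [bt, Bool.false_eq_true, if_false]
                rw [abs_of_nonneg (by omega)]
                omega
          · simp only [lf, rt, if_true] at hxor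
            have hcase : i = -(R : ℤ) ∨ i = r + R := by
              by_contra hcon
              apply hxor
              constructor <;> rintro ⟨⟨h1, h2, h3, h4⟩, h5⟩ <;>
                refine ⟨⟨by omega, by omega, by omega, by omega⟩, by omega⟩
            have hi : (R : ℤ) ≤ |i| := by
              rcases hcase with h | h
              · rw [h, abs_neg, abs_of_nonneg (by omega)]
              · rw [h, abs_of_nonneg (by omega)]; omega
            refine Kz _ (far _ (Or.inl ?_)) (far _ (Or.inl ?_))
            · exact hi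
            · simp only [bt, if_true]; exact hi
        · rw [if_neg hj] at hs
          exact absurd rfl hs
      rw [hK, zero_mul]
  unfold Fl
  rw [← Finset.sum_subset hsub hzero, Finset.sum_image hginj]
  have hterm : ∀ t ∈ Finset.range R, Kf q c₂ c₁ Γ (g t) * ((sec (SB R r) 1 (g t) : ℤ) : ℝ) =
      -c₁ * ((fun i : ℤ => Γ (D.tau (i, 0))) ((t : ℤ) - R + 1) -
        (fun i : ℤ => Γ (D.tau (i, 0))) ((t : ℤ) - R)) := by
    intro t ht
    have ht' := Finset.mem_range.1 ht
    have hk : kf q c₂ c₁ (g t) = c₁ := by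
      refine kf_out ?_
      have h0 : ¬ rt (g t) ∈ cone q := by
        rintro ⟨h1, _⟩
        simp only [hg, rt, Bool.false_eq_true, if_false] at h1
        omega
      rintro (h | h)
      · exact h0 h.1
      · exact h0 h.1
    have hs : sec (SB R r) 1 (g t) = -1 := by
      unfold sec
      have h1 : lf (g t) ∈ SB R r := by
        rw [mem_SB]
        simp only [hg, lf, Bool.false_eq_true, if_false]
        refine ⟨⟨by omega, by omega, by omega, by omega⟩, by omega⟩
      have h2 : rt (g t) ∉ SB R r := by
        rw [mem_SB]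
        simp only [hg, rt, Bool.false_eq_true, if_false]
        intro h
        apply h.2
        refine ⟨by omega, Or.inl (by omega)⟩
      rw [if_pos h1, if_neg h2]
      simp [hg]
    rw [hs]
    unfold Kf gs
    rw [hk]
    simp only [hg, bs, bt, Bool.false_eq_true, if_false]
    push_cast
    ring
  rw [Finset.sum_congr rfl hterm, ← Finset.mul_sum,
    sum_tele (fun i : ℤ => Γ (D.tau (i, 0))) R]
  have e2 : Γ (D.tau (-(R : ℤ), 0)) = Gi := hΓ _ (far _ (Or.inl (by simp)))
  simp only [e2]
  ring

/-- the flux through the lower lip, any profile which is constant near the tip and far out -/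
theorem Fl_KfG_low {q : ℕ} {c₂ c₁ : ℝ} {n0 R r : ℕ} {Γ : ℝ → ℝ} {Gi G0 : ℝ} (hq : 1 ≤ q)
    (hn : q + 1 ≤ n0) (hr : 1 ≤ r) (hR : r ≤ R) (hR1 : 2 ≤ R)
    (hΓ : ∀ P : Z2, (r : ℝ) / 4 ≤ nrm P → Γ (D.tau P) = Gi)
    (hΓ0 : ∀ P : Z2, nrm P ≤ n0 → Γ (D.tau P) = G0) :
    Fl (SB R r) (Kf q c₂ c₁ Γ) (secl (SB R r) 1) = -(c₂ * (Gi - G0)) := by
  have hr0 : (0 : ℝ) < (r : ℝ) / 4 := by
    have : (1 : ℝ) ≤ r := by exact_mod_cast hr
    linarith
  have hn' : (1 : ℝ) ≤ n0 := by exact_mod_cast (by omega : 1 ≤ n0)
  have hrR : (r : ℝ) ≤ R := by exact_mod_cast hR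
  have hr1 : (1 : ℝ) ≤ r := by exact_mod_cast hr
  have Kz : ∀ e : Bnd, (r : ℝ) / 4 ≤ nrm (bs e) → (r : ℝ) / 4 ≤ nrm (bt e) →
      Kf q c₂ c₁ Γ e = 0 := by
    intro e h1 h2
    unfold Kf gs
    beta_reduce
    rw [hΓ _ h1, hΓ _ h2, sub_self, mul_zero]
  set g : ℕ → Bnd := fun t => (((t : ℤ) - R, -1), false) with hg
  have hginj : Set.InjOn g (Finset.range R) := by
    intro t _ t' _ h
    simp only [hg, Prod.mk.injEq] at h
    have := h.1.1
    omega
  have far : ∀ P : Z2, (R : ℤ) ≤ |P.1| ∨ (R : ℤ) ≤ |P.2| + 1 ∨ (r : ℤ) ≤ |P.1| →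
      (r : ℝ) / 4 ≤ nrm P := by
    intro P hP
    have h4 : (r : ℝ) / 4 ≤ r := by linarith
    rcases hP with h | h | h
    · have h1 : (R : ℝ) ≤ |(P.1 : ℝ)| := by exact_mod_cast h
      linarith [abs_le_nrm P]
    · have h1 : (R : ℝ) ≤ |(P.2 : ℝ)| + 1 := by exact_mod_cast h
      have h2 : (2 : ℝ) ≤ R := by exact_mod_cast hR1
      linarith [abs_le_nrm' P]
    · have h1 : (r : ℝ) ≤ |(P.1 : ℝ)| := by exact_mod_cast h
      linarith [abs_le_nrm P]
  have hsub : (Finset.range R).image g ⊆ bd (SB R r) := by
    intro e he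
    obtain ⟨t, ht, rfl⟩ := Finset.mem_image.1 he
    have ht' := Finset.mem_range.1 ht
    rw [mem_bd]
    right
    rw [mem_SB]
    simp only [hg, rt, Bool.false_eq_true, if_false]
    refine ⟨⟨by omega, by omega, by omega, by omega⟩, by omega⟩
  have hzero : ∀ e ∈ bd (SB R r), e ∉ (Finset.range R).image g →
      Kf q c₂ c₁ Γ e * ((secl (SB R r) 1 e : ℤ) : ℝ) = 0 := by
    intro e _ hne
    by_cases hs : secl (SB R r) 1 e = 0
    · rw [hs]; simp
    · have hK : Kf q c₂ c₁ Γ e = 0 := by
        obtain ⟨⟨i, j⟩, c⟩ := e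
        unfold secl at hs
        simp only at hs
        by_cases hj : 0 ≤ j
        · rw [if_pos hj] at hs
          exact absurd rfl hs
        · rw [if_neg hj] at hs
          have hxor : ¬ (lf ((i, j), c) ∈ SB R r ↔ rt ((i, j), c) ∈ SB R r) := by
            intro h
            apply hs
            by_cases h1 : lf ((i, j), c) ∈ SB R r
            · rw [if_pos h1, if_pos (h.1 h1)]; rfl
            · rw [if_neg h1, if_neg (fun h2 => h1 (h.2 h2))]; rfl
          rw [mem_SB, mem_SB] at hxor
          cases c
          · simp only [lf, rt, Bool.false_eq_true, if_false] at hxor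
            have hcase : j = -(R : ℤ) ∨ (j = -1 ∧ -(R : ℤ) ≤ i ∧ i < 0) ∨
                (j = -1 ∧ (r : ℤ) ≤ i) := by
              by_contra hcon
              apply hxor
              constructor <;> rintro ⟨⟨h1, h2, h3, h4⟩, h5⟩ <;>
                refine ⟨⟨by omega, by omega, by omega, by omega⟩, by omega⟩
            rcases hcase with h | h | h
            · refine Kz _ (far _ (Or.inr (Or.inl ?_))) (far _ (Or.inr (Or.inl ?_)))
              · simp only [bs]
                rw [h, abs_neg, abs_of_nonneg (by omega)]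
                omega
              · simp only [bt, Bool.false_eq_true, if_false]
                rw [h, abs_neg, abs_of_nonneg (by omega)]
                omega
            · exfalso
              apply hne
              rw [Finset.mem_image]
              refine ⟨(i + R).toNat, Finset.mem_range.2 (by omega), ?_⟩
              simp only [hg, Prod.mk.injEq, and_true]
              exact ⟨by omega, h.1.symm⟩
            · refine Kz _ (far _ (Or.inr (Or.inr ?_))) (far _ (Or.inr (Or.inr ?_)))
              · simp only [bs]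
                rw [abs_of_nonneg (by omega)]
                exact h.2
              · simp only [bt, Bool.false_eq_true, if_false]
                rw [abs_of_nonneg (by omega)]
                omega
          · simp only [lf, rt, if_true] at hxor
            have hcase : i = -(R : ℤ) ∨ i = r + R ∨ i = 0 ∨ (j = -1 ∧ i = r) := by
              by_contra hcon
              apply hxor
              constructor <;> rintro ⟨⟨h1, h2, h3, h4⟩, h5⟩ <;>
                refine ⟨⟨by omega, by omega, by omega, by omega⟩, by omega⟩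
            by_cases hi0 : i = 0
            · -- the face next to the tip
              have hj1 : j = -1 := by
                by_contra hj1
                apply hxor
                constructor <;> rintro ⟨⟨h1, h2, h3, h4⟩, h5⟩ <;>
                  refine ⟨⟨by omega, by omega, by omega, by omega⟩, by omega⟩
              unfold Kf gs
              beta_reduce
              have e1 : Γ (D.tau (bt ((i, j), true))) = G0 := by
                refine hΓ0 _ ?_
                unfold nrm bt
                rw [hi0, hj1]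
                simp
              have e2 : Γ (D.tau (bs ((i, j), true))) = G0 := by
                refine hΓ0 _ ?_
                unfold nrm bs
                rw [hi0, hj1]
                simp
                exact_mod_cast (by omega : 1 ≤ n0)
              rw [e1, e2]
              ring
            · have hi : (r : ℤ) ≤ |i| := by
                rcases hcase with h | h | h | h
                · rw [h, abs_neg, abs_of_nonneg (by omega)]
                  omega
                · rw [h, abs_of_nonneg (by omega)]; omega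
                · exact absurd h hi0
                · rw [h.2, abs_of_nonneg (by omega)]
              refine Kz _ (far _ (Or.inr (Or.inr ?_))) (far _ (Or.inr (Or.inr ?_)))
              · exact hi
              · simp only [bt, if_true]; exact hi
      rw [hK, zero_mul]
  unfold Fl
  rw [← Finset.sum_subset hsub hzero, Finset.sum_image hginj]
  have hterm : ∀ t ∈ Finset.range R, Kf q c₂ c₁ Γ (g t) * ((secl (SB R r) 1 (g t) : ℤ) : ℝ) =
      c₂ * ((fun i : ℤ => Γ (D.tau (i, -1))) ((t : ℤ) - R + 1) -
        (fun i : ℤ => Γ (D.tau (i, -1))) ((t : ℤ) - R)) := by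
    intro t ht
    have ht' := Finset.mem_range.1 ht
    have hs : secl (SB R r) 1 (g t) = 1 := by
      unfold secl
      have h1 : rt (g t) ∈ SB R r := by
        rw [mem_SB]
        simp only [hg, rt, Bool.false_eq_true, if_false]
        refine ⟨⟨by omega, by omega, by omega, by omega⟩, by omega⟩
      have h2 : lf (g t) ∉ SB R r := by
        rw [mem_SB]
        intro h
        apply h.2
        refine ⟨rfl, Or.inl ?_⟩
        show (t : ℤ) - R < 0
        omega
      rw [if_pos h1, if_neg h2]
      simp [hg]
    rw [hs]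
    have hgs : gs (fun P => Γ (D.tau P)) (g t) = Γ (D.tau ((t : ℤ) - R + 1, -1)) -
        Γ (D.tau ((t : ℤ) - R, -1)) := by
      unfold gs
      simp only [hg, bs, bt, Bool.false_eq_true, if_false]
    by_cases hk : (t : ℤ) - R ≤ -(q : ℤ)
    · have hkf : kf q c₂ c₁ (g t) = c₂ := by
        unfold kf
        refine if_pos (Or.inr ⟨⟨?_, ?_⟩, rfl, rfl⟩)
        · simp only [hg, rt, Bool.false_eq_true, if_false]
          norm_num
        · show (q : ℤ) * (-1 - (-1 - 1)) ≤ -((t : ℤ) - R)
          have : (q : ℤ) * (-1 - (-1 - 1)) = q := by ring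
          rw [this]
          linarith
      unfold Kf
      rw [hkf, hgs]
      push_cast
      ring
    · have hnear : ∀ i : ℤ, -(q : ℤ) ≤ i → i ≤ 0 → Γ (D.tau (i, -1)) = G0 := by
        intro i h1 h2
        refine hΓ0 _ ?_
        unfold nrm
        rw [Real.sqrt_le_left (by linarith)]
        have h3 : ((i : ℤ) : ℝ) ^ 2 ≤ (q : ℝ) ^ 2 := by
          have : |(i : ℝ)| ≤ q := by
            rw [abs_le]
            constructor
            · exact_mod_cast h1
            · have : (i : ℝ) ≤ 0 := by exact_mod_cast h2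
              have : (0 : ℝ) ≤ q := by positivity
              linarith
          rw [← sq_abs]
          exact pow_le_pow_left₀ (abs_nonneg _) this 2
        have h4 : (q : ℝ) + 1 ≤ n0 := by exact_mod_cast hn
        have h5 : (0 : ℝ) ≤ q := by positivity
        push_cast
        nlinarith
      unfold Kf
      rw [hgs, hnear _ (by omega) (by omega), hnear _ (by omega) (by omega)]
      simp only
      rw [hnear _ (by omega) (by omega), hnear _ (by omega) (by omega)]
      ring
  rw [Finset.sum_congr rfl hterm, ← Finset.mul_sum,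
    sum_tele (fun i : ℤ => Γ (D.tau (i, -1))) R]
  have e1 : Γ (D.tau (0, -1)) = G0 := by
    refine hΓ0 _ ?_
    unfold nrm
    simp
    exact_mod_cast (by omega : 1 ≤ n0)
  have e2 : Γ (D.tau (-(R : ℤ), -1)) = Gi := hΓ _ (far _ (Or.inl (by simp)))
  simp only [e1, e2]
  ring

/-- total charge, any profile -/
theorem tot_roG {Y V : ℝ} {q n0 R r : ℕ} {Γ : ℝ → ℝ} {Gi G0 : ℝ} (hq : 1 ≤ q)
    (hn : q + 1 ≤ n0) (hr : 1 ≤ r) (hR : r ≤ R) (hR1 : 2 ≤ R)
    (hΓ : ∀ P : Z2, (r : ℝ) / 4 ≤ nrm P → Γ (D.tau P) = Gi)
    (hΓ0 : ∀ P : Z2, nrm P ≤ n0 → Γ (D.tau P) = G0) : ∑ f ∈ SB R r, ro Y V q Γ f =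
      (V / (Y * ang q) + V / (Y * (2 * Real.pi - ang q))) * (Gi - G0) := by
  have h1 := isDiv_Kf (Y := Y) (V := V) (R := R) (r := r) hq Γ 0
  rw [isDiv_iff] at h1
  rw [← Finset.sum_congr rfl h1, tot_dv, Fl_KfG hr hR hΓ, Fl_KfG_low hq hn hr hR hR1 hΓ hΓ0,
    hΓ0 (0, 0) (by unfold nrm; simp)]
  ring

end Vale.Agent.P159.T1.H565
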